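import Vale.Agent.P173.Raag

/-! The band of width two in the Salvetti complex is acyclic. -/

namespace Vale.Agent.P173

open Finsupp

variable {V : Type} [LinearOrder V] {G : SimpleGraph V}

noncomputable def dl : (Finset V →₀ ℤ) →ₗ[ℤ] Finset V →₀ ℤ := linearCombination ℤ fun σ =>
  ∑ v ∈ σ, sgn σ v • single (σ.erase v) 1

theorem dl1 (v : V) : dl (single {v} 1) = single ∅ 1 := by
  simp [dl, sgn, Finset.filter_singleton]

theorem dl2 {u v : V} (h : u < v) : dl (single {u, v} 1) = single {v} 1 - single {u} 1 := by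
  simp [dl, sgn, Finset.filter_singleton, Finset.filter_insert, h.ne, h.ne', h, h.not_gt,
    Finset.erase_insert_of_ne, sub_eq_add_neg]

theorem dl3 {u v w : V} (h : u < v) (h' : v < w) :
    dl (single {u, v, w} 1) = single {v, w} 1 - single {u, w} 1 + single {u, v} 1 := by
  have := h.trans h'
  simp [dl, sgn, Finset.filter_singleton, Finset.filter_insert, h.ne, h.ne', h, h.not_gt, h'.ne,
    h'.ne', h', h'.not_gt, this, this.ne, this.ne', this.not_gt, Finset.erase_insert_of_ne,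
    sub_eq_add_neg, add_assoc]

def Cq (G : SimpleGraph V) (d : ℕ) (σ : Finset V) : Prop := G.IsClique (σ : Set V) ∧ σ.card = d

/-- a certificate that the flag complex is two-dimensional and acyclic -/
structure Acy (G : SimpleGraph V) where
  v0 : V
  P : V → Finset V →₀ ℤ
  W : V → V → Finset V →₀ ℤ
  hP : ∀ v, P v ∈ Sup (Cq G 2) ∧ dl (P v) = single {v} 1 - single {v0} 1
  hW : ∀ u v, u < v → G.Adj u v →
    W u v ∈ Sup (Cq G 3) ∧ dl (W u v) + (P v - P u) = single {u, v} 1
  h3 : ∀ u v w, u < v → v < w → G.Adj u v → G.Adj v w → G.Adj u w →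
    W v w - W u w + W u v = single {u, v, w} 1
  h4 : ∀ σ : Finset V, G.IsClique (σ : Set V) → σ.card ≤ 3

theorem card_two {σ : Finset V} (h : σ.card = 2) : ∃ u v, u < v ∧ σ = {u, v} := by
  obtain ⟨u, v, h', rfl⟩ := Finset.card_eq_two.1 h
  rcases h'.lt_or_gt with h' | h'
  exacts [⟨u, v, h', rfl⟩, ⟨v, u, h', Finset.pair_comm _ _⟩]

theorem card_three {σ : Finset V} (h : σ.card = 3) :
    ∃ u v w, u < v ∧ v < w ∧ σ = {u, v, w} := by
  have hn : σ.Nonempty := Finset.card_pos.1 (by omega)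
  obtain ⟨v, w, h1, h2⟩ := card_two (σ := σ.erase (σ.min' hn))
    (by rw [Finset.card_erase_of_mem (σ.min'_mem hn), h])
  have : v ∈ σ.erase (σ.min' hn) := by simp [h2]
  exact ⟨σ.min' hn, v, w, lt_of_le_of_ne (σ.min'_le v (Finset.mem_of_mem_erase this))
    (Finset.ne_of_mem_erase this).symm, h1, by rw [← h2, Finset.insert_erase (σ.min'_mem hn)]⟩

theorem Acy.hom (L : Acy G) : ∃ Hm : Finset V → Finset V →₀ ℤ, ∀ σ : Finset V,
    G.IsClique (σ : Set V) → Hm σ ∈ Sup (Cq G (σ.card + 1)) ∧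
      dl (Hm σ) + linearCombination ℤ Hm (dl (single σ 1)) = single σ 1 := by
  let Hm : Finset V → Finset V →₀ ℤ := fun σ => if h : σ.Nonempty then
    if σ.card = 1 then L.P (σ.min' h) else if σ.card = 2 then L.W (σ.min' h) (σ.max' h) else 0
    else single {L.v0} 1
  have e0 : Hm ∅ = single {L.v0} 1 := by simp [Hm]
  have e1 : ∀ v, Hm {v} = L.P v := by simp [Hm]
  have e2 : ∀ u v, u < v → Hm {u, v} = L.W u v := fun u v h => by
    simp [Hm, Finset.card_pair h.ne, h.le]
  refine ⟨Hm, fun σ hσ => ?_⟩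
  have := L.h4 σ hσ
  rcases (by omega : σ.card = 0 ∨ σ.card = 1 ∨ σ.card = 2 ∨ σ.card = 3) with h | h | h | h
  · obtain rfl := Finset.card_eq_zero.1 h
    rw [e0, dl1]
    exact ⟨sup_single ⟨by simp, rfl⟩, by simp [dl]⟩
  · obtain ⟨v, rfl⟩ := Finset.card_eq_one.1 h
    rw [e1, dl1, (L.hP v).2]
    exact ⟨(L.hP v).1, by simp [e0]⟩
  · obtain ⟨u, v, h1, rfl⟩ := card_two h
    have := L.hW u v h1 (hσ (by simp) (by simp) h1.ne)
    rw [e2 _ _ h1, dl2 h1, h]
    exact ⟨this.1, by simpa [e1] using this.2⟩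
  · have e3 : Hm σ = 0 := by simp [Hm, h, Finset.card_pos.1 (by omega : 0 < σ.card)]
    obtain ⟨u, v, w, h1, h2, rfl⟩ := card_three h
    rw [e3, dl3 h1 h2]
    refine ⟨zero_mem _, ?_⟩
    simpa [e2, h1, h2, h1.trans h2] using L.h3 u v w h1 h2 (hσ (by simp) (by simp) h1.ne)
      (hσ (by simp) (by simp) h2.ne) (hσ (by simp) (by simp) (h1.trans h2).ne)

theorem dl_sup {σ : Finset V} (h : G.IsClique (σ : Set V)) :
    dl (single σ 1) ∈ Sup fun τ : Finset V => G.IsClique (τ : Set V) := by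
  simp only [dl, linearCombination_single, one_smul]
  exact sum_mem fun v _ => Submodule.smul_mem _ _ (sup_single (h.subset (by simp)))

theorem Acy.exact (L : Acy G) (op : Ch G →ₗ[ℤ] Ch G) (j : Ra G → Finset V → Ra G)
    (y : Ra G × Finset V → Ra G) (h1 : ∀ c, j (y c) c.2 = c.1) (h2 : ∀ a σ, y (j a σ, σ) = a)
    (h3 : ∀ a (σ : Finset V), G.IsClique (σ : Set V) → op (single (j a σ, σ) 1) =
      mapDomain (fun τ => (j a τ, τ)) (dl (single σ 1))) (Q : Ra G → Prop) (d : ℕ) {z : Ch G}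
    (hz : z ∈ Sup fun c => Cq G d c.2 ∧ Q (y c)) (h : op z = 0) :
    ∃ w ∈ Sup fun c => Cq G (d + 1) c.2 ∧ Q (y c), op w = z := by
  obtain ⟨Hm, H⟩ := L.hom
  let J : Ra G → (Finset V →₀ ℤ) →ₗ[ℤ] Ch G := fun a => lmapDomain ℤ ℤ fun τ => (j a τ, τ)
  let HH : Ch G →ₗ[ℤ] Ch G := linearCombination ℤ fun c => J (y c) (Hm c.2)
  refine ⟨HH z, sup_mem (fun c hc => ?_) hz, ?_⟩
  · simp only [HH, linearCombination_single, one_smul]
    exact sup_mem (fun τ hτ => by
      simpa [J] using sup_single ⟨hc.1.2 ▸ hτ, by simpa [h2] using hc.2⟩) (H _ hc.1.1).1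
  · have := sup_eq (f := op ∘ₗ HH + HH ∘ₗ op) (g := LinearMap.id) (fun c hc => by
      have e1 := sup_eq (f := op ∘ₗ J (y c)) (g := J (y c) ∘ₗ dl) (fun τ hτ => by
        simpa [J] using h3 _ _ hτ.1) (H _ hc.1.1).1
      have e2 : HH ∘ₗ J (y c) = J (y c) ∘ₗ linearCombination ℤ Hm :=
        lhom_ext' fun τ => LinearMap.ext_ring (by simp [J, HH, h2])
      have e3 := h3 (y c) _ hc.1.1
      rw [h1] at e3
      have e4 := congrArg (J (y c)) (H _ hc.1.1).2
      have e5 := DFunLike.congr_fun e2 (dl (single c.2 1))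
      simp only [LinearMap.comp_apply, map_add] at e1 e4 e5
      rw [← e1, ← e5] at e4
      simpa [HH, J, e3, h1] using e4) hz
    simpa [h] using this

theorem push {α : Type*} (a b : (α →₀ ℤ) →ₗ[ℤ] α →₀ ℤ) (K : α → Prop) (l : α → ℤ) (m : ℤ)
    (ha : ∀ c, K c → a (single c 1) ∈ Sup (l · = l c))
    (hb : ∀ c, K c → b (single c 1) ∈ Sup (l · = l c - 1))
    (hex : ∀ s, m < s → ∀ y ∈ Sup fun c => K c ∧ l c = s, a y = 0 → ∃ w, a w = y ∧
      (a + b) ((a + b) w) = 0 ∧ b w ∈ Sup fun c => K c ∧ l c = s - 1) {y : α →₀ ℤ}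
    (hy : y ∈ Sup K) (h : (a + b) y ∈ Sup (l · ≤ m)) :
    ∃ y' ∈ Sup fun c => K c ∧ l c ≤ m, (a + b) y' = (a + b) y := by
  classical
  obtain ⟨N, hN⟩ : ∃ N : ℕ, y ∈ Sup fun c => K c ∧ l c ≤ m + N := by
    obtain ⟨B, hB⟩ := (y.support.finite_toSet.image l).bddAbove
    exact ⟨(B - m).toNat, fun c hc => ⟨hy hc, (hB ⟨c, hc, rfl⟩).trans (by omega)⟩⟩
  clear hy
  induction N generalizing y with
  | zero => exact ⟨y, by simpa using hN, rfl⟩
  | succ N ih =>
    have t1 : y.filter (l · = m + N + 1) ∈ Sup fun c => K c ∧ l c = m + N + 1 := fun c hc => by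
      simp only [support_filter, Finset.coe_filter] at hc
      exact ⟨(hN hc.1).1, hc.2⟩
    have t2 : y.filter (fun c => ¬ l c = m + N + 1) ∈ Sup fun c => K c ∧ l c ≤ m + N := fun c hc => by
      simp only [support_filter, Finset.coe_filter] at hc
      have := (hN hc.1).2
      exact ⟨(hN hc.1).1, by have := hc.2; push_cast at *; omega⟩
    have e := filter_add_filter_not y (l · = m + N + 1)
    have t3 : a (y.filter (l · = m + N + 1)) = 0 := by
      have s1 : a (y.filter (l · = m + N + 1)) ∈ Sup (l · = m + N + 1) :=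
        sup_mem (fun c hc => hc.2 ▸ ha c hc.1) t1
      have s2 : a (y.filter (l · = m + N + 1)) ∈ Sup (l · ≤ m + N) := by
        have : a (y.filter (l · = m + N + 1)) = (a + b) y -
            a (y.filter fun c => ¬ l c = m + N + 1) -
            b (y.filter fun c => ¬ l c = m + N + 1) - b (y.filter (l · = m + N + 1)) := by
          have := congrArg (a + b) e
          rw [← this]
          simp only [LinearMap.add_apply, map_add]
          abel
        rw [this]
        exact sub_mem (sub_mem (sub_mem (sup_mono (fun c hc => by omega) h)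
          (sup_mem (fun c hc => sup_mono (fun c' h' => by omega) (ha c hc.1)) t2))
          (sup_mem (fun c hc => sup_mono (fun c' h' => by omega) (hb c hc.1)) t2))
          (sup_mem (fun c hc => sup_mono (fun c' h' => by omega) (hb c hc.1)) t1)
      ext c
      by_contra hc
      have := s1 (mem_support_iff.2 hc)
      have := s2 (mem_support_iff.2 hc)
      simp only [Set.mem_setOf_eq] at *
      omega
    obtain ⟨w, w1, w2, w3⟩ := hex _ (by omega) _ t1 t3
    have e' : (a + b) (y - (a + b) w) = (a + b) y := by rw [map_sub, w2, sub_zero]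
    rw [← e'] at h ⊢
    refine ih h ?_
    rw [LinearMap.add_apply, w1, ← sub_sub, ← eq_sub_of_add_eq' e]
    exact sub_mem t2 (sup_mono (fun c hc => ⟨hc.1, by omega⟩) w3)

def ht : Ra G →* Multiplicative ℤ := liftA (fun _ => .ofAdd 1) fun _ _ _ => rfl

def hh (x : Ra G) : ℤ := (ht x).toAdd

omit [LinearOrder V] in
@[simp] theorem hh_mul (x y : Ra G) : hh (x * y) = hh x + hh y := by simp [hh]
omit [LinearOrder V] in
@[simp] theorem hh_inv (x : Ra G) : hh x⁻¹ = -hh x := by simp [hh]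
omit [LinearOrder V] in
@[simp] theorem hh_one : hh (1 : Ra G) = 0 := by simp [hh]
omit [LinearOrder V] in
@[simp] theorem hh_gn (v : V) : hh (gn G v) = 1 := by simp [hh, ht]
omit [LinearOrder V] in
@[simp] theorem hh_zpow (x : Ra G) (n : ℤ) : hh (x ^ n) = n * hh x := by simp [hh]

open Classical in
noncomputable def tp (σ : Finset V) : Ra G := if h : G.IsClique (σ : Set V) then
  σ.noncommProd (gn G) fun _ hu _ hv e => gn_comm (h hu hv e) else 1

theorem tp_erase {σ : Finset V} (h : G.IsClique (σ : Set V)) {v : V} (hv : v ∈ σ) :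
    gn G v * tp (σ.erase v) = tp σ := by
  rw [tp, tp, dif_pos h, dif_pos (h.subset (by simp))]
  exact Finset.mul_noncommProd_erase _ hv _ _

theorem hh_tp {σ : Finset V} (h : G.IsClique (σ : Set V)) : hh (tp σ : Ra G) = σ.card := by
  induction σ using Finset.induction_on with
  | empty => rw [tp, dif_pos h]; exact (congrArg hh (Finset.noncommProd_empty _ _)).trans (by simp)
  | insert v σ hv ih =>
    rw [← tp_erase h (Finset.mem_insert_self _ _), Finset.erase_insert hv, hh_mul,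
      ih (h.subset (by simp)), Finset.card_insert_of_notMem hv]
    simp [add_comm]

theorem up_sup {P : Ra G × Finset V → Prop} {c : Ra G × Finset V}
    (h : ∀ v ∈ c.2, P (c.1 * gn G v, c.2.erase v)) : up (single c 1) ∈ Sup P := by
  simp only [up, linearCombination_single, one_smul]
  exact sum_mem fun v hv => Submodule.smul_mem _ _ (sup_single (h v hv))

theorem dn_sup {P : Ra G × Finset V → Prop} {c : Ra G × Finset V}
    (h : ∀ v ∈ c.2, P (c.1, c.2.erase v)) : dn (single c 1) ∈ Sup P := by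
  simp only [dn, linearCombination_single, one_smul]
  exact sum_mem fun v hv => Submodule.smul_mem _ _ (sup_single (h v hv))

theorem Cq.erase {d : ℕ} {σ : Finset V} (h : Cq G (d + 1) σ) {v : V} (hv : v ∈ σ) :
    Cq G d (σ.erase v) := ⟨h.1.subset (by simp), by rw [Finset.card_erase_of_mem hv, h.2]; rfl⟩

/-- cells of the band -/
def Xq (d : ℕ) (c : Ra G × Finset V) : Prop := Cq G d c.2 ∧ 0 ≤ hh c.1 ∧ hh c.1 + d ≤ 2

noncomputable def eps : Ch G →ₗ[ℤ] ℤ := linearCombination ℤ fun c => if c.2 = ∅ then 1 else 0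

theorem bd_sup {d : ℕ} {z : Ch G} (hz : z ∈ Sup (Xq (d + 1))) : bd z ∈ Sup (Xq d) :=
  sup_mem (fun c hc => by
    obtain ⟨h1, h2, h3⟩ := hc
    push_cast at h3
    exact sub_mem (up_sup fun v hv => ⟨h1.erase hv, by simp; omega, by simp; omega⟩)
      (dn_sup fun v hv => ⟨h1.erase hv, h2, by simp; omega⟩)) hz

theorem Acy.band [Fintype V] (L : Acy G) {d : ℕ} {z : Ch G} (hz : z ∈ Sup (Xq d)) (h1 : bd z = 0)
    (h2 : eps z = 0) : ∃ y ∈ Sup (Xq (d + 1)), bd y = z := by
  have q : ∀ x : Ra G, qM Finset.univ x = 1 := fun x => by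
    have : (rM Finset.univ : Ra G →* Ra G) = MonoidHom.id _ :=
      PresentedGroup.ext fun v => (liftA_gn _ _ v).trans (if_pos (Finset.mem_univ _))
    simp [qM, this]
  have : (aug Finset.univ : Ch G →ₗ[ℤ] _) = lsingle 1 ∘ₗ eps :=
    lhom_ext' fun c => LinearMap.ext_ring (by by_cases e : c.2 = ∅ <;> simp [aug, eps, q, e])
  obtain ⟨y, hy, rfl⟩ := salv Finset.univ d z
    (sup_mono (fun c hc => ⟨hc.1.1, Finset.subset_univ _, hc.1.2⟩) hz) h1 (by simp [this, h2])
  have b1 : (bd : Ch G →ₗ[ℤ] _) = up + -dn := sub_eq_add_neg _ _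
  have b2 : (bd : Ch G →ₗ[ℤ] _) = -dn + up := b1.trans (add_comm _ _)
  obtain ⟨y1, hy1, e1⟩ := push up (-dn) (fun c : Ra G × Finset V => Cq G (d + 1) c.2)
    (fun c => hh c.1 + (d + 1) - (d + 1 - c.2.card)) 2
    (fun c hc => up_sup fun v hv => by simp [(hc.erase hv).2, hc.2]; ring)
    (fun c hc => neg_mem (dn_sup fun v hv => by simp [(hc.erase hv).2, hc.2]))
    (fun s _ y hy h => by
      obtain ⟨w, w1, w2⟩ := L.exact up (fun a σ => a * (tp σ)⁻¹) (fun c => c.1 * tp c.2) (by simp)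
        (by simp) (fun a σ hσ => by
          simp only [up, dl, linearCombination_single, one_smul, mapDomain_finset_sum,
            mapDomain_smul, mapDomain_single]
          refine Finset.sum_congr rfl fun v hv => ?_
          rw [← tp_erase hσ hv]; simp [mul_assoc]) (hh · = s) (d + 1)
        (sup_mono (fun c hc => ⟨hc.1, by simp [hh_tp hc.1.1, ← hc.2]; ring⟩) hy) h
      refine ⟨w, w2, b1 ▸ bd_bd (sup_mono (fun c hc => hc.1.1) w1), neg_mem (sup_mem
        (fun c hc => dn_sup fun v hv => ⟨hc.1.erase hv, ?_⟩) w1)⟩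
      simp [← hc.2, hh_tp hc.1.1, (hc.1.erase hv).2, hc.1.2]; ring)
    (sup_mono (fun c hc => ⟨hc.1, hc.2.2⟩) hy)
    (b1 ▸ sup_mono (fun c hc => by have := hc.2.2; simp [hc.1.2]; omega) hz)
  obtain ⟨y2, hy2, e2⟩ := push (-dn) up
    (fun c : Ra G × Finset V => Cq G (d + 1) c.2 ∧ hh c.1 + (d + 1) ≤ 2) (fun c => -hh c.1) 0
    (fun c hc => neg_mem (dn_sup fun v hv => rfl))
    (fun c hc => up_sup fun v hv => by simp; ring)
    (fun s hs y hy h => by
      obtain ⟨w, w1, w2⟩ := L.exact dn (fun a σ => a) (fun c => c.1) (by simp)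
        (by simp) (fun a σ hσ => by
          simp only [dn, dl, linearCombination_single, one_smul, mapDomain_finset_sum,
            mapDomain_smul, mapDomain_single]) (-hh · = s) (d + 1)
        (sup_mono (fun c hc => ⟨hc.1.1, hc.2⟩) hy) (by simpa using h)
      refine ⟨-w, by simp [w2], b2 ▸ bd_bd (neg_mem (sup_mono (fun c hc => hc.1.1) w1)),
        map_neg up w ▸ neg_mem (sup_mem (fun c hc => up_sup fun v hv =>
          ⟨⟨hc.1.erase hv, ?_⟩, by simp [← hc.2]; ring⟩) w1)⟩
      have := L.h4 _ hc.1.1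
      have := hc.2
      rw [hc.1.2] at *
      simp; omega)
    (sup_mono (fun c hc => ⟨hc.1, by simpa [hc.1.2] using hc.2⟩) hy1)
    (b2 ▸ b1 ▸ e1 ▸ b1 ▸ sup_mono (fun c hc => by simpa using hc.2.1) hz)
  rw [← b1] at e1
  rw [← b2] at e2
  exact ⟨y2, sup_mono (fun c hc => ⟨hc.1.1, by simpa using hc.2, by simpa using hc.1.2⟩) hy2,
    e2.trans e1⟩

end Vale.Agent.P173
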