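import Vale.Agent.P173.CxPres

/-! The universal cover of a two-dimensional CW complex. -/

namespace Vale.Agent.P173

open Topology Filter Set Metric CWComplex

universe u

noncomputable def rr {n : ℕ} (x : Fin n → ℝ) : Fin n → ℝ := (max 1 ‖x‖)⁻¹ • x

theorem rr_c {n : ℕ} : Continuous (rr : (Fin n → ℝ) → _) :=
  ((continuous_const.max continuous_norm).inv₀
    fun _ => (lt_max_of_lt_left one_pos).ne').smul continuous_id

theorem rr_le {n : ℕ} {x : Fin n → ℝ} (h : ‖x‖ ≤ 1) : rr x = x := by simp [rr, h]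

theorem rr_ge {n : ℕ} {x : Fin n → ℝ} (h : 1 ≤ ‖x‖) : rr x = ‖x‖⁻¹ • x ∧ ‖rr x‖ = 1 := by
  simp [rr, h, norm_smul, inv_mul_cancel₀ (one_pos.trans_le h).ne']

theorem rr_norm {n : ℕ} (x : Fin n → ℝ) : ‖rr x‖ ≤ 1 := by
  rcases le_total ‖x‖ 1 with h | h
  exacts [by rwa [rr_le h], (rr_ge h).2.le]

variable {X : Type u} [TopologicalSpace X] [CWComplex (univ : Set X)]

noncomputable def ch {n : ℕ} (i : cell (univ : Set X) n) (x : Fin n → ℝ) : X := map n i (rr x)

theorem ch_c {n : ℕ} (i : cell (univ : Set X) n) : Continuous (ch i) :=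
  (continuousOn n i).comp_continuous rr_c fun x => mem_closedBall_zero_iff.2 (rr_norm x)

theorem ch_open {n : ℕ} (i : cell (univ : Set X) n) {x} (h : ‖x‖ < 1) : ch i x ∈ openCell n i :=
  ⟨x, mem_ball_zero_iff.2 h, by rw [ch, rr_le h.le]⟩

theorem ch_fr {n : ℕ} (i : cell (univ : Set X) n) {x} (h : 1 ≤ ‖x‖) : ch i x ∈ cellFrontier n i :=
  ⟨rr x, mem_sphere_zero_iff_norm.2 (rr_ge h).2, rfl⟩

theorem of_open {n : ℕ} {i : cell (univ : Set X) n} {y} (h : y ∈ openCell n i) :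
    ∃ x, ‖x‖ < 1 ∧ y = ch i x := by
  obtain ⟨x, h, rfl⟩ := h
  exact ⟨x, mem_ball_zero_iff.1 h, by rw [ch, rr_le (mem_ball_zero_iff.1 h).le]⟩

theorem ch_cell {n m : ℕ} {i : cell (univ : Set X) n} {j : cell (univ : Set X) m} {x y}
    (hx : ‖x‖ < 1) (hy : ‖y‖ < 1) (e : ch i x = ch j y) :
    (⟨n, i⟩ : Σ n, cell (univ : Set X) n) = ⟨m, j⟩ :=
  eq_of_not_disjoint_openCell (not_disjoint_iff.2 ⟨_, ch_open i hx, e ▸ ch_open j hy⟩)

theorem ch_inj {n : ℕ} {i j : cell (univ : Set X) n} {x y} (hx : ‖x‖ < 1) (hy : ‖y‖ < 1)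
    (e : ch i x = ch j y) : i = j ∧ x = y := by
  obtain rfl : i = j := eq_of_heq (Sigma.mk.inj (ch_cell hx hy e)).2
  rw [ch, ch, rr_le hx.le, rr_le hy.le] at e
  exact ⟨rfl, (map n i).injOn (by simpa [source_eq] using hx) (by simpa [source_eq] using hy) e⟩

theorem cell_zero {n : ℕ} (i : cell (univ : Set X) n) : Nonempty (cell (univ : Set X) 0) := by
  induction n using Nat.strong_induction_on with
  | _ n ih =>
    rcases eq_or_ne n 0 with rfl | h
    · exact ⟨i⟩
    obtain ⟨x, hx⟩ := nonempty_cellFrontier h i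
    obtain ⟨I, hI⟩ := cellFrontier_subset_finite_closedCell n i
    simp only [subset_def, mem_iUnion] at hI
    obtain ⟨m, hm, j, -⟩ := hI x hx
    exact ih m hm j

theorem exists_open (x : X) : ∃ n i, x ∈ openCell (C := (univ : Set X)) n i := by
  simpa [← iUnion_openCell_eq_complex (C := (univ : Set X))] using
    (iUnion_openCell_eq_complex (C := (univ : Set X))).ge (mem_univ x)

variable [T2Space X]

theorem ch_closed {n : ℕ} (i : cell (univ : Set X) n) {B : Set X} (h : IsClosed (ch i ⁻¹' B)) :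
    IsClosed (B ∩ closedCell n i) := by
  convert (((isCompact_closedBall 0 1).inter_left h).image (ch_c i)).isClosed using 1
  rw [image_preimage_inter]
  congr 1
  exact image_congr fun x hx => by rw [ch, rr_le (mem_closedBall_zero_iff.1 hx)]

theorem cw_lpc : LocallyPathConnectedSpace X :=
  (isQuotientMap_iff_isClosed (f := fun z : Σ c : Σ n, cell (univ : Set X) n, Fin c.1 → ℝ =>
    ch z.1.2 z.2).2 ⟨fun x => by
      obtain ⟨n, i, h⟩ := exists_open x
      obtain ⟨z, -, rfl⟩ := of_open h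
      exact ⟨⟨⟨n, i⟩, z⟩, rfl⟩, fun s => ⟨fun h => h.preimage (continuous_sigma fun c => ch_c c.2),
      fun h => (closed _ s (subset_univ _)).2 fun n j =>
        ch_closed j (isClosed_sigma_iff.1 h ⟨n, j⟩)⟩⟩).locallyPathConnectedSpace

theorem sk_closed (K : ℕ) {B : Set X}
    (h : ∀ n, 0 < n → n ≤ K → ∀ i : cell (univ : Set X) n, IsOpen (ch i ⁻¹' B)) :
    IsClosed ((skeleton (univ : Set X) K : Set X) \ B) :=
  isClosed_of_disjoint_openCell_or_isClosed_inter_closedCell (subset_univ _) fun n h0 j => by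
    rcases le_or_gt n K with h1 | h1
    · exact .inr (ch_closed j (((skeleton (univ : Set X) K).closed.preimage (ch_c j)).sdiff
        (h n h0 h1 j)))
    · exact .inl ((disjoint_skeleton_openCell (by exact_mod_cast h1)).mono_left diff_subset)

variable {D Y : Type*} [Group D] [TopologicalSpace Y] [MulAction D Y] {p : Y → X}
  (hp : IsQuotientCoveringMap p D)
include hp

omit [T2Space X] in
theorem exists_lift {n : ℕ} (i : cell (univ : Set X) n) {x0 y0} (h0 : ‖x0‖ ≤ 1)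
    (h : p y0 = ch i x0) : ∃ Φ : (Fin n → ℝ) → Y, Continuous Φ ∧ (∀ x, p (Φ x) = ch i x) ∧
      (∀ x, Φ (rr x) = Φ x) ∧ Φ x0 = y0 := by
  obtain ⟨F, ⟨a, b⟩, -⟩ := hp.isCoveringMap.existsUnique_continuousMap_lifts ⟨_, ch_c i⟩ x0 y0 h
  exact ⟨fun x => F (rr x), F.continuous.comp rr_c, fun x => (congrFun b _).trans (by
    simp [ch, rr_le (rr_norm x)]), fun x => by simp [rr_le (rr_norm x)], by simp [rr_le h0, a]⟩

theorem wt (K : ℕ) {A : Set Y} (h : ∀ n, 0 < n → n ≤ K → ∀ i : cell (univ : Set X) n,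
    ∃ Φ : (Fin n → ℝ) → Y, Continuous Φ ∧ (∀ x, p (Φ x) = ch i x) ∧
      ∀ d : D, IsOpen {x | d • Φ x ∈ A}) {y : Y} (hy : y ∈ A) :
    ∀ᶠ y' in 𝓝 y, p y' ∈ skeleton (univ : Set X) K → y' ∈ A := by
  have := hp.toContinuousConstSMul
  obtain ⟨U, h1, h2⟩ := hp.disjoint y
  have := sk_closed K (B := p '' (A ∩ interior U)) fun n a b i => by
    obtain ⟨Φ, c1, c2, c3⟩ := h n a b i
    convert isOpen_iUnion fun d : D => (c3 d).inter (isOpen_interior (s := U).preimage
      (c1.const_smul d))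
    ext x
    simp only [mem_preimage, mem_iUnion, ← c2]
    refine ⟨fun ⟨z, a, b⟩ => ?_, fun ⟨d, a⟩ => ⟨_, a, hp.map_smul d⟩⟩
    obtain ⟨d, rfl⟩ := hp.apply_eq_iff_mem_orbit.1 b
    exact ⟨d, a⟩
  filter_upwards [h1, (this.preimage hp.continuous).isOpen_compl.mem_nhds fun e =>
    e.2 ⟨y, ⟨hy, mem_interior_iff_mem_nhds.2 h1⟩, rfl⟩] with y' a b c
  obtain ⟨z, e1, e2⟩ := not_not.1 fun e => b ⟨c, e⟩
  obtain ⟨d, rfl⟩ := hp.apply_eq_iff_mem_orbit.1 e2
  simpa [h2 d ⟨_, ⟨y', a, rfl⟩, interior_subset e1.2⟩] using e1.1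

def i1 (s : ℝ) : Fin 1 → ℝ := fun _ => s

def i2 (z : ℂ) : Fin 2 → ℝ := ![z.re, z.im]

omit hp in
@[simp] theorem i1_norm (s : ℝ) : ‖i1 s‖ = |s| := pi_norm_const s

omit hp in
theorem i1_eq (x : Fin 1 → ℝ) : i1 (x 0) = x := funext fun i => by rw [Subsingleton.elim i 0, i1]

omit hp in
theorem i2_eq (x : Fin 2 → ℝ) : i2 (x 0 + x 1 * Complex.I) = x :=
  funext fun i => by fin_cases i <;> simp [i2]

omit hp in
theorem i2_smul (r : ℝ) (z : ℂ) : i2 (r • z) = r • i2 z :=
  funext fun i => by fin_cases i <;> simp [i2]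

omit hp in
theorem i2_inj : Function.Injective i2 := fun _ _ h =>
  Complex.ext (congrFun h 0) (congrFun h 1)

theorem exists_cx [Nonempty Y] (dim : ∀ n, 2 < n → IsEmpty (cell (univ : Set X) n)) :
    Nonempty (Cx.{u} D Y) := by
  have := hp.isCancelSMul
  have orb : ∀ {y y'}, p y = p y' → ∃ d : D, y = d • y' := fun h =>
    (hp.apply_eq_iff_mem_orbit.1 h).imp fun _ h => h.symm
  choose vt hv using fun v : cell (univ : Set X) 0 => hp.surjective (ch v 0)
  have fr : ∀ (e : cell (univ : Set X) 1) s, 1 ≤ |s| → ∃ v, p (vt v) = ch e (i1 s) :=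
    fun e s hs => by
      obtain ⟨m, hm, j, h⟩ := mem_skeleton_iff.1
        (cellFrontier_subset_skeleton 0 e (ch_fr e (x := i1 s) (by simpa using hs)))
      obtain rfl : m = 0 := by simpa using hm
      obtain ⟨x, -, h⟩ := of_open h
      exact ⟨j, by rw [hv, h, Subsingleton.elim x 0]⟩
  choose src hs using fun e => fr e (-1) (by simp)
  choose tgt ht using fun e => fr e 1 (by simp)
  choose Φ Φ1 Φ2 Φ3 Φ4 using fun e => exists_lift hp e (by simp) (hs e)
  choose pe hpe using fun e => orb ((Φ2 e (i1 1)).trans (ht e).symm)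
  choose y0 hy0 using fun f : cell (univ : Set X) 2 => hp.surjective (ch f 0)
  choose Ψ Ψ1 Ψ2 Ψ3 Ψ4 using fun f => exists_lift hp f (by simp) (hy0 f)
  have s1 : ∀ y, y ∈ sk D vt (fun e s => Φ e (i1 s)) ↔ p y ∈ skeleton (univ : Set X) (1 : ℕ) :=
    fun y => by
      rw [mem_skeleton_iff]
      constructor
      · rintro (⟨d, v, rfl⟩ | ⟨d, e, s, h, rfl⟩)
        · exact ⟨0, by simp, v, by rw [hp.map_smul, hv]; exact ch_open v (norm_zero.trans_lt one_pos)⟩
        · exact ⟨1, le_rfl, e, by rw [hp.map_smul, Φ2]; exact ch_open e (by simpa using h)⟩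
      · rintro ⟨m, hm, j, h⟩
        obtain ⟨x, h1, h2⟩ := of_open h
        rcases Nat.le_one_iff_eq_zero_or_eq_one.1 (by exact_mod_cast hm : m ≤ 1) with rfl | rfl
        · obtain ⟨d, hd⟩ := orb (h2.trans (by rw [hv, Subsingleton.elim x 0] : _ = p (vt j)))
          exact .inl ⟨d, j, hd⟩
        · obtain ⟨d, hd⟩ := orb (h2.trans (Φ2 j x).symm)
          exact .inr ⟨d, j, x 0, by rwa [← i1_norm, i1_eq], by simpa only [i1_eq] using hd⟩
  have s2 : ∀ x : X, x ∈ skeleton (univ : Set X) (2 : ℕ) := fun x => by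
    obtain ⟨n, i, h⟩ := exists_open x
    exact mem_skeleton_iff.2 ⟨n, by
      exact_mod_cast not_lt.1 fun c => (dim n c).false i, i, h⟩
  obtain ⟨v0⟩ : Nonempty (cell (univ : Set X) 0) := by
    obtain ⟨n, i, -⟩ := exists_open (p (Classical.arbitrary Y))
    exact cell_zero i
  let ρ : D × cell (univ : Set X) 0 ⊕ D × cell (univ : Set X) 1 × ℝ ⊕
      D × cell (univ : Set X) 2 × ℂ → Y := Sum.elim (fun c => c.1 • vt c.2)
    (Sum.elim (fun c => c.1 • Φ c.2.1 (i1 c.2.2)) fun c => c.1 • Ψ c.2.1 (i2 c.2.2))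
  let ok : Set (D × cell (univ : Set X) 0 ⊕ D × cell (univ : Set X) 1 × ℝ ⊕
      D × cell (univ : Set X) 2 × ℂ) := {c | Sum.elim (fun _ => True)
    (Sum.elim (fun c => ‖i1 c.2.2‖ < 1) fun c => ‖i2 c.2.2‖ < 1) c}
  have inj : InjOn ρ ok := by
    have z : ‖(0 : Fin 0 → ℝ)‖ < 1 := norm_zero.trans_lt one_pos
    rintro (⟨d, v⟩ | ⟨d, e, s⟩ | ⟨d, f, x⟩) h (⟨d', v'⟩ | ⟨d', e', s'⟩ | ⟨d', f', x'⟩) h' e0 <;>
      have e1 := congrArg p e0 <;>
      simp only [ρ, Sum.elim_inl, Sum.elim_inr, hp.map_smul, hv, Φ2, Ψ2] at e0 e1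
    · obtain ⟨rfl, -⟩ := ch_inj z z e1
      rw [IsCancelSMul.right_cancel _ _ _ e0]
    · cases (Sigma.mk.inj (ch_cell z h' e1)).1
    · cases (Sigma.mk.inj (ch_cell z h' e1)).1
    · cases (Sigma.mk.inj (ch_cell h z e1)).1
    · obtain ⟨rfl, e2⟩ := ch_inj h h' e1
      obtain rfl : s = s' := congrFun e2 0
      rw [IsCancelSMul.right_cancel _ _ _ e0]
    · cases (Sigma.mk.inj (ch_cell h h' e1)).1
    · cases (Sigma.mk.inj (ch_cell h z e1)).1
    · cases (Sigma.mk.inj (ch_cell h h' e1)).1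
    · obtain ⟨rfl, e2⟩ := ch_inj h h' e1
      obtain rfl := i2_inj e2
      rw [IsCancelSMul.right_cancel _ _ _ e0]
  have : Nonempty (D × cell (univ : Set X) 0 ⊕ D × cell (univ : Set X) 1 × ℝ ⊕
    D × cell (univ : Set X) 2 × ℂ) := ⟨.inl (1, v0)⟩
  have c2 : Continuous i2 := by unfold i2; fun_prop
  have o1 : ∀ {A : Set Y}, (∀ (d : D) e, IsOpen {s | d • Φ e (i1 s) ∈ A}) →
      ∀ e (d : D), IsOpen {x | d • Φ e x ∈ A} := fun h e d => by
    simpa [i1_eq] using (h d e).preimage (show Continuous fun x : Fin 1 → ℝ => x 0 by fun_prop)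
  exact ⟨{
    V := _, E := _, R := _, v0 := v0, vt := vt, src := src, tgt := tgt, pe := pe
    ed := fun e s => Φ e (i1 s)
    fc := fun f x => Ψ f (i2 x)
    N := fun x => ‖i2 x‖
    cd := Function.invFunOn ρ ok
    ed_c := fun e => (Φ1 e).comp (continuous_pi fun _ => continuous_id)
    fc_c := fun f => (Ψ1 f).comp c2
    N_c := c2.norm
    N_smul := fun r x h => by rw [i2_smul, norm_smul, Real.norm_of_nonneg h]
    N_pos := fun x h => norm_pos_iff.2 fun e => h (i2_inj (e.trans (by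
      simpa using (i2_smul 0 0).symm)))
    ed_s := fun e s h => by
      rw [← Φ3, (rr_ge (by rw [i1_norm, le_abs]; right; linarith)).1, ← Φ4]
      refine congrArg _ (funext fun _ => ?_)
      rw [i1_norm, abs_of_neg (by linarith)]
      have : s ≠ 0 := by linarith
      simp [i1, this]
    ed_t := fun e s h => by
      rw [← Φ3, (rr_ge (by rw [i1_norm, le_abs]; left; exact h)).1, ← hpe]
      refine congrArg _ (funext fun _ => ?_)
      rw [i1_norm, abs_of_pos (by linarith)]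
      have : s ≠ 0 := by linarith
      simp [i1, this]
    fc_r := fun f x h => by rw [← Ψ3, (rr_ge h).1, i2_smul]
    fc_b := fun f x h => (s1 _).2 (by
      rw [Ψ2]; exact cellFrontier_subset_skeleton 1 f (ch_fr f h))
    cov := fun y => by
      obtain ⟨m, hm, j, h⟩ := mem_skeleton_iff.1 (s2 (p y))
      rcases (show m ≤ 2 by exact_mod_cast hm).eq_or_lt with rfl | hm
      · obtain ⟨x, h1, h2⟩ := of_open h
        obtain ⟨d, hd⟩ := orb (h2.trans (Ψ2 j x).symm)
        exact .inr ⟨d, j, x 0 + x 1 * Complex.I, by rwa [i2_eq], by rwa [i2_eq]⟩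
      · exact .inl ((s1 y).2 (mem_skeleton_iff.2 ⟨m, by exact_mod_cast Nat.le_of_lt_succ hm, j, h⟩))
    cd_v := fun d v => inj.leftInvOn_invFunOn (x := .inl (d, v)) trivial
    cd_e := fun d e s h => inj.leftInvOn_invFunOn (x := .inr (.inl (d, e, s)))
      ((i1_norm s).trans_lt h)
    cd_f := fun d f x h => inj.leftInvOn_invFunOn (x := .inr (.inr (d, f, x))) h
    wt1 := fun A h y hy => eventually_nhdsWithin_iff.2 ((wt hp 1 (fun n a b i => by
      obtain rfl : n = 1 := by omega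
      exact ⟨Φ i, Φ1 i, Φ2 i, o1 h i⟩) hy).mono fun y' a b => a ((s1 y').1 b))
    wt2 := fun A h h' => isOpen_iff_mem_nhds.2 fun y hy => (wt hp 2 (fun n a b i => by
      obtain rfl | rfl : n = 1 ∨ n = 2 := by omega
      · exact ⟨Φ i, Φ1 i, Φ2 i, o1 h i⟩
      · refine ⟨Ψ i, Ψ1 i, Ψ2 i, fun d => ?_⟩
        simpa [i2_eq] using (h' d i).preimage (show Continuous fun x : Fin 2 → ℝ =>
          (x 0 + x 1 * Complex.I : ℂ) by fun_prop)) hy).mono fun y' a => a (s2 _) }⟩

omit hp in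
theorem deck {X Y : Type*} [TopologicalSpace X] [TopologicalSpace Y] [SimplyConnectedSpace Y]
    [LocallyPathConnectedSpace Y] {p : Y → X} (hp : IsCoveringMap p) (hs : Function.Surjective p)
    {x : X} {Γ : Type*} [Group Γ] (e : FundamentalGroup X x ≃* Γ) :
    ∃ _ : MulAction Γ Y, IsQuotientCoveringMap p Γ := by
  let K : Subgroup (Y ≃ₜ Y) :=
    { carrier := {φ | ∀ y, p (φ y) = p y}
      mul_mem' := fun ha hb y => (ha _).trans (hb y)
      one_mem' := fun _ => rfl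
      inv_mem' := fun {φ} h y => (h _).symm.trans (congrArg p (φ.apply_symm_apply y)) }
  letI : MulAction K Y := { smul := fun φ y => φ.1 y, one_smul := fun _ => rfl
                            mul_smul := fun _ _ _ => rfl }
  have u : ∀ {f g : Y → Y}, Continuous f → Continuous g → p ∘ f = p ∘ g → ∀ y, f y = g y → f = g :=
    fun a b c y d => hp.eq_of_comp_eq a b c y d
  have hK : IsQuotientCoveringMap p K := (isQuotientCoveringMap_iff_isCoveringMap_and _ _).2
    ⟨hp, hs,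
    ⟨fun φ => φ.1.continuous⟩, ⟨fun a b y h => Subtype.ext (Homeomorph.ext (congrFun
      (u a.1.continuous b.1.continuous (funext fun y => (a.2 y).trans (b.2 y).symm) y h)))⟩,
    fun {a b} => ⟨fun h => by
      obtain ⟨F, ⟨f1, f2⟩, -⟩ := hp.existsUnique_continuousMap_lifts ⟨p, hp.continuous⟩ b a h
      obtain ⟨G, ⟨g1, g2⟩, -⟩ := hp.existsUnique_continuousMap_lifts ⟨p, hp.continuous⟩ a b h.symm
      exact ⟨⟨⟨⟨F, G, congrFun (u (G.continuous.comp F.continuous) continuous_id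
        (funext fun z => (congrFun g2 _).trans (congrFun f2 z)) b (by simp [f1, g1])),
        congrFun (u (F.continuous.comp G.continuous) continuous_id
        (funext fun z => (congrFun f2 _).trans (congrFun g2 z)) a (by simp [f1, g1]))⟩,
        F.continuous, G.continuous⟩, congrFun f2⟩, f1⟩, fun ⟨φ, h⟩ => h ▸ φ.2 b⟩⟩
  obtain ⟨y, hy⟩ := hs x
  let ψ : Γ ≃* K := (e.symm.trans (hK.fundamentalGroupEquiv ⟨y, hy⟩)).trans (MulEquiv.inv' K).symm
  refine ⟨MulAction.compHom Y ψ.toMonoidHom, ?_⟩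
  letI := MulAction.compHom Y ψ.toMonoidHom
  have := hK.isCancelSMul
  exact (isQuotientCoveringMap_iff_isCoveringMap_and _ _).2
    ⟨hp, hs, ⟨fun g => (ψ g).1.continuous⟩,
    ⟨fun a b y h => ψ.injective (IsCancelSMul.right_cancel _ _ y h)⟩, fun {a b} =>
      hK.apply_eq_iff_mem_orbit.trans ⟨fun ⟨g, h⟩ => ⟨ψ.symm g,
        (congrArg (fun k : K => k • b) (ψ.apply_symm_apply g)).trans h⟩, fun ⟨g, h⟩ => ⟨ψ g, h⟩⟩⟩

omit hp in
theorem cw_pres {X : Type u} [TopologicalSpace X] [T2Space X] [CWComplex (univ : Set X)]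
    (dim : ∀ n, 2 < n → IsEmpty (cell (univ : Set X) n)) {Y : Type*} [TopologicalSpace Y]
    [ContractibleSpace Y] {p : Y → X} (hp : IsCoveringMap p) (hs : Function.Surjective p) {x : X}
    {Γ : Type*} [Group Γ] (e : FundamentalGroup X x ≃* Γ) :
    ∃ (A R : Type u) (π : FreeGroup A →* Γ) (w : R → FreeGroup A),
      Function.Surjective π ∧ π.ker = Subgroup.normalClosure (Set.range w) ∧
      LinearIndependent ℤ fun f : Γ × R => fox π f.1 (w f.2) := by
  have : LocallyPathConnectedSpace X := cw_lpc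
  choose c c1 c2 using hp.isLocalHomeomorph
  letI : ChartedSpace X Y := ⟨range c, c, c1, fun y => ⟨y, rfl⟩⟩
  have : LocallyPathConnectedSpace Y := ChartedSpace.locallyPathConnectedSpace X Y
  obtain ⟨_, h⟩ := deck hp hs e
  have := h.toContinuousConstSMul
  obtain ⟨C⟩ := exists_cx h dim
  exact C.pres

end Vale.Agent.P173
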