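import Vale.Agent.P173.Rigid

/-! The Bestvina-Brady group has cohomological dimension two. -/

namespace Vale.Agent.P173

open Finsupp CategoryTheory

section
variable {Γ M N : Type} [Group Γ] [AddCommGroup M] [AddCommGroup N]
  [Module (MonoidAlgebra ℤ Γ) M] [Module (MonoidAlgebra ℤ Γ) N]

def mkL (f : M →+ N) (h : ∀ g x, f (MonoidAlgebra.of ℤ Γ g • x) = MonoidAlgebra.of ℤ Γ g • f x) :
    M →ₗ[MonoidAlgebra ℤ Γ] N where
  __ := f
  map_smul' r x := by
    induction r using MonoidAlgebra.induction_on with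
    | of g => exact h g x
    | add a b ha hb => simp_all [add_smul]
    | smul n a ha =>
      rw [RingHom.id_apply, smul_assoc, smul_assoc]
      exact (map_zsmul f n _).trans (congrArg _ ha)

def mkS (S : AddSubgroup M) (h : ∀ g, ∀ x ∈ S, MonoidAlgebra.of ℤ Γ g • x ∈ S) :
    Submodule (MonoidAlgebra ℤ Γ) M where
  __ := S
  smul_mem' r x hx := by
    induction r using MonoidAlgebra.induction_on with
    | of g => exact h g x hx
    | add a b ha hb => rw [add_smul]; exact S.add_mem ha hb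
    | smul n a ha => rw [smul_assoc]; exact S.zsmul_mem ha n

end

variable {V : Type} [LinearOrder V] {G : SimpleGraph V}

noncomputable def rep (G : SimpleGraph V) : Representation ℤ (BB G) (Ch G) where
  toFun h := act h
  map_one' := LinearMap.ext act_one
  map_mul' a b := LinearMap.ext fun z => (act_act _ _ z).symm

def CM (G : SimpleGraph V) : Type := Ch G

noncomputable instance : AddCommGroup (CM G) := inferInstanceAs (AddCommGroup (Ch G))

noncomputable instance : Module (MonoidAlgebra ℤ (BB G)) (CM G) :=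
  inferInstanceAs (Module _ (rep G).asModule)

omit [LinearOrder V] in
theorem of_smul (h : BB G) (z : CM G) : MonoidAlgebra.of ℤ (BB G) h • z = act (h : Ra G) z :=
  ((rep G).asModuleEquiv_symm_map_rho h z).symm

noncomputable def SM (G : SimpleGraph V) (d : ℕ) : Submodule (MonoidAlgebra ℤ (BB G)) (CM G) :=
  mkS (Sup (Xq (G := G) d)).toAddSubgroup fun g x hx => of_smul g x ▸ act_sup g hx

omit [LinearOrder V] in
theorem SM_proj (v0 : V) (d : ℕ) : Module.Projective (MonoidAlgebra ℤ (BB G)) (SM G d) := by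
  classical
  let e : Ra G → BB G := fun x => ⟨x * (gn G v0 ^ hh x)⁻¹, mem_BB (by simp)⟩
  let s : Ch G →ₗ[ℤ] (SM G d →₀ MonoidAlgebra ℤ (BB G)) := linearCombination ℤ fun c =>
    if h : Xq d (gn G v0 ^ hh c.1, c.2) then single ⟨single _ 1, sup_single h⟩ (.of _ _ (e c.1))
    else 0
  have hs : ∀ (g : BB G) z, s (act g z) = MonoidAlgebra.of ℤ (BB G) g • s z := fun g z =>
    DFunLike.congr_fun (show s ∘ₗ act g = DistribSMul.toLinearMap ℤ _ (MonoidAlgebra.of ℤ (BB G) g)
      ∘ₗ s from lhom_ext' fun c => LinearMap.ext_ring (by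
        have : e (g * c.1) = g * e c.1 := Subtype.ext (by simp [e, mul_assoc])
        by_cases h : Xq d (gn G v0 ^ hh c.1, c.2) <;>
          simp [s, h, this, MonoidAlgebra.single_mul_single])) z
  let s' : CM G →ₗ[MonoidAlgebra ℤ (BB G)] _ := mkL s.toAddMonoidHom fun g z => by
    rw [of_smul]; exact hs g z
  refine ⟨s' ∘ₗ (SM G d).subtype, fun z => Subtype.ext ?_⟩
  refine sup_eq (f := ((SM G d).subtype ∘ₗ linearCombination _ id).toAddMonoidHom.toIntLinearMap
    ∘ₗ s) (g := LinearMap.id) (fun c hc => ?_) z.2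
  have h : Xq d (gn G v0 ^ hh c.1, c.2) := by simpa [Xq] using hc
  have := of_smul (e c.1) (single (gn G v0 ^ hh c.1, c.2) 1)
  rw [act_single, show (e c.1 : Ra G) * (gn G v0 ^ hh c.1, c.2).1 = c.1 by simp [e]] at this
  simpa [s, h] using! this

noncomputable def bdL (G : SimpleGraph V) : CM G →ₗ[MonoidAlgebra ℤ (BB G)] CM G :=
  mkL bd.toAddMonoidHom fun g z => by rw [of_smul, of_smul]; exact bd_act _ _

omit [LinearOrder V] in
theorem inv_act {M : Type} [AddCommGroup M] (f : Finset V → M) (x : Ra G) (z : Ch G) :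
    linearCombination ℤ (fun c => f c.2) (act x z) = linearCombination ℤ (fun c => f c.2) z :=
  DFunLike.congr_fun (show linearCombination ℤ (fun c => f c.2) ∘ₗ act x = _ from
    lhom_ext' fun c => LinearMap.ext_ring (by simp)) z

noncomputable def epsL (G : SimpleGraph V) :
    CM G →ₗ[MonoidAlgebra ℤ (BB G)] (Representation.trivial ℤ (BB G) ℤ).asModule :=
  mkL eps.toAddMonoidHom fun g z => by
    rw [of_smul]
    exact (inv_act (fun σ => if σ = ∅ then (1 : ℤ) else 0) _ z).trans
      ((Representation.trivial ℤ (BB G) ℤ).asModuleEquiv_symm_map_rho g _)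

theorem eps_bd (z : Ch G) : eps (bd z) = 0 :=
  DFunLike.congr_fun (show eps ∘ₗ bd = 0 from
    lhom_ext' fun c => LinearMap.ext_ring (by simp [bd_single, eps])) z

theorem Acy.cd [Fintype V] (L : Acy G) {u v w : V} (uv : u < v) (vw : v < w) (a1 : G.Adj u v)
    (a2 : G.Adj v w) (a3 : G.Adj u w) : projectiveDimension (ModuleCat.of (MonoidAlgebra ℤ (BB G))
      (Representation.trivial ℤ (BB G) ℤ).asModule) = 2 := by
  classical
  let ε := epsL G ∘ₗ (SM G 0).subtype
  have S1 := ε.shortExact_shortComplexKer fun n => ⟨⟨single (1, ∅) n,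
    single_mem_supported ℤ _ ⟨⟨by simp, rfl⟩, by simp, by simp⟩⟩,
      (show ∀ n : ℤ, eps (single ((1 : Ra G), ∅) n) = n by simp [eps]) n⟩
  let d1 : SM G 1 →ₗ[_] ε.ker := ((bdL G).restrict (p := SM G 1) (q := SM G 0)
    fun _ h => bd_sup h).codRestrict _ fun z => eps_bd z.1
  let d2 : SM G 2 →ₗ[_] SM G 1 := (bdL G).restrict fun _ h => bd_sup h
  have z21 : d1 ∘ₗ d2 = 0 :=
    LinearMap.ext fun z => Subtype.ext (Subtype.ext (bd_bd (sup_mono (fun c hc => hc.1.1) z.2)))
  have ex : Function.Exact d2 d1 := fun z => ⟨fun h => by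
      obtain ⟨y, hy, e⟩ := L.band z.2 (congrArg (fun y : ε.ker => y.1.1) h) (eps_sup z.2)
      exact ⟨⟨y, hy⟩, Subtype.ext e⟩, by
      rintro ⟨y, rfl⟩
      exact DFunLike.congr_fun z21 y⟩
  have su : Function.Surjective d1 := fun z => by
    obtain ⟨y, hy, e⟩ := L.band z.1.2 (sup_eq (g := 0) (fun c hc => by
      simp [bd_single, Finset.card_eq_zero.1 hc.1.2]) z.1.2) z.2
    exact ⟨⟨y, hy⟩, Subtype.ext (Subtype.ext e)⟩
  let S := ModuleCat.shortComplexOfCompEqZero (L := ε.ker) d2 d1 z21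
  have S2 : S.ShortExact :=
    ModuleCat.shortComplex_shortExact S ex ((injective_iff_map_eq_zero d2).2 fun z h =>
      Subtype.ext (L.inj z.2 (congrArg (·.1) h))) su
  have P := fun d => (IsProjective.iff_projective _).1 (SM_proj (G := G) L.v0 d)
  refine le_antisymm ((projectiveDimension_le_iff _ 2).2 ?_) ((projectiveDimension_ge_iff _ 2).2 ?_)
  · refine (S1.hasProjectiveDimensionLT_X₃_iff 1 (P 0)).2
      ((S2.hasProjectiveDimensionLT_X₃_iff 0 (P 1)).2 ?_)
    exact projective_iff_hasProjectiveDimensionLT_one.1 (P 2)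
  · intro h
    have := projective_iff_hasProjectiveDimensionLT_one.2
      ((S1.hasProjectiveDimensionLT_X₃_iff 0 (P 0)).1 h)
    let r : SM G 1 →ₗ[_] SM G 2 := S2.splittingOfProjective.r.hom
    have hr : ∀ z, r (d2 z) = z := fun z =>
      DFunLike.congr_fun (congrArg ModuleCat.Hom.hom S2.splittingOfProjective.f_r) z
    let τ : Ch G →ₗ[ℤ] ℤ := linearCombination ℤ fun c => (fun _ => 1) c.2
    have x1 : ∀ (k : ℤ) (x : Ra G) a, hh x = k → (0 ≤ k ∧ k ≤ 1) → single (x, {a}) 1 ∈ SM G 1 :=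
      fun k x a h h' => sup_single ⟨⟨by simp, rfl⟩, by simp; omega, by simp; omega⟩
    have x2 : ∀ {a b}, a < b → G.Adj a b → single (1, {a, b}) 1 ∈ SM G 2 := fun h h' =>
      sup_single ⟨⟨by simpa using fun _ => h', Finset.card_pair h.ne⟩, by simp, by simp⟩
    have e : ∀ {a b} (h : a < b) (h' : G.Adj a b),
        τ (r ⟨_, x1 0 1 a (by simp) (by simp)⟩).1 +
        τ (r ⟨_, x1 1 (gn G u) b (by simp) (by simp)⟩).1 -
        τ (r ⟨_, x1 1 (gn G u) a (by simp) (by simp)⟩).1 -
        τ (r ⟨_, x1 0 1 b (by simp) (by simp)⟩).1 = 1 := fun {a b} h h' => by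
      have k : ∀ a b, τ (r ⟨_, x1 1 (gn G u) b (by simp) (by simp)⟩).1 =
          τ (r ⟨_, x1 1 (1 * gn G a) b (by simp) (by simp)⟩).1 := fun a b => by
        refine (inv_act (fun _ => (1 : ℤ)) (gn G a * (gn G u)⁻¹) _).symm.trans ?_
        refine congrArg τ ((of_smul ⟨gn G a * (gn G u)⁻¹, mem_BB (by simp)⟩ _).symm.trans ?_)
        rw [← Submodule.coe_smul, ← map_smul]
        exact congrArg (fun z => (r z).1) (Subtype.ext ((of_smul _ _).trans (by simp; rfl)))
      have h1 := congrArg (fun z : SM G 2 => τ z.1) (hr ⟨_, x2 h h'⟩)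
      have h2 : d2 ⟨_, x2 h h'⟩ = ⟨_, x1 0 1 a (by simp) (by simp)⟩ +
          ⟨_, x1 1 (1 * gn G a) b (by simp) (by simp)⟩ -
          ⟨_, x1 1 (1 * gn G b) a (by simp) (by simp)⟩ - ⟨_, x1 0 1 b (by simp) (by simp)⟩ :=
        Subtype.ext (bd_sq 1 h)
      rw [k a b, k b a]
      simp only [h2, map_sub, map_add] at h1
      refine Eq.trans ?_ (h1.trans (by simp [τ]))
      exact ((map_sub τ _ _).trans (congrArg (· - _) ((map_sub τ _ _).trans
        (congrArg (· - _) (map_add τ _ _))))).symm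
    linarith [e uv a1, e vw a2, e (uv.trans vw) a3]

end Vale.Agent.P173
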