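import Mathlib

/-! Locally constant cocycles, the Hopf lift and logarithms. -/

namespace Vale.Agent.P173

open Topology Filter Quaternion

variable {Z Γ : Type*} [TopologicalSpace Z] [Group Γ]

def Adm1 (τ : Z → Z → Γ) (s : Z → Γ) : Prop := ∀ z, ∀ᶠ z' in 𝓝 z, s z' = s z * τ z z'

theorem Adm1.uniq [PreconnectedSpace Z] {τ : Z → Z → Γ} {s s' : Z → Γ} (h : Adm1 τ s)
    (h' : Adm1 τ s') (a b : Z) : s a * (s' a)⁻¹ = s b * (s' b)⁻¹ :=
  IsLocallyConstant.apply_eq_of_preconnectedSpace (f := fun z => s z * (s' z)⁻¹)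
    ((IsLocallyConstant.iff_eventually_eq _).2 fun z => by
      filter_upwards [h z, h' z] with z' e e'
      simp [e, e', mul_assoc]) a b

theorem Adm1.map {Γ' : Type*} [Group Γ'] {τ : Z → Z → Γ} {s : Z → Γ} (h : Adm1 τ s) (f : Γ →* Γ') :
    Adm1 (fun a b => f (τ a b)) fun a => f (s a) := fun z =>
  (h z).mono fun _ e => by simp only [e, map_mul]

theorem Adm1.comp {W : Type*} [TopologicalSpace W] {τ : Z → Z → Γ} {s : Z → Γ} (h : Adm1 τ s)
    {f : W → Z} (hf : Continuous f) : Adm1 (fun a b => τ (f a) (f b)) fun a => s (f a) := fun z =>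
  hf.continuousAt.tendsto.eventually (h (f z))

theorem cech [SimplyConnectedSpace Z] [LocallyPathConnectedSpace Z] (τ : Z → Z → Γ)
    (h : ∀ z, ∀ᶠ z' in 𝓝 z, ∀ᶠ z'' in 𝓝 z', τ z z'' = τ z z' * τ z' z'') (z0 : Z) :
    ∃ s : Z → Γ, s z0 = 1 ∧ Adm1 τ s := by
  letI : TopologicalSpace Γ := ⊥
  have : DiscreteTopology Γ := ⟨rfl⟩
  have t1 : ∀ z, τ z z = 1 := fun z => by simpa using (h z).self_of_nhds.self_of_nhds
  let B : FiberBundleCore Z Z Γ :=
    { baseSet := fun z => interior {z' | ∀ᶠ z'' in 𝓝 z', τ z z'' = τ z z' * τ z' z''}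
      isOpen_baseSet := fun _ => isOpen_interior
      indexAt := id
      mem_baseSet_at := fun z => mem_interior_iff_mem_nhds.2 (h z)
      coordChange := fun i j x g => g * τ i x * (τ j x)⁻¹
      coordChange_self := fun _ _ _ _ => by simp
      continuousOn_coordChange := fun i j x hx => by
        refine ContinuousAt.continuousWithinAt (continuousAt_const.congr (f := fun _ =>
          x.2 * τ i x.1 * (τ j x.1)⁻¹) ?_)
        have a1 : ∀ᶠ z'' in 𝓝 x.1, τ i z'' = τ i x.1 * τ x.1 z'' := (interior_subset hx.1.1 :)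
        have a2 : ∀ᶠ z'' in 𝓝 x.1, τ j z'' = τ j x.1 * τ x.1 z'' := (interior_subset hx.1.2 :)
        filter_upwards [continuous_fst.continuousAt.eventually a1,
          continuous_fst.continuousAt.eventually a2,
          continuous_snd.continuousAt.eventually
            ((isOpen_discrete {x.2}).mem_nhds rfl)] with y a b c
        rw [a, b, show y.2 = x.2 from c]; simp [mul_assoc]
      coordChange_comp := fun _ _ _ _ _ _ => by simp [mul_assoc] }
  have cov : IsCoveringMap B.proj :=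
    IsFiberBundle.isCoveringMap fun z => ⟨B.localTriv z, B.mem_baseSet_at z⟩
  obtain ⟨σ, ⟨h0, h1⟩, -⟩ := cov.existsUnique_continuousMap_lifts (.id Z) z0 ⟨z0, (1 : Γ)⟩ rfl
  have h2 : ∀ z, (σ z).1 = z := congrFun h1
  refine ⟨fun z => (σ z).2, congrArg (fun x : B.TotalSpace => (x.2 : Γ)) h0, fun z => ?_⟩
  have c : ContinuousAt (fun x => (B.localTriv z (σ x)).2) z :=
    continuous_snd.continuousAt.comp (((B.localTriv z).continuousAt
      (by rw [B.mem_localTriv_source, h2]; exact B.mem_baseSet_at z)).comp σ.continuous.continuousAt)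
  filter_upwards [c.eventually ((isOpen_discrete {(B.localTriv z (σ z)).2}).mem_nhds rfl)]
    with y (e : _ = _)
  simp only [B.localTriv_apply, h2] at e
  simp only [B, t1, mul_inv_eq_iff_eq_mul, id, inv_one] at e
  exact (mul_one (_ : Γ)).symm.trans (e.trans (congrArg (· * τ z y) ((mul_one _).trans (mul_one _))))

theorem exists_log [SimplyConnectedSpace Z] [LocallyPathConnectedSpace Z] {u : Z → ℂ}
    (hu : Continuous u) (h0 : ∀ z, u z ≠ 0) {z0 : Z} {c : ℂ} (h : Complex.exp c = u z0) :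
    ∃ F : Z → ℂ, Continuous F ∧ F z0 = c ∧ ∀ z, Complex.exp (F z) = u z := by
  obtain ⟨F, ⟨a, b⟩, -⟩ :=
    Complex.isCoveringMapOn_exp.existsUnique_continuousMap_lifts ⟨u, hu⟩ h h0
  exact ⟨F, F.continuous, a, congrFun b⟩

theorem log_uniq [PreconnectedSpace Z] {F F' : Z → ℂ} (h : Continuous F) (h' : Continuous F')
    (e : ∀ z, Complex.exp (F z) = Complex.exp (F' z)) (a b : Z) : F a - F' a = F b - F' b :=
  Complex.isCoveringMap_exp.const_of_comp (h.sub h') (fun a b => Subtype.ext (by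
    simp [Complex.exp_sub, e])) a b

set_option maxHeartbeats 800000 in
theorem hopf [ContractibleSpace Z] {q : Z → ℍ} (hq : Continuous q) (h : ∀ z, q z * q z = -1)
    (z0 : Z) : ∃ g : Z → ℍ, Continuous g ∧ ∀ z, g z ≠ 0 ∧ g z * q z0 = q z * g z := by
  obtain ⟨y, ⟨H⟩⟩ := id_nullhomotopic Z
  let a : Z → unitInterval → ℍ := fun z t => q (H (t, z))
  have ca : Continuous fun p : Z × unitInterval => a p.1 p.2 := by fun_prop
  have a1 : ∀ z t t', a z t + a z t' ≠ 0 → 1 - a z t * a z t' ≠ 0 := fun z t t' h1 h2 => h1 (by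
    have : a z t * (1 - a z t * a z t') = a z t + a z t' := by
      rw [mul_sub, ← mul_assoc, h]; simp
    rw [← this, h2, mul_zero])
  let f : Z → unitInterval × unitInterval → ℝ := fun z p =>
    dist p.1 p.2 + ‖a z p.1 + a z p.2‖
  have cf : Continuous ↿f := by
    simp only [f, a, Function.HasUncurry.uncurry]; fun_prop
  let ω : Z → ℝ := fun z => sInf (f z '' Set.univ)
  have cω : Continuous ω := isCompact_univ.continuous_sInf cf
  have ω1 : ∀ z p, ω z ≤ f z p := fun z p =>
    csInf_le ⟨0, by rintro _ ⟨p, -, rfl⟩; positivity⟩ ⟨p, trivial, rfl⟩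
  have ω0 : ∀ z, 0 < ω z := fun z => by
    obtain ⟨p, -, e⟩ := isCompact_univ.exists_sInf_image_eq Set.univ_nonempty
      (f := f z) (cf.uncurry_left z).continuousOn
    refine lt_of_lt_of_eq ((add_nonneg dist_nonneg (norm_nonneg _)).lt_of_ne' fun e => ?_) e.symm
    obtain ⟨e1, e2⟩ := (add_eq_zero_iff_of_nonneg dist_nonneg (norm_nonneg _)).1 e
    rw [dist_eq_zero.1 e1, norm_eq_zero, ← two_smul ℝ, smul_eq_zero] at e2
    have := h (H (p.2, z))
    rw [show q (H (p.2, z)) = 0 from e2.resolve_left two_ne_zero] at this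
    simp at this
  let t : ℕ → Z → unitInterval := fun k z => Set.projIcc 0 1 zero_le_one (k * (ω z / 2))
  let g : ℕ → Z → ℍ := fun n => Nat.rec (fun _ => 1)
    (fun k g z => g z * ((1 / 2 : ℝ) • (1 - a z (t k z) * a z (t (k + 1) z)))) n
  have gs : ∀ k z, g (k + 1) z = g k z * ((1 / 2 : ℝ) • (1 - a z (t k z) * a z (t (k + 1) z))) :=
    fun _ _ => rfl
  have ct : ∀ k, Continuous (t k) := fun k => continuous_projIcc.comp (by fun_prop)
  have cg : ∀ k, Continuous (g k) := fun k => by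
    induction k with
    | zero => exact continuous_const
    | succ k ih =>
      have := ct k
      have := ct (k + 1)
      simp only [funext (gs k), a]; fun_prop
  have g1 : ∀ k z, g k z ≠ 0 ∧ g k z * a z (t k z) = q z * g k z := fun k z => by
    induction k with
    | zero => simp [g, a, t]
    | succ k ih =>
      refine ⟨mul_ne_zero ih.1 (smul_ne_zero (by norm_num) (a1 _ _ _ fun e => ?_)), ?_⟩
      · have := ω1 z (t k z, t (k + 1) z)
        have d : dist (t k z) (t (k + 1) z) ≤ _ := (LipschitzWith.projIcc zero_le_one).dist_le_mul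
          (k * (ω z / 2)) ((k + 1 : ℕ) * (ω z / 2))
        rw [Real.dist_eq, show k * (ω z / 2) - (k + 1 : ℕ) * (ω z / 2) = -(ω z / 2) by
          push_cast; ring, abs_neg, abs_of_pos (half_pos (ω0 z))] at d
        simp only [f, e, norm_zero, NNReal.coe_one] at this d
        linarith [ω0 z]
      · rw [gs, ← mul_assoc (q z), ← ih.2, mul_assoc, mul_assoc]
        congr 1
        rw [smul_mul_assoc, mul_smul_comm, sub_mul, mul_sub, mul_assoc,
          ← mul_assoc (a z (t k z)) (a z (t k z)), h, h]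
        rw [one_mul, mul_one, mul_neg_one, neg_one_mul, sub_neg_eq_add, sub_neg_eq_add, add_comm]
  have t1 : ∀ k z, ⌈2 / ω z⌉₊ ≤ k → t k z = 1 := fun k z hk => by
    have := (div_le_iff₀ (ω0 z)).1 (Nat.ceil_le.1 hk)
    exact Set.projIcc_of_right_le _ (by linarith)
  have g2 : ∀ z k, ⌈2 / ω z⌉₊ ≤ k → g k z = g ⌈2 / ω z⌉₊ z := fun z k hk => by
    induction k, hk using Nat.le_induction with
    | base => rfl
    | succ k hk ih =>
      rw [gs, t1 k z hk, t1 _ z (by omega), h, ih, sub_neg_eq_add, ← two_smul ℝ, smul_smul]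
      simp
  have g3 : ∀ z, g ⌈2 / ω z⌉₊ z * q y = q z * g ⌈2 / ω z⌉₊ z := fun z => by
    simpa [t1 _ z le_rfl, a] using (g1 ⌈2 / ω z⌉₊ z).2
  refine ⟨fun z => g ⌈2 / ω z⌉₊ z * (g ⌈2 / ω z0⌉₊ z0)⁻¹, Continuous.mul ?_ continuous_const,
    fun z => ⟨mul_ne_zero (g1 _ _).1 (inv_ne_zero (g1 _ _).1), ?_⟩⟩
  · refine continuous_iff_continuousAt.2 fun z => (cg (⌈2 / ω z⌉₊ + 1)).continuousAt.congr ?_
    have : ContinuousAt (fun z => 2 / ω z) z := continuousAt_const.div cω.continuousAt (ω0 z).ne'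
    filter_upwards [this.eventually (gt_mem_nhds (a := (⌈2 / ω z⌉₊ + 1 : ℝ))
      (by linarith [Nat.le_ceil (2 / ω z)]))] with z' hz
    exact g2 z' (⌈2 / ω z⌉₊ + 1) (Nat.ceil_le.2 (by push_cast; exact hz.le))
  · rw [← mul_assoc, ← g3, mul_assoc, mul_assoc]
    congr 1
    rw [inv_mul_eq_iff_eq_mul₀ (g1 _ _).1, ← mul_assoc, g3, mul_inv_cancel_right₀ (g1 _ _).1]

end Vale.Agent.P173
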