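import Vale.Agent.P173.Band

/-! The positive cone and its level sets. -/

namespace Vale.Agent.P173

open Finsupp

variable {V : Type} [LinearOrder V] {G : SimpleGraph V}

def Cl (G : SimpleGraph V) (n : V → ℕ) : Prop := ∀ u v, n u ≠ 0 → n v ≠ 0 → u ≠ v → G.Adj u v

abbrev ee (v : V) : V → ℕ := Pi.single v 1

omit [LinearOrder V] in
theorem Cl.mono {m n : V → ℕ} (h : Cl G n) (e : ∀ v, m v ≠ 0 → n v ≠ 0) : Cl G m :=
  fun u v a b => h u v (e u a) (e v b)

theorem Cl.left {n : V → ℕ} {a : V} (h : Cl G (n + ee a)) : Cl G n :=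
  h.mono fun v hv => by simp [hv]

theorem Cl.add {n : V → ℕ} {a : V} (h : Cl G n) (ha : n a ≠ 0) : Cl G (n + ee a) :=
  h.mono fun v hv => by
    by_cases e : v = a
    exacts [e ▸ ha, by simpa [e] using hv]

theorem Cl.adj {n : V → ℕ} {a b : V} (h : Cl G (n + ee a + ee b)) (e : a ≠ b) : G.Adj a b :=
  h a b (by simp) (by simp) e

theorem exists_ee {n : V → ℕ} {a : V} (h : n a ≠ 0) : ∃ m, n = m + ee a :=
  ⟨n - ee a, funext fun v => by
    by_cases e : v = a
    · subst e; simp; omega
    · simp [e]⟩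

theorem Acy.h1 (L : Acy G) (c : V → V → ℝ) (h1 : ∀ a b, c a b = -c b a)
    (h2 : ∀ a b d, G.Adj a b → G.Adj b d → G.Adj a d → c a b + c b d = c a d) :
    ∃ f : V → ℝ, ∀ a b, G.Adj a b → f a - f b = c a b := by
  let Φ : (Finset V →₀ ℤ) →ₗ[ℤ] ℝ := linearCombination ℤ fun σ =>
    if h : σ.Nonempty then c (σ.min' h) (σ.max' h) else 0
  have e : ∀ a b, a < b → Φ (single {a, b} 1) = c a b := fun a b h => by simp [Φ, h.le]
  have k : ∀ a b, a < b → G.Adj a b → -Φ (L.P a) - -Φ (L.P b) = c a b := fun a b h ad => by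
    have := sup_eq (f := Φ ∘ₗ dl) (g := 0) (fun σ hσ => by
      obtain ⟨u, v, w, h1, h3, rfl⟩ := card_three hσ.2
      have := h2 u v w (hσ.1 (by simp) (by simp) h1.ne) (hσ.1 (by simp) (by simp) h3.ne)
        (hσ.1 (by simp) (by simp) (h1.trans h3).ne)
      simp only [LinearMap.comp_apply, dl3 h1 h3, map_add, map_sub, e _ _ h1, e _ _ h3,
        e _ _ (h1.trans h3), LinearMap.zero_apply]
      linarith) (L.hW a b h ad).1
    rw [← e a b h, ← (L.hW a b h ad).2, map_add, map_sub]
    simp only [LinearMap.comp_apply, LinearMap.zero_apply] at this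
    linarith
  refine ⟨fun a => -Φ (L.P a), fun a b ad => ?_⟩
  rcases ad.ne.lt_or_gt with h | h
  · exact k a b h ad
  · linarith [k b a h ad.symm, h1 a b]

variable [Fintype V]

def lv (n : V → ℕ) : ℕ := ∑ v, n v

@[simp] theorem lv_add (m n : V → ℕ) : lv (m + n) = lv m + lv n := by
  simp [lv, Finset.sum_add_distrib]

@[simp] theorem lv_ee (a : V) : lv (ee a) = 1 := by simp [lv]

@[simp] theorem lv_smul (k : ℕ) (n : V → ℕ) : lv (k • n) = k * lv n := by
  simp [lv, Finset.mul_sum]

def Coc (G : SimpleGraph V) (u : (V → ℕ) → V → ℝ) (k : ℕ) : Prop := ∀ n a b, lv n = k → a ≠ b →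
  Cl G (n + ee a + ee b) → u n a + u (n + ee a) b = u n b + u (n + ee b) a

theorem Acy.down (L : Acy G) {u : (V → ℕ) → V → ℝ} {k : ℕ} (h : Coc G u (k + 1)) :
    ∃ u' : (V → ℕ) → V → ℝ, (∀ n, lv n ≠ k → u' n = u n) ∧ Coc G u' k := by
  have : ∀ n, ∃ f : V → ℝ, (lv n ≠ k → f = u n) ∧ (lv n = k → ∀ a b, a ≠ b →
      Cl G (n + ee a + ee b) → f a - f b = u (n + ee b) a - u (n + ee a) b) := fun n => by
    by_cases hn : lv n = k
    swap
    · exact ⟨u n, fun _ => rfl, fun e => (hn e).elim⟩
    suffices ∃ f : V → ℝ, ∀ a b, a ≠ b → Cl G (n + ee a + ee b) →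
        f a - f b = u (n + ee b) a - u (n + ee a) b from
      this.imp fun f hf => ⟨fun e => (e hn).elim, fun _ => hf⟩
    have tri : ∀ a b d, a ≠ b → b ≠ d → a ≠ d → Cl G (n + ee a + ee b + ee d) →
        u (n + ee b) a - u (n + ee a) b + (u (n + ee d) b - u (n + ee b) d) =
          u (n + ee d) a - u (n + ee a) d := fun a b d ab bd ad c => by
      have h1 := h (n + ee a) b d (by simp [hn]) bd c
      have h2 := h (n + ee b) a d (by simp [hn]) ad (by rwa [add_right_comm n])
      have h3 := h (n + ee d) a b (by simp [hn]) ab (by rwa [add_right_comm n, add_right_comm])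
      rw [add_right_comm n (ee b) (ee a)] at h2
      rw [add_right_comm n (ee d) (ee a), add_right_comm n (ee d) (ee b)] at h3
      linarith
    by_cases h0 : ∃ d, n d ≠ 0
    · obtain ⟨d, hd⟩ := h0
      refine ⟨fun a => u (n + ee d) a - u (n + ee a) d, fun a b ab c => ?_⟩
      by_cases e1 : a = d
      · subst e1; simp
      by_cases e2 : b = d
      · subst e2; simp
      linarith [tri a b d ab e2 e1 (c.add (by simp [hd]))]
    · push Not at h0
      obtain ⟨f, hf⟩ := L.h1 (fun a b => u (n + ee b) a - u (n + ee a) b) (fun a b => by ring)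
        fun a b d ab bd ad => tri a b d ab.ne bd.ne ad.ne fun x y hx hy xy => by
          have : ∀ x, (n + ee a + ee b + ee d) x ≠ 0 → x = a ∨ x = b ∨ x = d := fun x hx => by
            by_contra hc
            push Not at hc
            simp [h0, hc] at hx
          rcases this x hx with rfl | rfl | rfl <;> rcases this y hy with rfl | rfl | rfl <;>
            first | exact (xy rfl).elim | assumption | (symm; assumption)
      exact ⟨f, fun a b ab c => hf a b (c.adj ab)⟩
  choose u' h1 h2 using this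
  refine ⟨u', h1, fun n a b hn ab c => ?_⟩
  rw [h1 (n + ee a) (by simp [hn]), h1 (n + ee b) (by simp [hn])]
  linarith [h2 n hn a b ab c]

theorem Acy.down' (L : Acy G) (k : ℕ) : ∀ {u : (V → ℕ) → V → ℝ}, Coc G u k →
    ∃ u' : (V → ℕ) → V → ℝ, (∀ n, k ≤ lv n → u' n = u n) ∧ ∀ j ≤ k, Coc G u' j := by
  induction k with
  | zero => exact fun h => ⟨_, fun _ _ => rfl, fun j hj => by rwa [Nat.le_zero.1 hj]⟩
  | succ k ih =>
    intro u h
    obtain ⟨u1, a1, a2⟩ := L.down h
    obtain ⟨u2, b1, b2⟩ := ih a2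
    have e : ∀ n, k + 1 ≤ lv n → u2 n = u n := fun n hn =>
      (b1 n (by omega)).trans (a1 n (by omega))
    refine ⟨u2, e, fun j hj => ?_⟩
    rcases hj.eq_or_lt with rfl | hj
    · intro n a b hn ab c
      rw [e n hn.ge, e _ (by simp [hn]), e _ (by simp [hn])]
      exact h n a b hn ab c
    · exact b2 j (by omega)

theorem exists_pot2 {u : (V → ℕ) → V → ℝ} {k : ℕ} (h : ∀ j ≤ k, Coc G u j) :
    ∀ K ≤ k + 2, ∃ f : (V → ℕ) → ℝ, ∀ n a, lv n < K → Cl G (n + ee a) →
      u n a = f n - f (n + ee a) := by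
  intro K
  induction K with
  | zero => exact fun _ => ⟨0, fun _ _ h => by omega⟩
  | succ K ih =>
    intro hK
    obtain ⟨f, hf⟩ := ih (by omega)
    have : ∀ m, ∃ r, (lv m ≤ K → r = f m) ∧
        ∀ n a, m = n + ee a → lv n = K → Cl G m → r = f n - u n a := fun m => by
      by_cases hm : ∃ n a, m = n + ee a ∧ lv n = K
      swap
      · exact ⟨f m, fun _ => rfl, fun n a h1 h2 => (hm ⟨n, a, h1, h2⟩).elim⟩
      obtain ⟨n, a, rfl, hn⟩ := hm
      refine ⟨f n - u n a, fun h => by simp at h; omega, fun n' b e hn' c => ?_⟩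
      by_cases ab : a = b
      · subst ab; rw [add_right_cancel e]
      obtain ⟨m, rfl⟩ := exists_ee (n := n) (a := b) (by
        have := congrFun e b
        simp [Ne.symm ab] at this
        omega)
      rw [add_right_comm] at e c
      obtain rfl := add_right_cancel e
      simp only [lv_add, lv_ee] at hn
      linarith [h (lv m) (by omega) m a b rfl ab c, hf m a (by omega) c.left,
        hf m b (by omega) (by rw [add_right_comm] at c; exact c.left)]
    choose f' h1 h2 using this
    refine ⟨f', fun n a hn c => ?_⟩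
    rcases (Nat.lt_succ_iff.1 hn).eq_or_lt with e | e
    · rw [h1 n e.le, h2 _ n a rfl e c]; ring
    · rw [h1 n e.le, h1 _ (by simp; omega), hf n a e c]

theorem Acy.pot (L : Acy G) {u : (V → ℕ) → V → ℝ} {k : ℕ} (h : Coc G u k) :
    ∃ f : (V → ℕ) → ℝ, ∀ n a, k ≤ lv n → lv n ≤ k + 1 → Cl G (n + ee a) →
      u n a = f n - f (n + ee a) := by
  obtain ⟨u', h1, h2⟩ := L.down' k h
  obtain ⟨f, hf⟩ := exists_pot2 h2 _ le_rfl
  exact ⟨f, fun n a a1 a2 c => by rw [← h1 n a1, hf n a (by omega) c]⟩

theorem zig {k : ℕ} {u : V} (P : ℕ → (V → ℕ) → (V → ℕ) → Prop) (h0 : ∀ n, P 0 n n)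
    (hs : ∀ c n w n' m, lv n = k → Cl G (n + ee u) → n + ee u = n' + ee w → P c n' m →
      P (c + 1) n m) (d : ℕ) : ∀ n m, lv n = k → Cl G (n + ee u) → m ≤ n → lv n = lv m + d →
      P d n (m + d • ee u) := by
  induction d with
  | zero =>
    intro n m _ _ h e
    obtain ⟨r, rfl⟩ := exists_add_of_le h
    have : r = 0 := funext fun v => (Finset.sum_eq_zero_iff.1
      (show lv r = 0 by simpa using e)) v (Finset.mem_univ _)
    simpa [this] using h0 m
  | succ d ih =>
    intro n m hn c h e
    obtain ⟨r, rfl⟩ := exists_add_of_le h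
    obtain ⟨w, -, hw⟩ := Finset.exists_ne_zero_of_sum_ne_zero (show lv r ≠ 0 by simp at e; omega)
    obtain ⟨r, rfl⟩ := exists_ee hw
    have := ih (m + ee u + r) (m + ee u) (by simp at hn ⊢; omega)
      (c.mono fun v hv => by simp only [Pi.add_apply] at hv ⊢; omega) le_self_add (by simp at e ⊢; omega)
    rw [add_assoc m _ (d • _), ← succ_nsmul'] at this
    exact hs d _ w _ _ hn c (by abel) this

noncomputable def emb (G : SimpleGraph V) (n : V → ℕ) : Ra G :=
  ((Finset.univ : Finset V).toList.map fun v => gn G v ^ n v).prod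

theorem emb_add {n : V → ℕ} {a : V} (c : Cl G (n + ee a)) :
    emb G (n + ee a) = emb G n * gn G a := by
  have : ∀ l : List V, l.Nodup → (l.map fun v => gn G v ^ (n + ee a) v).prod =
      (l.map fun v => gn G v ^ n v).prod * if a ∈ l then gn G a else 1 := fun l hl => by
    induction l with
    | nil => simp
    | cons v l ih =>
      obtain ⟨h1, h2⟩ := List.nodup_cons.1 hl
      rw [List.map_cons, List.prod_cons, ih h2, List.map_cons, List.prod_cons]
      by_cases e : v = a
      · subst e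
        have : Commute (gn G v) (l.map fun v => gn G v ^ n v).prod :=
          Commute.list_prod_right _ _ fun x hx => by
            obtain ⟨w, hw, rfl⟩ := List.mem_map.1 hx
            by_cases h : n w = 0
            · simp [h]
            · exact Commute.pow_right (gn_comm (c v w (by simp) (by simp [h])
                fun e => h1 (e ▸ hw))) _
        simp [h1, pow_succ, mul_assoc, this.eq]
      · simp [e, Ne.symm e, mul_assoc]
  rw [emb, this _ (Finset.nodup_toList _), if_pos (by simp), emb]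

def abA : Ra G →* Multiplicative (V → ℤ) :=
  liftA (fun v => .ofAdd (Pi.single v 1)) fun _ _ _ => mul_comm _ _

theorem abA_emb (n : V → ℕ) (v : V) : (abA (emb G n)).toAdd v = n v := by
  simp [emb, map_list_prod, abA, Function.comp_def, Finset.prod_map_toList, Finset.sum_apply,
    Pi.single_apply]

theorem hh_emb (n : V → ℕ) : hh (emb G n) = lv n := by
  simp [emb, map_list_prod, hh, ht, lv, Function.comp_def, Finset.prod_map_toList]

end Vale.Agent.P173
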