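import Vale.Agent.P173.Est

/-! Deformation of an almost trivial flat connection to the trivial one. -/

namespace Vale.Agent.P173

open Set Quaternion

section Mon

variable {ι : Type} {I : Type*} (W : I → FreeGroup ι) (th : I → ℝ)

def OW : Set (ι → ℍ) := {x | (∀ a, x a ≠ 0) ∧ ∀ a, ‖(ev (W a) x : ℍ) - 1‖ < th a}

def KW : Set (ι → ℍ) := {x | (∀ a, ‖x a‖ = 1) ∧ ∀ a, ‖(ev (W a) x : ℍ) - 1‖ ≤ th a / 2}

end Mon

variable {ι : Type} {I : Type*} [Fintype ι] [Finite I] (W : I → FreeGroup ι) {th : I → ℝ}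

theorem evn_cont (w : FreeGroup ι) : ContinuousOn (fun x => ‖(ev w x : ℍ) - 1‖) (Om ι) :=
  ((S3.cont.comp_continuousOn (ev_cont w)).sub continuousOn_const).norm

theorem OW_open [Nonempty ι] : IsOpen (OW W th) := by
  have : OW W th = Om ι ∩ ⋂ a, Om ι ∩ (fun x => ‖(ev (W a) x : ℍ) - 1‖) ⁻¹' Iio (th a) := by
    ext x; simp only [OW, Om, mem_setOf_eq, mem_inter_iff, mem_iInter, mem_preimage, mem_Iio]
    exact and_congr_right fun h => by simp [h]
  rw [this]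
  exact Om_open.inter (isOpen_iInter_of_finite fun a =>
    (evn_cont _).isOpen_inter_preimage Om_open isOpen_Iio)

omit [Finite I] in
theorem KW_cpt : IsCompact (KW W th) := by
  have : KW W th = Sp ι ∩ ⋂ a, Sp ι ∩ (fun x => ‖(ev (W a) x : ℍ) - 1‖) ⁻¹' Iic (th a / 2) := by
    ext x; simp only [KW, Sp, mem_setOf_eq, mem_inter_iff, mem_iInter, mem_preimage, mem_Iic]
    exact and_congr_right fun h => by simp [h]
  rw [this]
  exact Sp_cpt.inter_right (isClosed_iInter fun a =>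
    ((evn_cont _).mono Sp_sub).preimage_isClosed_of_isClosed Sp_cpt.isClosed isClosed_Iic)

omit [Finite I] [Fintype ι] in
theorem KW_sub (h : ∀ a, 0 < th a) : KW W th ⊆ OW W th := fun x hx =>
  ⟨Sp_sub hx.1, fun a => by linarith [hx.2 a, h a]⟩

theorem lift_ev {B ι : Type*} (lb : B → FreeGroup ι) (g : ι → S3) (w : FreeGroup B) :
    FreeGroup.lift (fun i => FreeGroup.lift g (lb i)) w = FreeGroup.lift g (FreeGroup.lift lb w) :=
  DFunLike.congr_fun (show FreeGroup.lift (fun i => FreeGroup.lift g (lb i)) =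
    (FreeGroup.lift g).comp (FreeGroup.lift lb) by ext1; simp) w

noncomputable def rt (p : S3) (t : ℝ) : S3 := nz ((1 - t) • (p : ℍ) + t • 1)

theorem rt_aux (p : S3) {t : ℝ} (ht : t ∈ Icc (0 : ℝ) 1) :
    ‖(1 - t) • (p : ℍ) + t • 1 - 1‖ ≤ ‖(p : ℍ) - 1‖ := by
  rw [show (1 - t) • (p : ℍ) + t • 1 - 1 = (1 - t) • ((p : ℍ) - 1) by module, norm_smul,
    Real.norm_of_nonneg (sub_nonneg.2 ht.2)]
  nlinarith [ht.1, norm_nonneg ((p : ℍ) - 1)]

theorem rt_le (p : S3) {t : ℝ} (ht : t ∈ Icc (0 : ℝ) 1) :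
    ‖(rt p t : ℍ) - 1‖ ≤ 2 * ‖(p : ℍ) - 1‖ :=
  (nz_sub _ 1).trans (by rw [S3.v_one]; linarith [rt_aux p ht])

theorem rt_cont {p : S3} (hp : ‖(p : ℍ) - 1‖ < 1) : ContinuousOn (rt p) (Icc 0 1) := fun t ht =>
  (ContinuousAt.comp (g := nz) (nz_cont fun e => by
    have := rt_aux p ht
    rw [e] at this; simp at this; linarith) (by fun_prop)).continuousWithinAt

namespace Dat

variable {C : ℕ} {B FY : Type*} {VT ET FT : Type} [Fintype FT] [DecidableEq FT]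
  (D : Dat C B FY VT ET FT) (lb : B → FreeGroup ι) (gv : VT → ι) (uv : ET → ι)
  (κ : ι → (FY ⊕ ET) ⊕ ι)

/-- the rows of the square system -/
def R0 : (FY ⊕ ET) ⊕ ι → FreeGroup ι :=
  Sum.elim (Sum.elim (fun f => FreeGroup.lift lb (D.wF f)) fun e => .of (gv (D.src e)) *
    FreeGroup.lift lb (D.wE e) * (.of (gv (D.tgt e)))⁻¹ * (.of (uv e))⁻¹) .of

open Classical in
/-- the monitored words -/
noncomputable def W0 : (FY ⊕ ET) ⊕ ET ⊕ ι → FreeGroup ι :=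
  Sum.elim (Sum.elim (fun f => FreeGroup.lift lb (D.wF f)) fun e => .of (gv (D.src e)) *
    FreeGroup.lift lb (D.wE e) * (.of (gv (D.tgt e)))⁻¹) (Sum.elim (fun e => .of (uv e))
    fun i => if ∃ j, κ j = .inr i then .of i else 1)

noncomputable def th0 (δ δ' : ℝ) : (FY ⊕ ET) ⊕ ET ⊕ ι → ℝ :=
  Sum.elim (fun _ => δ) (Sum.elim (fun _ => δ') fun _ => 1 / 2)

noncomputable def bx (x : ι → ℍ) (i : B) : S3 := ev (lb i) x

noncomputable def vx (x : ι → ℍ) : FT → ℍ := D.cob fun e => (nz (x (uv e)) : ℍ).im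

noncomputable def GG (ρ : ET → S3) (t s m : ℝ) (x : ι → ℍ) : (FY ⊕ ET) ⊕ ι → ℍ :=
  Sum.elim (Sum.elim
    (fun f => D.F (bx lb x) f - D.JF (bx lb x) (fun v => nz (x (gv v))) (m • D.vx uv x) f)
    fun e => D.E (bx lb x) (fun v => nz (x (gv v))) e - rt (ρ e) t - D.JE (m • D.vx uv x) e -
      s • ((D.E (bx lb x) (fun v => nz (x (gv v))) e : ℍ) -
        (D.E (bx lb x) (fun v => nz (x (gv v))) e * (nz (x (uv e)))⁻¹ : S3)))
    fun i => nz (x i)

noncomputable def Φ (ρ : ET → S3) (t s m : ℝ) (x : ι → ℍ) (j : ι) : ℍ :=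
  (‖x j‖ - 1) • (1 : ℍ) + (D.GG lb gv uv ρ t s m x (κ j)).im

omit [Fintype ι] in
theorem bx_lift (x : ι → ℍ) (w : FreeGroup B) :
    FreeGroup.lift (bx lb x) w = ev (FreeGroup.lift lb w) x := lift_ev lb _ w

theorem Φ_cont {ρ : ET → S3} (hρ : ∀ e, ‖(ρ e : ℍ) - 1‖ < 1) {S : Set (ℝ × (ι → ℍ))}
    {t s m : ℝ → ℝ} (ht : Continuous t) (hs : Continuous s) (hm : Continuous m)
    (hS : ∀ z ∈ S, t z.1 ∈ Icc (0 : ℝ) 1 ∧ z.2 ∈ Om ι) :
    ContinuousOn (fun z : ℝ × (ι → ℍ) => D.Φ lb gv uv κ ρ (t z.1) (s z.1) (m z.1) z.2) S := by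
  have c0 : ∀ w, ContinuousOn (fun z : ℝ × (ι → ℍ) => ev w z.2) S := fun w =>
    (ev_cont w).comp continuousOn_snd fun z hz => (hS z hz).2
  have c1 : ∀ i, ContinuousOn (fun z : ℝ × (ι → ℍ) => nz (z.2 i)) S := fun i => by
    simpa [ev] using c0 (.of i)
  have cv : ∀ {f : ℝ × (ι → ℍ) → S3}, ContinuousOn f S → ContinuousOn (fun z => (f z : ℍ)) S :=
    fun h => S3.cont.comp_continuousOn h
  have c2 : ∀ w, ContinuousOn (fun z : ℝ × (ι → ℍ) => FreeGroup.lift (bx lb z.2) w) S := fun w => by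
    simpa only [bx_lift] using c0 _
  have c3 : ∀ e, ContinuousOn (fun z : ℝ × (ι → ℍ) =>
      D.E (bx lb z.2) (fun v => nz (z.2 (gv v))) e) S := fun e =>
    ((c1 _).mul (c2 _)).mul (c1 _).inv
  have c4 : ∀ c : FT → ℤ, ContinuousOn (fun z : ℝ × (ι → ℍ) =>
      ∑ τ, c τ • (m z.1 • D.vx uv z.2) τ) S := fun c => continuousOn_finset_sum _ fun τ _ => by
    have h := fun e => continuous_im.comp_continuousOn (cv (c1 (uv e)))
    exact ((hm.comp continuous_fst).continuousOn.smul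
      ((((h _).add (h _)).sub (h _)).sub (h _))).const_smul _
  refine continuousOn_pi.2 fun j => (((((continuous_apply j).comp
    continuous_snd).norm.continuousOn).sub continuousOn_const).smul continuousOn_const).add
    (continuous_im.comp_continuousOn ?_)
  rcases κ j with (f | e) | i
  · refine (cv (c2 _)).sub ?_
    simp only [JF]
    split_ifs with h
    · have := cv ((c1 (gv (D.src (D.e1 h.choose)))).mul (c2 h.choose_spec.choose.1)).inv
      exact ((this.mul (c4 _)).mul this.star).neg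
    · exact continuousOn_const
  · exact (((cv (c3 e)).sub (cv ((rt_cont (hρ e)).comp (ht.comp continuous_fst).continuousOn
      fun z hz => (hS z hz).1))).sub (c4 _)).sub ((hs.comp continuous_fst).continuousOn.smul
      ((cv (c3 e)).sub (cv ((c3 e).mul (c1 _).inv))))
  · exact cv (c1 i)

omit [Fintype ι] in
theorem Φ_zero {ρ : ET → S3} {t s m : ℝ} {x : ι → ℍ} (h : D.Φ lb gv uv κ ρ t s m x = 0) (j : ι) :
    ‖x j‖ = 1 ∧ (D.GG lb gv uv ρ t s m x (κ j)).im = 0 := by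
  have h1 := congrFun h j
  have h2 : ‖x j‖ - 1 = 0 := by simpa [Φ] using congrArg QuaternionAlgebra.re h1
  exact ⟨sub_eq_zero.1 h2, by simpa [Φ, h2] using h1⟩

theorem Φ_est [Fintype ET] {ρ : ET → S3} {t s m δ δ' ε ν : ℝ} (sur : ∀ a, ∃ j, κ j = .inl a)
    (hν : ∀ u : ET → ℍ, (∀ e, (∃ j, κ j = .inr (uv e)) → u e = 0) → ‖u‖ ≤ ν * ‖D.cob u‖)
    (h0 : 0 ≤ δ) (h1 : δ ≤ 1 / 2) (h1' : δ' ≤ 1 / 2)
    (h2 : ((64 + 4 * C ^ 2) * C + 2 * C ^ 3) * δ ≤ 1 / 2) (hρ : ∀ e, ‖(rt (ρ e) t : ℍ) - 1‖ ≤ δ)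
    (s0 : 0 ≤ s) (m0 : 0 ≤ m) (ν0 : 0 ≤ ν) (ε0 : 0 ≤ ε)
    (hs : s * ((136 + 8 * C ^ 2) * ν * δ) ≤ s / 2)
    (hκ : ∀ σ, ‖((rt (ρ (D.e1 σ)) t * rt (ρ (D.e2 σ)) t * (rt (ρ (D.e3 σ)) t)⁻¹ *
      (rt (ρ (D.e4 σ)) t)⁻¹ : S3) : ℍ) - 1‖ ≤ ε) {x : ι → ℍ}
    (hx : x ∈ OW (D.W0 lb gv uv κ) (th0 δ δ')) (h : D.Φ lb gv uv κ ρ t s m x = 0) :
    ∃ n : ℝ, 0 ≤ n ∧ (m + s) * n ≤ 2 * ε ∧
      (∀ f, ‖(D.F (bx lb x) f : ℍ) - 1‖ ≤ 2 * ((C * m + 2 * s * ν) * n)) ∧
      (∀ e, ‖(D.E (bx lb x) (fun v => nz (x (gv v))) e : ℍ) - rt (ρ e) t‖ ≤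
        2 * ((C * m + 2 * s * ν) * n)) ∧ (∀ e, ‖(nz (x (uv e)) : ℍ) - 1‖ ≤ 2 * (ν * n)) ∧
      ∀ i, (∃ j, κ j = .inr i) → nz (x i) = 1 := by
  have z := D.Φ_zero lb gv uv κ h
  have p : ∀ i, (∃ j, κ j = .inr i) → nz (x i) = 1 := fun i hi => by
    have a := hx.2 (.inr (.inr i))
    obtain ⟨j, hj⟩ := id hi
    have b := (z j).2
    simp only [W0, th0, Sum.elim_inr, if_pos hi, ev, FreeGroup.lift_apply_of] at a
    rw [hj] at b
    exact im_zero (by linarith [re_pos a.le]) b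
  have := D.est (b := bx lb x) (g := fun v => nz (x (gv v))) h0 h1 h2
    (fun f => by simpa [W0, th0, F, bx_lift] using (hx.2 (.inl (.inl f))).le)
    (fun e => by simpa [W0, th0, E, bx_lift, ev] using (hx.2 (.inl (.inr e))).le) hρ
    (U := fun e => nz (x (uv e)))
    (fun e => le_trans (by simpa [W0, th0, ev] using (hx.2 (.inr (.inl e))).le) h1')
    s0 m0 ν0 ε0 hs (v := D.vx uv x) rfl (fun e => (norm_le_pi_norm
      (fun e => (nz (x (uv e)) : ℍ).im) e).trans (hν _ fun e he => by simp [p _ he])) hκ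
    (fun f => by obtain ⟨j, hj⟩ := sur (.inl f); have := (z j).2; rwa [hj] at this)
    (fun e => by obtain ⟨j, hj⟩ := sur (.inr e); have := (z j).2; rwa [hj] at this)
  exact ⟨_, norm_nonneg _, this.1, this.2.1, this.2.2.1, this.2.2.2, p⟩

theorem mem_KW {x : ι → ℍ} {δ δ' : ℝ} (h : ∀ j, ‖x j‖ = 1)
    (h1 : ∀ f, ‖(D.F (bx lb x) f : ℍ) - 1‖ ≤ δ / 2)
    (h2 : ∀ e, ‖(D.E (bx lb x) (fun v => nz (x (gv v))) e : ℍ) - 1‖ ≤ δ / 2)
    (h3 : ∀ e, ‖(nz (x (uv e)) : ℍ) - 1‖ ≤ δ' / 2) (h4 : ∀ i, (∃ j, κ j = .inr i) → nz (x i) = 1) :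
    x ∈ KW (D.W0 lb gv uv κ) (th0 δ δ') := by
  refine ⟨h, ?_⟩
  rintro ((f | e) | e | i)
  · simpa [W0, th0, F, bx_lift] using h1 f
  · simpa [W0, th0, E, bx_lift, ev] using h2 e
  · simpa [W0, th0, ev] using h3 e
  · by_cases hi : ∃ j, κ j = .inr i
    · norm_num [W0, th0, ev, hi, h4 i hi]
    · norm_num [W0, th0, ev, hi]

theorem core1 [Fintype ET] [Finite FY] [DecidableEq ι] [Nonempty ι] {ρ : ET → S3} {δ ν : ℝ}
    (lin : LinearIndependent ℝ fun j i => (ab (D.R0 lb gv uv (κ j)) i : ℝ))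
    (sur : ∀ a, ∃ j, κ j = .inl a)
    (hν : ∀ u : ET → ℍ, (∀ e, (∃ j, κ j = .inr (uv e)) → u e = 0) → ‖u‖ ≤ ν * ‖D.cob u‖)
    (tr : ∀ f : VT → S3, (∀ e, (∃ j, κ j = .inr (uv e)) → f (D.src e) = f (D.tgt e)) →
      ∀ e, f (D.src e) = f (D.tgt e))
    (hP : ∀ b, (∀ f, D.F b f = 1) → ∃ k : VT → S3, ∀ e,
      FreeGroup.lift b (D.wE e) = (k (D.src e))⁻¹ * k (D.tgt e))
    (ν0 : 0 ≤ ν) (h0 : 0 < δ) (h1 : δ ≤ 1 / 2)
    (h2 : ((64 + 4 * C ^ 2) * C + 2 * C ^ 3) * δ ≤ 1 / 2)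
    (hρ : ∀ e, ‖(ρ e : ℍ) - 1‖ ≤ δ / (64 * C + 128))
    (fl : ∀ σ, ρ (D.e1 σ) * ρ (D.e2 σ) * (ρ (D.e3 σ))⁻¹ * (ρ (D.e4 σ))⁻¹ = 1) :
    ∃ γ : VT → S3, ∀ e, ρ e = γ (D.src e) * (γ (D.tgt e))⁻¹ := by
  set ε := δ / (64 * C + 128) with hε
  have ε0 : 0 < ε := by positivity
  have ε1 : (64 * C + 128) * ε = δ := by rw [hε]; field_simp
  have C0 : 0 ≤ C * ε := by positivity
  have hρ1 : ∀ e, ‖(ρ e : ℍ) - 1‖ < 1 := fun e => by linarith [hρ e]
  have r0 : ∀ p, rt p 0 = p := fun p => by simp [rt, nz_S3]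
  have r1 : ∀ p, rt p 1 = 1 := fun p => by simpa [rt] using nz_S3 1
  obtain ⟨δ', d0, d1, d2⟩ : ∃ δ' : ℝ, 0 < δ' ∧ δ' ≤ δ / 2 ∧ (136 + 8 * C ^ 2) * ν * δ' ≤ 1 / 2 := by
    refine ⟨min (δ / 2) (1 / (2 * ((136 + 8 * C ^ 2) * ν + 1))), by positivity, min_le_left _ _,
      (mul_le_mul_of_nonneg_left (min_le_right _ _) (by positivity)).trans ?_⟩
    rw [mul_one_div, div_le_div_iff₀ (by positivity) (by positivity)]
    linarith
  have p1 : ∀ a, 0 < th0 (ι := ι) (FY := FY) (ET := ET) δ (1 / 2) a := by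
    rintro (_ | _ | _) <;> simp [th0, h0]
  have p2 : ∀ a, 0 < th0 (ι := ι) (FY := FY) (ET := ET) δ' δ' a := by
    rintro (_ | _ | _) <;> simp [th0, d0]
  have sub : OW (D.W0 lb gv uv κ) (th0 δ' δ') ⊆ OW (D.W0 lb gv uv κ) (th0 δ (1 / 2)) :=
    fun x hx => ⟨hx.1, fun a => (hx.2 a).trans_le (by
      rcases a with _ | _ | _ <;> simp only [th0, Sum.elim_inl, Sum.elim_inr] <;> linarith)⟩
  have c1 := D.Φ_cont lb gv uv κ hρ1 (S := Icc 0 1 ×ˢ OW (D.W0 lb gv uv κ) (th0 δ (1 / 2)))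
    continuous_id (continuous_const (y := 0)) (continuous_const (y := ν + 1))
    fun z hz => ⟨hz.1, hz.2.1⟩
  have k1 : ∀ t ∈ Icc (0 : ℝ) 1, ∀ x ∈ OW (D.W0 lb gv uv κ) (th0 δ (1 / 2)),
      D.Φ lb gv uv κ ρ t 0 (ν + 1) x = 0 → x ∈ KW (D.W0 lb gv uv κ) (th0 δ (1 / 2)) := by
    intro t ht x hx e
    have a : ∀ e, ‖(rt (ρ e) t : ℍ) - 1‖ ≤ 2 * ε := fun e => by linarith [rt_le (ρ e) ht, hρ e]
    obtain ⟨n, n0, n1, n2, n3, n4, n5⟩ := D.Φ_est lb gv uv κ (ε := 8 * ε) sur hν h0.le h1 le_rfl h2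
      (fun e => by linarith [a e]) le_rfl (by positivity) ν0 (by positivity) (by simp) (fun σ => by
        refine (S3.mul_one_le _ _).trans ((add_le_add ((S3.mul_one_le _ _).trans
          (add_le_add (S3.mul_one_le _ _) le_rfl)) le_rfl).trans ?_)
        simp only [S3.inv_one]
        linarith [a (D.e1 σ), a (D.e2 σ), a (D.e3 σ), a (D.e4 σ)]) hx e
    have b := mul_le_mul_of_nonneg_left n1 (Nat.cast_nonneg C)
    refine D.mem_KW lb gv uv κ (fun j => (D.Φ_zero lb gv uv κ e j).1)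
      (fun f => by linarith [n2 f]) (fun e => ?_) (fun e => by linarith [n4 e]) n5
    linarith [n3 e, a e, norm_sub_le_norm_sub_add_norm_sub
      (D.E (bx lb x) (fun v => nz (x (gv v))) e : ℍ) (rt (ρ e) t) 1]
  have k2 : ∀ {δ1 δ2 s m : ℝ}, 0 ≤ δ1 → δ1 ≤ δ → δ2 ≤ 1 / 2 → 0 ≤ s → 0 ≤ m → 0 < m + s →
      s * ((136 + 8 * C ^ 2) * ν * δ1) ≤ s / 2 → ∀ x ∈ OW (D.W0 lb gv uv κ) (th0 δ1 δ2),
      D.Φ lb gv uv κ ρ 1 s m x = 0 → x ∈ KW (D.W0 lb gv uv κ) (th0 δ' δ') := by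
    intro δ1 δ2 s m a1 a2 a3 a4 a5 a6 a7 x hx e
    obtain ⟨n, n0, n1, n2, n3, n4, n5⟩ := D.Φ_est lb gv uv κ (ε := 0) sur hν a1 (a2.trans h1) a3
      (le_trans (by gcongr) h2) (fun e => by simpa [r1] using a1) a4 a5 ν0 le_rfl a7
      (by simp [r1]) hx e
    obtain rfl : n = 0 := le_antisymm (by nlinarith) n0
    simp only [r1, mul_zero, S3.v_one] at n2 n3 n4
    exact D.mem_KW lb gv uv κ (fun j => (D.Φ_zero lb gv uv κ e j).1)
      (fun f => by linarith [n2 f]) (fun e => by linarith [n3 e]) (fun e => by linarith [n4 e]) n5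
  have e1 := deg_homot (OW_open _) c1 (KW_cpt _) (KW_sub _ p1) k1
  have cc : ∀ t ∈ Icc (0 : ℝ) 1, ContinuousOn (D.Φ lb gv uv κ ρ t 0 (ν + 1))
      (OW (D.W0 lb gv uv κ) (th0 δ (1 / 2))) := fun t ht =>
    c1.comp (f := fun x => (t, x)) (by fun_prop) fun x hx => ⟨ht, hx⟩
  have e2 := deg_exc ⟨OW_open _, cc 1 (by simp), cpt_of (KW_cpt _) (KW_sub _ p1)
    ((cc 1 (by simp)).mono (KW_sub _ p1)) (k1 1 (by simp))⟩ (OW_open _) sub fun x hx e =>
    KW_sub _ p2 (k2 h0.le le_rfl le_rfl le_rfl (by positivity) (by positivity) (by simp) x hx e)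
  have e3 := deg_homot (OW_open _) (D.Φ_cont lb gv uv κ hρ1
    (S := Icc 0 1 ×ˢ OW (D.W0 lb gv uv κ) (th0 δ' δ')) (continuous_const (y := 1)) continuous_id
    (m := fun s => (1 - s) * (ν + 1)) (by fun_prop) fun z hz => ⟨by simp, hz.2.1⟩) (KW_cpt _)
    (KW_sub _ p2) fun s hs x hx e => k2 d0.le (by linarith) (by linarith) hs.1
      (mul_nonneg (sub_nonneg.2 hs.2) (by positivity)) (by
        nlinarith [mul_nonneg (sub_nonneg.2 hs.2) ν0])
      (by nlinarith [mul_le_mul_of_nonneg_left d2 hs.1]) x hx e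
  have e4 := word_deg lin (OW_open (D.W0 lb gv uv κ) (th := th0 δ' δ')) (fun x hx => hx.1)
    (fun x hx j => lt_of_lt_of_le (by norm_num) (re_pos ?_)) fun x hx e => KW_sub _ p2 ?_
  · have e5 : (fun x a => (‖x a‖ - 1) • (1 : ℍ) + (ev (D.R0 lb gv uv (κ a)) x : ℍ).im) =
        D.Φ lb gv uv κ ρ 1 1 0 := by
      ext1 x; ext1 j
      rw [Φ]
      rcases κ j with (f | e) | i
      · simp only [GG, R0, Sum.elim_inl, F, bx_lift, JF, zero_smul]
        split_ifs <;> simp [Ad]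
      · simp [GG, R0, E, bx_lift, JE, r1, ev]
      · simp [GG, R0, ev]
    simp only [id, sub_zero, one_mul, sub_self, zero_mul] at e1 e3
    rw [e5, ← e3, ← e2, ← e1] at e4
    by_contra hne
    refine e4 (deg_zero (cc 0 (by simp)) fun x hx e => hne ?_)
    obtain ⟨n, n0, n1, n2, n3, -⟩ := D.Φ_est lb gv uv κ (ε := 0) sur hν h0.le h1 le_rfl h2
      (fun e => by rw [r0]; linarith [hρ e]) le_rfl (by positivity) ν0 le_rfl (by simp)
      (by simp only [r0, fl]; simp) hx e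
    obtain rfl : n = 0 := le_antisymm (by nlinarith) n0
    simp only [r0, mul_zero, norm_le_zero_iff, sub_eq_zero] at n2 n3
    obtain ⟨k, hk⟩ := hP _ fun f => S3.ext (n2 f)
    refine ⟨fun v => nz (x (gv v)) * (k v)⁻¹, fun e => ?_⟩
    rw [← S3.ext (n3 e), E, hk]
    group
  · have a := hx.2
    rcases h : κ j with (f | e) | i
    · exact (a (.inl (.inl f))).le.trans (by simp only [th0, Sum.elim_inl]; linarith)
    · have a1 := a (.inl (.inr e))
      have a2 := a (.inr (.inl e))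
      simp only [R0, W0, th0, Sum.elim_inl, Sum.elim_inr, ev] at a1 a2 ⊢
      rw [map_mul, map_inv]
      refine (S3.mul_one_le _ _).trans ?_
      rw [S3.inv_one]
      linarith
    · have := (a (.inr (.inr i))).le
      simpa only [W0, R0, th0, Sum.elim_inr, if_pos (⟨j, h⟩ : ∃ j, κ j = .inr i)] using this
  · have a : ∀ a, (∃ j, κ j = a) → ev (D.R0 lb gv uv a) x = 1 := by
      rintro _ ⟨j, rfl⟩; exact e j
    have aF : ∀ f, D.F (bx lb x) f = 1 := fun f => by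
      simpa [R0, F, bx_lift] using a _ (sur (.inl f))
    have aP : ∀ i, (∃ j, κ j = .inr i) → nz (x i) = 1 := fun i hi => by
      simpa [R0, ev] using a _ hi
    have aE : ∀ e, D.E (bx lb x) (fun v => nz (x (gv v))) e = nz (x (uv e)) := fun e => by
      simpa [R0, E, bx_lift, ev, mul_inv_eq_one] using a _ (sur (.inr e))
    obtain ⟨k, hk⟩ := hP _ aF
    have b : ∀ e, D.E (bx lb x) (fun v => nz (x (gv v))) e =
        nz (x (gv (D.src e))) * (k (D.src e))⁻¹ * (nz (x (gv (D.tgt e))) * (k (D.tgt e))⁻¹)⁻¹ :=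
      fun e => by rw [E, hk]; group
    have c := tr (fun v => nz (x (gv v)) * (k v)⁻¹) fun e he => by
      have := b e
      rwa [aE, aP _ he, eq_comm, mul_inv_eq_one] at this
    have d : ∀ e, D.E (bx lb x) (fun v => nz (x (gv v))) e = 1 := fun e => by
      rw [b, c e, mul_inv_cancel]
    exact D.mem_KW lb gv uv κ hx (fun f => by simp [aF, d0.le, div_nonneg])
      (fun e => by simp [d, d0.le, div_nonneg])
      (fun e => by rw [← aE, d]; simp [d0.le, div_nonneg]) aP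

end Dat

theorem pins {A : Type*} [DecidableEq ι] (r : A → ι → ℝ) (hr : LinearIndependent ℝ r) (S : Set ι) :
    ∃ κ : ι → A ⊕ ι, LinearIndependent ℝ (fun j => Sum.elim r (Pi.single · 1) (κ j)) ∧
      (∀ a, ∃ j, κ j = .inl a) ∧ ∀ ξ : ι → ℝ, (∀ a, r a ⬝ᵥ ξ = 0) →
        (∀ i ∈ S, (∃ j, κ j = .inr i) → ξ i = 0) → ∀ i ∈ S, ξ i = 0 := by
  let v : A ⊕ ι → ι → ℝ := Sum.elim r (Pi.single · 1)
  obtain ⟨s1, a1, a2, a3, a4⟩ := exists_linearIndepOn_extension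
    ((linearIndepOn_range_iff Sum.inl_injective v).2 hr) (subset_union_left (t := Sum.inr '' S))
  obtain ⟨s2, -, b2, b3, b4⟩ := exists_linearIndepOn_extension a4 (subset_univ _)
  let b := Module.Basis.mk b4 (by
    rw [← (Pi.basisFun ℝ ι).span_eq, Submodule.span_le, ← Set.image_eq_range (f := v)]
    rintro _ ⟨i, rfl⟩
    exact b3 ⟨.inr i, trivial, by simp [v]⟩)
  let e := (Pi.basisFun ℝ ι).indexEquiv b
  have k : ∀ a ∈ s1, ∃ j, (e j).1 = a := fun a ha => ⟨e.symm ⟨a, b2 ha⟩, by simp⟩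
  refine ⟨fun j => (e j).1, b4.comp e e.injective, fun a => k _ (a2 ⟨a, rfl⟩),
    fun ξ h1 h2 i hi => ?_⟩
  have : Submodule.span ℝ (v '' s1) ≤ LinearMap.ker ((dotProductBilin ℝ ℝ).flip ξ) := by
    rw [Submodule.span_le]
    rintro _ ⟨a, ha, rfl⟩
    rcases a1 ha with ⟨a, rfl⟩ | ⟨i, hi, rfl⟩
    · exact h1 a
    · simpa [v] using h2 i hi (k _ ha)
  simpa [v] using this (a3 ⟨.inr i, Or.inr ⟨i, hi, rfl⟩, rfl⟩)

theorem core (C : ℕ) : ∃ ε : ℝ, 0 < ε ∧ ∀ {B FY : Type*} {VT ET FT : Type} [Finite FY] [Finite VT]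
    [Finite ET] [Fintype FT] [DecidableEq FT] [Nonempty VT] (D : Dat C B FY VT ET FT),
    LinearIndependent ℤ (fun f => ab (D.wF f)) →
    (∀ u : ET → ℝ, (∀ σ, D.cob u σ = 0) → ∃ f : VT → ℝ, ∀ e, u e = f (D.src e) - f (D.tgt e)) →
    (∀ b, (∀ f, D.F b f = 1) → ∃ k : VT → S3, ∀ e,
      FreeGroup.lift b (D.wE e) = (k (D.src e))⁻¹ * k (D.tgt e)) →
    ∀ ρ : ET → S3, (∀ e, ‖(ρ e : ℍ) - 1‖ ≤ ε) →
    (∀ σ, ρ (D.e1 σ) * ρ (D.e2 σ) * (ρ (D.e3 σ))⁻¹ * (ρ (D.e4 σ))⁻¹ = 1) →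
    ∃ γ : VT → S3, ∀ e, ρ e = γ (D.src e) * (γ (D.tgt e))⁻¹ := by
  classical
  refine ⟨1 / (2 * ((64 + 4 * C ^ 2) * C + 2 * C ^ 3 + 1)) / (64 * C + 128), by positivity, ?_⟩
  intro B FY VT ET FT _ _ _ _ _ _ D ind H1 hP ρ hρ fl
  have := Fintype.ofFinite FY
  have := Fintype.ofFinite VT
  have := Fintype.ofFinite ET
  let E' : Finset B := Finset.univ.biUnion fun f => (ab (D.wF f)).support
  let ι := Fin E'.card ⊕ VT ⊕ ET
  let lb : B → FreeGroup ι := fun i =>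
    if h : i ∈ E' then .of (.inl (E'.equivFin ⟨i, h⟩)) else 1
  have l1 : ∀ w, (∀ k, ab (FreeGroup.lift lb w) (.inl k) = ab w (E'.equivFin.symm k)) ∧
      ∀ j, ab (FreeGroup.lift lb w) (.inr j) = 0 := by
    have l0 : ∀ i, (∀ k, ab (lb i) (.inl k) = Finsupp.single i (1 : ℤ) (E'.equivFin.symm k)) ∧
        ∀ j, ab (lb i) (.inr j) = 0 := fun i => by
      by_cases h : i ∈ E'
      · simp only [lb, dif_pos h, ab_of, Finsupp.single_apply]
        refine ⟨fun k => if_congr ?_ rfl rfl, by simp⟩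
        rw [Sum.inl.injEq, Equiv.apply_eq_iff_eq_symm_apply, Subtype.ext_iff]
      · simp only [lb, dif_neg h, ab_one, Finsupp.single_apply]
        exact ⟨fun k => (if_neg fun e : i = _ => h (e ▸ (E'.equivFin.symm k).2)).symm, by simp⟩
    intro w
    induction w using FreeGroup.induction_on with
    | C1 => simp
    | of a => simpa using l0 a
    | inv_of a ih => simpa using l0 a
    | mul u v h1 h2 => simp [h1, h2]
  let gv : VT → ι := fun v => .inr (.inl v)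
  let uv : ET → ι := fun e => .inr (.inr e)
  have i1 : LinearIndependent ℝ fun f (k : Fin E'.card) =>
      (ab (D.wF f) (E'.equivFin.symm k) : ℝ) := by
    refine (linearIndependent_algebraMap_comp_iff (R := ℤ)).2 ?_
    rw [Fintype.linearIndependent_iff] at ind ⊢
    refine fun c hc => ind c (Finsupp.ext fun i => ?_)
    by_cases h : i ∈ E'
    · simpa using congrFun hc (E'.equivFin ⟨i, h⟩)
    · simp only [E', Finset.mem_biUnion, Finset.mem_univ, true_and, not_exists,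
        Finsupp.notMem_support_iff] at h
      simp [h]
  obtain ⟨κ, k1, k2, k3⟩ := pins (fun a j => (ab (D.R0 lb gv uv (.inl a)) j : ℝ)) (by
    rw [Fintype.linearIndependent_iff] at i1 ⊢
    intro c hc
    have c1 : ∀ e, c (.inr e) = 0 := fun e => by
      simpa [Dat.R0, l1, gv, uv, Finsupp.single_apply, ι] using congrFun hc (uv e)
    rintro (f | e)
    · exact i1 (fun f => c (.inl f)) (funext fun k => by
        simpa [Dat.R0, l1, c1] using congrFun hc (.inl k)) f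
    · exact c1 e) (range uv)
  have tr : ∀ f : VT → ℝ, (∀ e, (∃ j, κ j = .inr (uv e)) → f (D.src e) = f (D.tgt e)) →
      ∀ e, f (D.src e) = f (D.tgt e) := fun f hf e => by
    refine sub_eq_zero.1 (k3 (Sum.elim 0 (Sum.elim f fun e => f (D.src e) - f (D.tgt e))) ?_ ?_
      (uv e) ⟨e, rfl⟩)
    · rintro (f | e)
      · simp [Dat.R0, l1, dotProduct, ι]
      · simp [Dat.R0, l1, dotProduct, ι, gv, uv, Finsupp.single_apply, add_mul,
          Finset.sum_add_distrib]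
        ring
    · rintro _ ⟨e, rfl⟩ he
      exact sub_eq_zero.2 (hf e he)
  let L : (ET → ℍ) →ₗ[ℝ] (FT → ℍ) × (ET → ℍ) :=
    { toFun := fun u => (D.cob u, fun e => if ∃ j, κ j = .inr (uv e) then u e else 0)
      map_add' := fun u u' => Prod.ext (funext fun σ => by simp [Sq.cob]; abel)
        (funext fun e => by simp only [Prod.snd_add, Pi.add_apply]; split_ifs <;> simp)
      map_smul' := fun c u => Prod.ext (funext fun σ => by simp [Sq.cob, smul_sub])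
        (funext fun e => by simp) }
  obtain ⟨ν, -, hν⟩ := L.exists_antilipschitzWith (LinearMap.ker_eq_bot'.2 fun u hu => by
    have : ∀ l : ℍ →+ ℝ, ∀ e, l (u e) = 0 := fun l e => by
      obtain ⟨f, hf⟩ := H1 (fun e => l (u e)) fun σ => by
        simpa [L, Sq.cob] using congrArg l (congrFun (congrArg Prod.fst hu) σ)
      rw [hf, sub_eq_zero]
      refine tr f (fun e he => ?_) e
      have := congrFun (congrArg Prod.snd hu) e
      simp only [L, LinearMap.coe_mk, AddHom.coe_mk, if_pos he, Prod.snd_zero, Pi.zero_apply]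
        at this
      rw [← sub_eq_zero, ← hf, this, map_zero]
    ext1 e
    exact inner_self_eq_zero.1 (this (innerSL ℝ (u e)).toLinearMap.toAddMonoidHom e))
  refine D.core1 lb gv uv κ (ν := ν) (by convert k1 with j; rcases κ j with _ | _ <;>
    simp [Dat.R0, Finsupp.single_apply, Pi.single_apply, eq_comm]) k2 (fun u hu => ?_)
    (fun f hf e => ?_) hP ν.2 (by positivity) ?_ ?_ hρ fl
  · have := ZeroHomClass.bound_of_antilipschitz L hν u
    refine this.trans (le_of_eq (congrArg _ ?_))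
    have : (L u).2 = 0 := funext fun e => by
      simp only [L, LinearMap.coe_mk, AddHom.coe_mk]
      split_ifs with h
      exacts [hu e h, rfl]
    rw [Prod.norm_def, this]
    simp [L]
  · have := tr (fun v => if f v = f (D.src e) then 1 else 0) (fun e' he => by rw [hf e' he]) e
    by_contra h
    simp [Ne.symm h] at this
  · exact one_div_le_one_div_of_le two_pos (by nlinarith [(by positivity :
      (0 : ℝ) ≤ (64 + 4 * C ^ 2) * C + 2 * C ^ 3)])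
  · rw [mul_one_div, div_le_div_iff₀ (by positivity) two_pos]
    linarith

end Vale.Agent.P173
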