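import Vale.Agent.P173.Core

/-! Lifted words and Fox derivatives. -/

namespace Vale.Agent.P173

open Quaternion

variable {D A R : Type*} [Group D]

def actF (D A : Type*) [Group D] : D →* MulAut (FreeGroup (D × A)) where
  toFun h := FreeGroup.freeGroupCongr ((Equiv.mulLeft h).prodCongr (Equiv.refl A))
  map_one' := MulEquiv.toMonoidHom_injective (FreeGroup.ext_hom _ _ fun a => by simp)
  map_mul' g h := MulEquiv.toMonoidHom_injective (FreeGroup.ext_hom _ _ fun a => by
    simp [mul_assoc, Prod.map])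

def lamH (π : FreeGroup A →* D) : FreeGroup A →* FreeGroup (D × A) ⋊[actF D A] D :=
  FreeGroup.lift fun a => ⟨.of (1, a), π (.of a)⟩

def lam (π : FreeGroup A →* D) (h : D) (w : FreeGroup A) : FreeGroup (D × A) :=
  actF D A h (lamH π w).left

variable (π : FreeGroup A →* D)

theorem lamH_right (w : FreeGroup A) : (lamH π w).right = π w :=
  DFunLike.congr_fun (FreeGroup.ext_hom (SemidirectProduct.rightHom.comp (lamH π)) π
    fun a => by simp [lamH]) w

@[simp] theorem lam_one (h : D) : lam π h 1 = 1 := by simp [lam]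

@[simp] theorem lam_of (h : D) (a : A) : lam π h (.of a) = .of (h, a) := by
  rw [lam, lamH, FreeGroup.lift_apply_of]; simp [actF]

theorem lam_mul (h : D) (u v : FreeGroup A) :
    lam π h (u * v) = lam π h u * lam π (h * π u) v := by
  simp [lam, lamH_right]

theorem lam_inv (h : D) (u : FreeGroup A) : lam π (h * π u) u⁻¹ = (lam π h u)⁻¹ := by
  rw [← mul_eq_one_iff_eq_inv', ← lam_mul]; simp

theorem lam_div {h h' : D} {u v : FreeGroup A} (e : h * π u = h' * π v) :
    lam π h (u * v⁻¹) = lam π h u * (lam π h' v)⁻¹ := by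
  rw [lam_mul, e, lam_inv]

/-- the Fox derivative, translated by `h` -/
noncomputable def fox (h : D) (w : FreeGroup A) : D × A →₀ ℤ := ab (lam π h w)

@[simp] theorem fox_one (h : D) : fox π h 1 = 0 := by simp [fox]

@[simp] theorem fox_of (h : D) (a : A) : fox π h (.of a) = Finsupp.single (h, a) 1 := by
  simp [fox]

theorem fox_mul (h : D) (u v : FreeGroup A) :
    fox π h (u * v) = fox π h u + fox π (h * π u) v := by simp [fox, lam_mul]

theorem fox_inv (h : D) (u : FreeGroup A) : fox π (h * π u) u⁻¹ = -fox π h u := by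
  simp [fox, lam_inv]

/-- uniqueness of crossed homomorphisms -/
theorem cross_ext {M : Type*} [AddCommGroup M] {f g : D → FreeGroup A → M}
    (hf : ∀ h u v, f h (u * v) = f h u + f (h * π u) v)
    (hg : ∀ h u v, g h (u * v) = g h u + g (h * π u) v)
    (e : ∀ h a, f h (.of a) = g h (.of a)) (h : D) (w : FreeGroup A) : f h w = g h w := by
  have k : ∀ {f : D → FreeGroup A → M}, (∀ h u v, f h (u * v) = f h u + f (h * π u) v) →
      (∀ h, f h 1 = 0) ∧ ∀ h u, f h u⁻¹ = -f (h * π u⁻¹) u := fun {f} hf => by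
    have : ∀ h, f h 1 = 0 := fun h => by simpa using hf h 1 1
    exact ⟨this, fun h u => by rw [eq_neg_iff_add_eq_zero, ← hf]; simp [this]⟩
  induction w using FreeGroup.induction_on generalizing h with
  | C1 => rw [(k hf).1, (k hg).1]
  | of a => exact e h a
  | inv_of a ih => rw [(k hf).2, (k hg).2, ih]
  | mul u v iu iv => rw [hf, hg, iu, iv]

theorem exists_dec (w : R → FreeGroup A) : ∃ Dec : FreeGroup A → List (FreeGroup A × R × Bool),
    ∀ x ∈ Subgroup.normalClosure (Set.range w),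
      ((Dec x).map fun d => d.1 * pw (w d.2.1) d.2.2 * d.1⁻¹).prod = x := by
  have : ∀ x, ∃ l : List (FreeGroup A × R × Bool), x ∈ Subgroup.normalClosure (Set.range w) →
      (l.map fun d => d.1 * pw (w d.2.1) d.2.2 * d.1⁻¹).prod = x := fun x => by
    by_cases hx : x ∈ Subgroup.normalClosure (Set.range w)
    swap
    · exact ⟨[], fun h => (hx h).elim⟩
    suffices ∃ l : List (FreeGroup A × R × Bool),
      (l.map fun d => d.1 * pw (w d.2.1) d.2.2 * d.1⁻¹).prod = x from this.imp fun _ h _ => h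
    induction hx using Subgroup.closure_induction'' with
    | mem x hx =>
      obtain ⟨_, ⟨r, rfl⟩, h⟩ := Group.mem_conjugatesOfSet_iff.1 hx
      obtain ⟨a, rfl⟩ := isConj_iff.1 h
      exact ⟨[(a, r, true)], by simp [pw]⟩
    | inv_mem x hx =>
      obtain ⟨_, ⟨r, rfl⟩, h⟩ := Group.mem_conjugatesOfSet_iff.1 hx
      obtain ⟨a, rfl⟩ := isConj_iff.1 h
      exact ⟨[(a, r, false)], by simp [pw, mul_assoc]⟩
    | one => exact ⟨[], rfl⟩
    | mul x y _ _ hx hy =>
      obtain ⟨l, rfl⟩ := hx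
      obtain ⟨l', rfl⟩ := hy
      exact ⟨l ++ l', by simp⟩
  exact ⟨fun x => (this x).choose, fun x => (this x).choose_spec⟩

variable {π}

theorem lam_list {w : R → FreeGroup A} (hw : ∀ r, π (w r) = 1) (h : D)
    (l : List (FreeGroup A × R × Bool)) :
    lam π h (l.map fun d => d.1 * pw (w d.2.1) d.2.2 * d.1⁻¹).prod = (l.map fun d =>
      lam π h d.1 * pw (lam π (h * π d.1) (w d.2.1)) d.2.2 * (lam π h d.1)⁻¹).prod := by
  induction l with
  | nil => simp
  | cons d l ih =>
    have e : π (pw (w d.2.1) d.2.2) = 1 := by unfold pw; split_ifs <;> simp [hw]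
    have e' : lam π (h * π d.1) (pw (w d.2.1) d.2.2) = pw (lam π (h * π d.1) (w d.2.1)) d.2.2 := by
      unfold pw; split_ifs
      · rfl
      · simpa [hw] using lam_inv π (h * π d.1) (w d.2.1)
    rw [List.map_cons, List.prod_cons, lam_mul, lam_div π (h' := h) (by simp [e]), lam_mul, e']
    simp [e, ih]

theorem ab_list {B : Type*} (l : List (FreeGroup B × FreeGroup B × Bool)) :
    ab (l.map fun d => d.1 * pw d.2.1 d.2.2 * d.1⁻¹).prod =
      (l.map fun d => sg d.2.2 • ab d.2.1).sum := by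
  induction l with
  | nil => simp
  | cons d l ih =>
    simp only [List.map_cons, List.prod_cons, ab_mul, ih, List.sum_cons, ab_inv]
    unfold pw sg; split_ifs <;> simp

theorem S3.conj_one (p q : S3) : ‖((p * q * p⁻¹ : S3) : ℍ) - 1‖ = ‖(q : ℍ) - 1‖ := by
  have : ((p * q * p⁻¹ : S3) : ℍ) - 1 = p * (q - 1) * (p⁻¹ : S3) := by
    rw [mul_sub, sub_mul, mul_one, ← S3.v_mul p p⁻¹, mul_inv_cancel]; rfl
  rw [this, norm_mul, norm_mul, S3.nrm, S3.nrm, one_mul, mul_one]

theorem S3.sub_eq (p q : S3) : ‖(p : ℍ) - q‖ = ‖((p * q⁻¹ : S3) : ℍ) - 1‖ := by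
  have : ((p * q⁻¹ : S3) : ℍ) - 1 = (p - q) * (q⁻¹ : S3) := by
    rw [sub_mul, ← S3.v_mul q, mul_inv_cancel]; rfl
  rw [this, norm_mul, S3.nrm, mul_one]

theorem lam_est {w : R → FreeGroup A} (hw : ∀ r, π (w r) = 1) (h : D)
    (l : List (FreeGroup A × R × Bool)) (b : D × A → S3) {δ : ℝ} (h0 : 0 ≤ δ)
    (hl : ∀ d ∈ l, ‖(FreeGroup.lift b (lam π (h * π d.1) (w d.2.1)) : ℍ) - 1‖ ≤ δ) :
    ‖(FreeGroup.lift b (lam π h (l.map fun d => d.1 * pw (w d.2.1) d.2.2 * d.1⁻¹).prod) : ℍ) - 1‖ ≤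
      l.length * δ := by
  rw [lam_list hw, map_list_prod, List.map_map]
  have k : ∀ d ∈ l, ‖((FreeGroup.lift b (lam π h d.1 * pw (lam π (h * π d.1) (w d.2.1)) d.2.2 *
      (lam π h d.1)⁻¹) : S3) : ℍ) - 1‖ ≤ δ := fun d hd => by
    rw [map_mul, map_mul, map_inv, S3.conj_one]
    unfold pw; split_ifs
    exacts [hl d hd, by rw [map_inv, S3.inv_one]; exact hl d hd]
  exact (list_est l _ _ h0 le_rfl fun d hd => ⟨k d hd, k d hd, by simp⟩).1

end Vale.Agent.P173
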