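import Vale.Agent.P173.Cech
import Vale.Agent.P173.Lam

/-! Two-dimensional cell complexes with a free cellular action. -/

namespace Vale.Agent.P173

open Topology Filter

universe u

variable {D Y : Type*} [Group D] [TopologicalSpace Y] [MulAction D Y]

def sk (D : Type*) [Group D] [MulAction D Y] {V E : Type*} (vt : V → Y) (ed : E → ℝ → Y) : Set Y :=
  {y | (∃ (d : D) (v : V), y = d • vt v) ∨ ∃ (d : D) (e : E) (s : ℝ), |s| < 1 ∧ y = d • ed e s}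

structure Cx (D Y : Type*) [Group D] [TopologicalSpace Y] [MulAction D Y] where
  V : Type u
  E : Type u
  R : Type u
  v0 : V
  vt : V → Y
  ed : E → ℝ → Y
  fc : R → ℂ → Y
  N : ℂ → ℝ
  src : E → V
  tgt : E → V
  pe : E → D
  cd : Y → D × V ⊕ D × E × ℝ ⊕ D × R × ℂ
  ed_c : ∀ e, Continuous (ed e)
  fc_c : ∀ f, Continuous (fc f)
  N_c : Continuous N
  N_smul : ∀ (r : ℝ) x, 0 ≤ r → N (r • x) = r * N x
  N_pos : ∀ x, x ≠ 0 → 0 < N x
  ed_s : ∀ e s, s ≤ -1 → ed e s = vt (src e)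
  ed_t : ∀ e s, 1 ≤ s → ed e s = pe e • vt (tgt e)
  fc_r : ∀ f x, 1 ≤ N x → fc f x = fc f ((N x)⁻¹ • x)
  fc_b : ∀ f x, 1 ≤ N x → fc f x ∈ sk D vt ed
  cov : ∀ y, y ∈ sk D vt ed ∨ ∃ (d : D) (f : R) (x : ℂ), N x < 1 ∧ y = d • fc f x
  cd_v : ∀ (d : D) v, cd (d • vt v) = .inl (d, v)
  cd_e : ∀ (d : D) e s, |s| < 1 → cd (d • ed e s) = .inr (.inl (d, e, s))
  cd_f : ∀ (d : D) f x, N x < 1 → cd (d • fc f x) = .inr (.inr (d, f, x))
  wt1 : ∀ A : Set Y, (∀ (d : D) e, IsOpen {s | d • ed e s ∈ A}) → ∀ y ∈ A,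
    ∀ᶠ y' in 𝓝[sk D vt ed] y, y' ∈ A
  wt2 : ∀ A : Set Y, (∀ (d : D) e, IsOpen {s | d • ed e s ∈ A}) →
    (∀ (d : D) f, IsOpen {x | d • fc f x ∈ A}) → IsOpen A

theorem step_cont {M : Type*} [TopologicalSpace M] {f g : ℝ → M} (hf : Continuous f)
    (hg : Continuous g) {s : ℝ} (h : s ≠ 0) :
    ContinuousAt (fun s => if s ≤ 0 then f s else g s) s := by
  rcases h.lt_or_gt with h | h
  · exact hf.continuousAt.congr ((gt_mem_nhds h).mono fun _ e => (if_pos e.le).symm)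
  · exact hg.continuousAt.congr ((lt_mem_nhds h).mono fun _ e => (if_neg e.not_ge).symm)

theorem step_ev {M : Type*} (a b : M) {s : ℝ} (h : s ≠ 0) :
    ∀ᶠ t in 𝓝 s, (if t ≤ 0 then a else b) = if s ≤ 0 then a else b := by
  rcases h.lt_or_gt with h | h
  · exact (gt_mem_nhds h).mono fun _ e => by rw [if_pos e.le, if_pos h.le]
  · exact (lt_mem_nhds h).mono fun _ e => by rw [if_neg e.not_ge, if_neg h.not_ge]

theorem abs_ev {s : ℝ} (h : |s| < 1) : ∀ᶠ t in 𝓝 s, |t| < 1 :=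
  continuous_abs.continuousAt.eventually (gt_mem_nhds h)

namespace Cx

variable (C : Cx D Y)

abbrev Y1 : Set Y := sk D C.vt C.ed

theorem ed_cases (d : D) (e : C.E) (s : ℝ) : |s| < 1 ∨ (s ≤ -1 ∧ d • C.ed e s = d • C.vt (C.src e)) ∨
    1 ≤ s ∧ d • C.ed e s = (d * C.pe e) • C.vt (C.tgt e) := by
  by_cases h : s ≤ -1
  · exact .inr (.inl ⟨h, by rw [C.ed_s e s h]⟩)
  by_cases h' : 1 ≤ s
  · exact .inr (.inr ⟨h', by rw [C.ed_t e s h', mul_smul]⟩)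
  · exact .inl (abs_lt.2 ⟨by linarith, by linarith⟩)

theorem ed_mem (d : D) (e : C.E) (s : ℝ) : d • C.ed e s ∈ C.Y1 := by
  rcases C.ed_cases d e s with h | h | h
  exacts [.inr ⟨d, e, s, h, rfl⟩, .inl ⟨_, _, h.2⟩, .inl ⟨_, _, h.2⟩]

theorem smul_mem (g : D) {y : Y} (h : y ∈ C.Y1) : g • y ∈ C.Y1 := by
  rcases h with ⟨d, v, rfl⟩ | ⟨d, e, s, h, rfl⟩
  exacts [.inl ⟨g * d, v, (mul_smul ..).symm⟩, .inr ⟨g * d, e, s, h, (mul_smul ..).symm⟩]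

theorem N_zero : C.N 0 = 0 := by simpa using C.N_smul 0 0 le_rfl

theorem fc_not {d : D} {f x} (h : C.N x < 1) : d • C.fc f x ∉ C.Y1 := by
  rintro (⟨d, v, e⟩ | ⟨d, _, s, hs, e⟩) <;> have := congrArg C.cd e
  · simp [C.cd_f _ _ _ h, C.cd_v] at this
  · simp [C.cd_f _ _ _ h, C.cd_e _ _ _ hs] at this

def mid (y : Y) : Prop := ∃ (d : D) (e : C.E), y = d • C.ed e 0

theorem mid_vt (d : D) (v) : ¬C.mid (d • C.vt v) := fun ⟨d, e, h⟩ => by
  simpa [C.cd_v, C.cd_e] using congrArg C.cd h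

theorem mid_ed {d : D} {e s} : C.mid (d • C.ed e s) ↔ s = 0 := by
  refine ⟨fun h => ?_, fun h => ⟨d, e, by rw [h]⟩⟩
  rcases C.ed_cases d e s with h1 | h1 | h1
  · obtain ⟨d', e', h⟩ := h
    have := congrArg C.cd h
    simp [C.cd_e _ _ _ h1, C.cd_e] at this
    exact this.2.2
  all_goals exact (C.mid_vt _ _ (h1.2 ▸ h)).elim

theorem mid_smul (g : D) {y : Y} : C.mid (g • y) ↔ C.mid y :=
  ⟨fun ⟨d, e, h⟩ => ⟨g⁻¹ * d, e, by rw [mul_smul, ← h, inv_smul_smul]⟩,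
    fun ⟨d, e, h⟩ => ⟨g * d, e, by rw [mul_smul, h]⟩⟩

theorem near_ed {d : D} {e s} (h : |s| < 1) {p : Y → Prop} (hp : ∀ᶠ t in 𝓝 s, p (d • C.ed e t)) :
    ∀ᶠ y in 𝓝[C.Y1] (d • C.ed e s), p y := by
  obtain ⟨U, h1, h2, h3⟩ := eventually_nhds_iff.1 (hp.and (abs_ev h))
  refine (C.wt1 ((d • C.ed e ·) '' U) (fun d' e' => isOpen_iff_mem_nhds.2 ?_) _
    ⟨s, h3, rfl⟩).mono ?_
  · rintro t ⟨t', a, b⟩
    have : d' = d ∧ e' = e ∧ t = t' := by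
      have := congrArg C.cd b
      rcases C.ed_cases d' e' t with c | c | c
      · simpa [C.cd_e _ _ _ c, C.cd_e _ _ _ (h1 _ a).2, eq_comm] using this
      all_goals simp [c.2, C.cd_v, C.cd_e _ _ _ (h1 _ a).2] at this
    obtain ⟨rfl, rfl, rfl⟩ := this
    exact mem_of_superset (h2.mem_nhds a) fun t ht => ⟨t, ht, rfl⟩
  · rintro _ ⟨t, a, rfl⟩
    exact (h1 t a).1

theorem near_fc {d : D} {f x} (h : C.N x < 1) {p : Y → Prop}
    (hp : ∀ᶠ t in 𝓝 x, p (d • C.fc f t)) : ∀ᶠ y in 𝓝 (d • C.fc f x), p y := by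
  obtain ⟨U, h1, h2, h3⟩ := eventually_nhds_iff.1
    (hp.and (C.N_c.continuousAt.eventually (gt_mem_nhds h)))
  refine mem_of_superset ((C.wt2 ((d • C.fc f ·) '' U) (fun d' e => ?_)
    fun d' e' => isOpen_iff_mem_nhds.2 ?_).mem_nhds ⟨x, h3, rfl⟩) ?_
  · convert isOpen_empty
    exact Set.eq_empty_of_forall_notMem fun s ⟨t, a, b⟩ =>
      C.fc_not (h1 t a).2 (b ▸ C.ed_mem d' e s :)
  · rintro t ⟨t', a, b⟩
    have : d' = d ∧ e' = f ∧ t = t' := by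
      by_cases c : C.N t < 1
      · simpa [C.cd_f _ _ _ c, C.cd_f _ _ _ (h1 _ a).2, eq_comm] using congrArg C.cd b
      · exact (C.fc_not (h1 _ a).2 (b ▸ C.smul_mem d' (C.fc_b _ _ (not_lt.1 c)) :)).elim
    obtain ⟨rfl, rfl, rfl⟩ := this
    exact mem_of_superset (h2.mem_nhds a) fun t ht => ⟨t, ht, rfl⟩
  · rintro _ ⟨t, a, rfl⟩
    exact (h1 t a).1

theorem near_nm {p : Y → Prop} (hp : ∀ (d : D) e s, s ≠ 0 → p (d • C.ed e s) →
    ∀ᶠ t in 𝓝 s, p (d • C.ed e t)) {y : Y} (h : ¬C.mid y) (h' : p y) :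
    ∀ᶠ y' in 𝓝[C.Y1] y, ¬C.mid y' ∧ p y' :=
  C.wt1 {y | ¬C.mid y ∧ p y} (fun d e => isOpen_iff_mem_nhds.2 fun s hs => by
    have := C.mid_ed.not.1 hs.1
    filter_upwards [hp d e s this hs.2, isOpen_ne.mem_nhds this] with t a b
    exact ⟨C.mid_ed.not.2 b, a⟩) y ⟨h, h'⟩

noncomputable def ζ (y : Y) : D × C.V := Sum.elim id (Sum.elim (fun c => if c.2.2 ≤ 0 then
  (c.1, C.src c.2.1) else (c.1 * C.pe c.2.1, C.tgt c.2.1)) fun c => (c.1, C.v0)) (C.cd y)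

theorem ζ_vt (d : D) (v) : C.ζ (d • C.vt v) = (d, v) := by simp [ζ, C.cd_v]

theorem ζ_ed (d : D) (e s) : C.ζ (d • C.ed e s) =
    if s ≤ 0 then (d, C.src e) else (d * C.pe e, C.tgt e) := by
  rcases C.ed_cases d e s with h | h | h
  · simp [ζ, C.cd_e _ _ _ h]
  · rw [h.2, ζ_vt, if_pos (by linarith)]
  · rw [h.2, ζ_vt, if_neg (by linarith)]

theorem ζ_smul (g : D) {y : Y} (h : y ∈ C.Y1) : C.ζ (g • y) = (g * (C.ζ y).1, (C.ζ y).2) := by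
  rcases h with ⟨d, v, rfl⟩ | ⟨d, e, s, -, rfl⟩
  · simp [← mul_smul, ζ_vt]
  · simp only [← mul_smul, ζ_ed]
    split_ifs <;> simp [mul_assoc]

noncomputable def κ (y : Y) : FreeGroup C.E := Sum.elim (fun _ => 1)
  (Sum.elim (fun c => if c.2.2 ≤ 0 then 1 else .of c.2.1) fun _ => 1) (C.cd y)

theorem κ_ed (d : D) (e) {s} (h : |s| < 1) : C.κ (d • C.ed e s) = if s ≤ 0 then 1 else .of e := by
  simp [κ, C.cd_e _ _ _ h]

theorem κ_smul (g : D) (y : Y) : C.κ (g • y) = C.κ y := by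
  rcases C.cov y with (⟨d, v, rfl⟩ | ⟨d, e, s, h, rfl⟩) | ⟨d, f, x, h, rfl⟩ <;>
    simp [← mul_smul, κ, C.cd_v, C.cd_e, C.cd_f, *]

open Classical in
noncomputable def τ (y y' : Y) : FreeGroup C.E := if C.mid y then C.κ y' else 1

theorem τ_smul (g : D) (y y' : Y) : C.τ (g • y) (g • y') = C.τ y y' := by
  classical exact if_congr (C.mid_smul g) (C.κ_smul g y') rfl

theorem τ_comp (y : Y) :
    ∀ᶠ y' in 𝓝[C.Y1] y, ∀ᶠ y'' in 𝓝[C.Y1] y', C.τ y y'' = C.τ y y' * C.τ y' y'' := by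
  by_cases h : C.mid y
  · obtain ⟨d, e, rfl⟩ := h
    refine C.near_ed (by simp) ((abs_ev (by simp)).mono fun s hs => ?_)
    by_cases h0 : s = 0
    · simp [τ, h0, mid_ed, κ_ed]
    · refine C.near_ed hs ?_
      filter_upwards [abs_ev hs, step_ev 1 (FreeGroup.of e) h0] with t a b
      simp [τ, h0, mid_ed, κ_ed, a, b, hs]
  · exact (C.near_nm (p := fun _ => True) (by simp) h trivial).mono fun y' h' => by
      simp [τ, h, h'.1]

theorem adm1 {Γ : Type*} [Group Γ] (Θ : FreeGroup C.E →* Γ) (m : D × C.V → Γ)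
    (hm : ∀ d e, m (d * C.pe e, C.tgt e) = m (d, C.src e) * Θ (.of e)) (y : Y) :
    ∀ᶠ y' in 𝓝[C.Y1] y, m (C.ζ y') = m (C.ζ y) * Θ (C.τ y y') := by
  by_cases h : C.mid y
  · obtain ⟨d, e, rfl⟩ := h
    refine C.near_ed (by simp) ((abs_ev (by simp)).mono fun s hs => ?_)
    simp only [τ, mid_ed, κ_ed _ _ _ hs, ζ_ed]
    split_ifs <;> simp_all
  · refine (C.near_nm (p := fun y' => C.ζ y' = C.ζ y) (fun d e s hs h => ?_) h rfl).mono
      fun y' h' => by simp [τ, h, h'.2]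
    simp only [← h, ζ_ed]
    exact step_ev _ _ hs

theorem adm2 {Γ : Type*} [Group Γ] (Θ : FreeGroup C.E →* Γ) (d : D) (e) :
    Adm1 (fun s t => Θ (C.τ (d • C.ed e s) (d • C.ed e t)))
      fun s => if s ≤ 0 then 1 else Θ (.of e) := fun s => by
  by_cases h : s = 0
  · filter_upwards [abs_ev (s := s) (by simp [h])] with t ht
    simp only [τ, mid_ed, κ_ed _ _ _ ht, h]
    split_ifs <;> simp_all
  · simpa [τ, mid_ed, h] using step_ev _ _ h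

theorem pull {Z : Type*} [TopologicalSpace Z] {L : Z → Y} {z} (h : ContinuousAt L z)
    (h' : ∀ᶠ z' in 𝓝 z, L z' ∈ C.Y1) : Tendsto L (𝓝 z) (𝓝[C.Y1] (L z)) :=
  tendsto_nhdsWithin_of_tendsto_nhds_of_eventually_within _ h h'

noncomputable def nr (x : ℂ) : ℂ := (C.N x)⁻¹ • x

theorem N_nr {x : ℂ} (h : x ≠ 0) : C.N (C.nr x) = 1 := by
  rw [nr, C.N_smul _ _ (inv_pos.2 (C.N_pos x h)).le, inv_mul_cancel₀ (C.N_pos x h).ne']

theorem nr_c {x : ℂ} (h : x ≠ 0) : ContinuousAt C.nr x :=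
  (C.N_c.continuousAt.inv₀ (C.N_pos x h).ne').smul continuousAt_id

noncomputable def Lf (f : C.R) (z : ℂ) : Y := C.fc f (C.nr (Complex.exp z))

theorem nre_c : Continuous fun z => C.nr (Complex.exp z) := continuous_iff_continuousAt.2 fun z =>
  (C.nr_c z.exp_ne_zero).comp Complex.continuous_exp.continuousAt

theorem Lf_c (f : C.R) : Continuous (C.Lf f) := (C.fc_c f).comp C.nre_c

theorem Lf_mem (f : C.R) (z : ℂ) : C.Lf f z ∈ C.Y1 := C.fc_b _ _ (C.N_nr z.exp_ne_zero).ge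

theorem exists_s (f : C.R) : ∃ s : ℂ → FreeGroup C.E, s 0 = 1 ∧
    Adm1 (fun z z' => C.τ (C.Lf f z) (C.Lf f z')) s :=
  cech _ (fun z => ((C.pull (C.Lf_c f).continuousAt (.of_forall (C.Lf_mem f))).eventually
    (C.τ_comp _)).mono fun _ h =>
      (C.pull (C.Lf_c f).continuousAt (.of_forall (C.Lf_mem f))).eventually h) 0

noncomputable def sf (f : C.R) : ℂ → FreeGroup C.E := (C.exists_s f).choose

theorem sf_zero (f : C.R) : C.sf f 0 = 1 := (C.exists_s f).choose_spec.1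

theorem sf_adm (f : C.R) : Adm1 (fun z z' => C.τ (C.Lf f z) (C.Lf f z')) (C.sf f) :=
  (C.exists_s f).choose_spec.2

noncomputable def wf (f : C.R) : FreeGroup C.E := C.sf f (2 * Real.pi * Complex.I)

theorem Lf_per (f : C.R) (z : ℂ) : C.Lf f (z + 2 * Real.pi * Complex.I) = C.Lf f z := by
  rw [Lf, Complex.exp_periodic, Lf]

theorem sf_per (f : C.R) (z : ℂ) : C.sf f (z + 2 * Real.pi * Complex.I) = C.wf f * C.sf f z := by
  have := (C.sf_adm f).comp (continuous_add_right (2 * Real.pi * Complex.I))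
  simp only [Lf_per] at this
  simpa [sf_zero, mul_inv_eq_iff_eq_mul, wf] using this.uniq (C.sf_adm f) z 0

theorem m_sf {Γ : Type*} [Group Γ] (Θ : FreeGroup C.E →* Γ) (m : D × C.V → Γ)
    (hm : ∀ d e, m (d * C.pe e, C.tgt e) = m (d, C.src e) * Θ (.of e)) (f : C.R) (z : ℂ) :
    m (C.ζ (C.Lf f z)) = m (C.ζ (C.Lf f 0)) * Θ (C.sf f z) := by
  have : Adm1 _ fun z => m (C.ζ (C.Lf f z)) := fun z =>
    (C.pull (C.Lf_c f).continuousAt (.of_forall (C.Lf_mem f))).eventually (C.adm1 Θ m hm _)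
  simpa [sf_zero, mul_inv_eq_iff_eq_mul] using this.uniq ((C.sf_adm f).map Θ) z 0

theorem m_wf {Γ : Type*} [Group Γ] (Θ : FreeGroup C.E →* Γ) (m : D × C.V → Γ)
    (hm : ∀ d e, m (d * C.pe e, C.tgt e) = m (d, C.src e) * Θ (.of e)) (f : C.R) :
    Θ (C.wf f) = 1 := by
  have := C.m_sf Θ m hm f (0 + 2 * Real.pi * Complex.I)
  rw [Lf_per, zero_add] at this
  simpa [wf] using this

def ctr (y : Y) : Prop := ∃ (d : D) (f : C.R), y = d • C.fc f 0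

theorem ctr_not {y : Y} (h : y ∈ C.Y1) : ¬C.ctr y := fun ⟨_, _, e⟩ =>
  C.fc_not (by simp [N_zero]) (e ▸ h)

theorem ctr_fc {d : D} {f x} : C.ctr (d • C.fc f x) ↔ x = 0 := by
  refine ⟨fun h => ?_, fun h => ⟨d, f, by rw [h]⟩⟩
  by_cases c : C.N x < 1
  · obtain ⟨d', e', h⟩ := h
    have := congrArg C.cd h
    simp [C.cd_f _ _ _ c, C.cd_f, N_zero] at this
    exact this.2.2
  · exact (C.ctr_not (C.smul_mem _ (C.fc_b _ _ (not_lt.1 c))) h).elim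

theorem ctr_smul (g : D) {y : Y} : C.ctr (g • y) ↔ C.ctr y :=
  ⟨fun ⟨d, e, h⟩ => ⟨g⁻¹ * d, e, by rw [mul_smul, ← h, inv_smul_smul]⟩,
    fun ⟨d, e, h⟩ => ⟨g * d, e, by rw [mul_smul, h]⟩⟩

noncomputable def rt (y : Y) : Y := Sum.elim (fun _ => y)
  (Sum.elim (fun _ => y) fun c => c.1 • C.fc c.2.1 (C.nr c.2.2)) (C.cd y)

theorem rt_id {y : Y} (h : y ∈ C.Y1) : C.rt y = y := by
  rcases h with ⟨d, v, rfl⟩ | ⟨d, e, s, h, rfl⟩ <;> simp [rt, C.cd_v, C.cd_e, *]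

theorem rt_fc (d : D) (f x) : C.rt (d • C.fc f x) = d • C.fc f (C.nr x) := by
  by_cases c : C.N x < 1
  · simp [rt, C.cd_f _ _ _ c]
  · rw [C.rt_id (C.smul_mem _ (C.fc_b _ _ (not_lt.1 c))), C.fc_r _ _ (not_lt.1 c), nr]

theorem rt_smul (g : D) (y : Y) : C.rt (g • y) = g • C.rt y := by
  rcases C.cov y with h | ⟨d, f, x, h, rfl⟩
  · rw [C.rt_id h, C.rt_id (C.smul_mem g h)]
  · simp only [← mul_smul, rt_fc]

theorem rt_mem {y : Y} (h : ¬C.ctr y) : C.rt y ∈ C.Y1 := by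
  rcases C.cov y with h | ⟨d, f, x, -, rfl⟩
  · rwa [C.rt_id h]
  · rw [rt_fc]
    exact C.smul_mem _ (C.fc_b _ _ (C.N_nr (C.ctr_fc.not.1 h)).ge)

variable [ContinuousConstSMul D Y]

theorem rt_near {y : Y} (h : ¬C.ctr y) {p : Y → Prop} (hp : ∀ᶠ y' in 𝓝[C.Y1] (C.rt y), p y') :
    ∀ᶠ y' in 𝓝 y, ¬C.ctr y' ∧ p (C.rt y') := by
  obtain ⟨U, h1, h2, h3⟩ := mem_nhdsWithin.1 hp
  refine mem_of_superset ((C.wt2 {y | ¬C.ctr y ∧ C.rt y ∈ U} (fun d e => ?_)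
    fun d f => isOpen_iff_mem_nhds.2 fun x hx => ?_).mem_nhds ⟨h, h2⟩)
    fun y' hy => ⟨hy.1, h3 ⟨hy.2, C.rt_mem hy.1⟩⟩
  · simp only [Set.mem_setOf_eq, C.rt_id (C.ed_mem _ _ _), C.ctr_not (C.ed_mem _ _ _),
      not_false_eq_true, true_and]
    exact h1.preimage ((C.ed_c e).const_smul d)
  · simp only [Set.mem_setOf_eq, rt_fc, ctr_fc] at hx ⊢
    filter_upwards [isOpen_ne.mem_nhds hx.1, (((C.fc_c f).const_smul d).continuousAt.comp
      (C.nr_c hx.1)).eventually (h1.mem_nhds hx.2)] with t a b using ⟨a, b⟩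

end Cx

end Vale.Agent.P173
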