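import Vale.Agent.P173.Ind

/-! A contractible complex gives an aspherical presentation. -/

namespace Vale.Agent.P173

open Topology Filter Complex

universe u

variable {D Y : Type*} [Group D] [TopologicalSpace Y] [MulAction D Y]

theorem actF_of {A : Type*} (h : D) (x : D × A) : actF D A h (.of x) = .of (h * x.1, x.2) := by
  simp [actF, Prod.map]

namespace Cx

variable (C : Cx.{u} D Y)

abbrev Pq := FreeGroup C.E ⧸ Subgroup.normalClosure (Set.range C.wf)

noncomputable def mq : FreeGroup C.E →* C.Pq := QuotientGroup.mk' _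

open Classical in
noncomputable def af (f : C.R) (x : ℂ) : C.Pq := if x = 0 then 1 else C.mq (C.sf f (log x))

theorem af_exp (f : C.R) (z : ℂ) : C.af f (exp z) = C.mq (C.sf f z) := by
  have : Function.Periodic (fun z => C.mq (C.sf f z)) (2 * Real.pi * I) := fun z => by
    have : C.mq (C.wf f) = 1 :=
      (QuotientGroup.eq_one_iff _).2 (Subgroup.subset_normalClosure ⟨f, rfl⟩)
    simp only [sf_per, map_mul, this, one_mul]
  obtain ⟨n, h⟩ := exp_eq_exp_iff_exists_int.1 (exp_log z.exp_ne_zero)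
  rw [af, if_neg z.exp_ne_zero, h]
  exact this.int_mul n z

open Classical in
noncomputable def τ2 (y y' : Y) : C.Pq := if C.ctr y then Sum.elim (fun _ => 1)
  (Sum.elim (fun _ => 1) fun c => C.af c.2.1 c.2.2) (C.cd y') else C.mq (C.τ (C.rt y) (C.rt y'))

theorem τ2_smul (g : D) (y y' : Y) : C.τ2 (g • y) (g • y') = C.τ2 y y' := by
  classical
  refine if_congr (C.ctr_smul g) ?_ (by rw [rt_smul, rt_smul, τ_smul])
  rcases C.cov y' with (⟨d, v, rfl⟩ | ⟨d, e, s, h, rfl⟩) | ⟨d, f, x, h, rfl⟩ <;>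
    simp [← mul_smul, C.cd_v, C.cd_e, C.cd_f, *]

theorem τ2_ctr (d : D) (f) {x} (h : C.N x < 1) :
    C.τ2 (d • C.fc f 0) (d • C.fc f x) = C.af f x := by
  simp [τ2, ctr_fc, C.cd_f _ _ _ h]

theorem N_ev {x} (h : C.N x < 1) : ∀ᶠ t in 𝓝 x, C.N t < 1 :=
  C.N_c.continuousAt.eventually (gt_mem_nhds h)

variable [ContinuousConstSMul D Y]

theorem τ2_comp (y : Y) :
    ∀ᶠ y' in 𝓝 y, ∀ᶠ y'' in 𝓝 y', C.τ2 y y'' = C.τ2 y y' * C.τ2 y' y'' := by
  by_cases h : C.ctr y
  · obtain ⟨d, f, rfl⟩ := h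
    have h0 : C.N 0 < 1 := by simp [N_zero]
    refine C.near_fc h0 ((C.N_ev h0).mono fun x hx => ?_)
    by_cases e : x = 0
    · simp [e, C.τ2_ctr d f h0, af]
    obtain ⟨z, rfl⟩ : ∃ z, exp z = x := ⟨_, exp_log e⟩
    refine C.near_fc hx ?_
    rw [← isOpenMap_exp.map_nhds_eq continuous_exp.continuousAt, eventually_map]
    filter_upwards [C.sf_adm f z, continuous_exp.continuousAt.eventually (C.N_ev hx)] with t a b
    rw [C.τ2_ctr d f b, C.τ2_ctr d f hx, af_exp, af_exp, a, map_mul, τ2, if_neg (C.ctr_fc.not.2 e),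
      rt_fc, rt_fc, τ_smul, Lf, Lf]
  · refine (C.rt_near h (C.τ_comp _)).mono fun y' h' => (C.rt_near h'.1 h'.2).mono fun y'' e => ?_
    simp only [τ2, h, h'.1, if_false, e.2, map_mul]

variable {C} {j : Y → C.Pq} (hj : Adm1 C.τ2 j)
include hj

theorem j_edge (d : D) (e) : j ((d * C.pe e) • C.vt (C.tgt e)) =
    j (d • C.vt (C.src e)) * C.mq (.of e) := by
  have := hj.comp ((C.ed_c e).const_smul d)
  simp only [τ2, Pi.smul_apply, C.ctr_not (C.ed_mem _ _ _), if_false,
    C.rt_id (C.ed_mem _ _ _)] at this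
  simpa [C.ed_s, C.ed_t, mul_inv_eq_iff_eq_mul, mul_smul, zero_lt_one.not_ge] using
    this.uniq (C.adm2 C.mq d e) 1 (-1)

variable [PreconnectedSpace Y] (h1 : j (C.vt C.v0) = 1)
include h1

theorem j_smul (g : D) (y : Y) : j (g • y) = j (g • C.vt C.v0) * j y := by
  have := hj.comp (continuous_const_smul g)
  simp only [τ2_smul] at this
  simpa [h1, mul_inv_eq_iff_eq_mul] using this.uniq hj y (C.vt C.v0)

theorem m_j {Γ : Type*} [Group Γ] (Θ : FreeGroup C.E →* Γ) (m : D × C.V → Γ)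
    (hm : ∀ d e, m (d * C.pe e, C.tgt e) = m (d, C.src e) * Θ (.of e)) (ι : D → Γ)
    (hι : ∀ g d v, m (g * d, v) = ι g * m (d, v)) {d : D} {v ω} (h : C.mq ω = j (d • C.vt v)) :
    m (d, v) = m (1, C.v0) * Θ ω := by
  classical
  let Θ' : C.Pq →* Γ := QuotientGroup.lift _ Θ (Subgroup.normalClosure_le_normal
    (by rintro _ ⟨f, rfl⟩; exact C.m_wf Θ m hm f))
  have e : ∀ x, Θ' (C.mq x) = Θ x := fun _ => rfl
  let M : Y → Γ := fun y => if C.ctr y then Sum.elim (fun _ => 1) (Sum.elim (fun _ => 1)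
    fun c => ι c.1 * m (C.ζ (C.Lf c.2.1 0))) (C.cd y) else m (C.ζ (C.rt y))
  have : Adm1 (fun a b => Θ' (C.τ2 a b)) M := fun y => by
    by_cases h : C.ctr y
    · obtain ⟨d, f, rfl⟩ := h
      have h0 : C.N 0 < 1 := by simp [N_zero]
      refine C.near_fc h0 ((C.N_ev h0).mono fun x hx => ?_)
      simp only [C.τ2_ctr d f hx]
      by_cases e' : x = 0
      · simp [e', af]
      obtain ⟨z, rfl⟩ : ∃ z, exp z = x := ⟨_, exp_log e'⟩
      simp only [M, ctr_fc, e', if_true, if_false, C.cd_f _ _ _ h0, Sum.elim_inr, af_exp, e, rt_fc]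
      rw [← Lf, C.ζ_smul _ (C.Lf_mem f z), hι, mul_assoc, ← C.m_sf Θ m hm]
    · refine (C.rt_near h (C.adm1 Θ m hm _)).mono fun y' h' => ?_
      simp only [M, τ2, h, h'.1, if_false, e, h'.2]
  have k : ∀ (d : D) v, M (d • C.vt v) = m (d, v) := fun d v => by
    simp only [M, C.ctr_not (.inl ⟨d, v, rfl⟩), if_false, C.rt_id (.inl ⟨d, v, rfl⟩), ζ_vt]
  have := this.uniq (hj.map Θ') (d • C.vt v) ((1 : D) • C.vt C.v0)
  rw [k, k, ← h, one_smul, h1, e] at this
  simpa [mul_inv_eq_iff_eq_mul] using this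

end Cx

theorem li_aux {ι M N : Type*} [AddCommGroup M] [AddCommGroup N] [IsAddTorsionFree N] {v : ι → M}
    {l : ι →₀ ℤ} (h : Finsupp.linearCombination ℤ v l = 0) (φ : M →ₗ[ℤ] N) (i0 : ι)
    (h0 : φ (v i0) ≠ 0) (h1 : ∀ i ≠ i0, l i = 0 ∨ φ (v i) = 0) : l i0 = 0 := by
  have := congrArg φ h
  rw [Finsupp.linearCombination_apply, map_finsuppSum, Finsupp.sum, Finset.sum_eq_single i0
    (fun i _ hi => by rcases h1 i hi with e | e <;> simp [e]) (by simp +contextual)] at this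
  simpa [h0] using this

theorem Cx.pres (C : Cx.{u} D Y) [ContinuousConstSMul D Y] [ContractibleSpace Y]
    [LocallyPathConnectedSpace Y] : ∃ (A R : Type u) (π : FreeGroup A →* D) (w : R → FreeGroup A),
      Function.Surjective π ∧ π.ker = Subgroup.normalClosure (Set.range w) ∧
      LinearIndependent ℤ fun f : D × R => fox π f.1 (w f.2) := by
  classical
  obtain ⟨j, h1, hj⟩ := cech C.τ2 C.τ2_comp (C.vt C.v0)
  choose c hc using fun y => QuotientGroup.mk'_surjective _ (j y)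
  let Θ : FreeGroup C.E →* FreeGroup (D × C.V) ⋊[actF D C.V] D :=
    FreeGroup.lift fun e => ⟨(FreeGroup.of (1, C.src e))⁻¹ * .of (C.pe e, C.tgt e), C.pe e⟩
  have t0 : ∀ e, Θ (.of e) = ⟨(FreeGroup.of (1, C.src e))⁻¹ * .of (C.pe e, C.tgt e), C.pe e⟩ :=
    fun e => FreeGroup.lift_apply_of
  have t1 : ∀ w, (Θ w).right = C.pi w := fun w =>
    DFunLike.congr_fun (FreeGroup.ext_hom (SemidirectProduct.rightHom.comp Θ) C.pi
      fun a => by simp [t0, Cx.pi, -SemidirectProduct.mk_eq_inl_mul_inr]) w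
  let m : D × C.V → FreeGroup (D × C.V) ⋊[actF D C.V] D := fun x => ⟨.of x, x.1⟩
  have hm : ∀ d e, m (d * C.pe e, C.tgt e) = m (d, C.src e) * Θ (.of e) := fun d e => by
    ext <;> simp [m, t0, actF_of, -SemidirectProduct.mk_eq_inl_mul_inr]
  have k : ∀ (d : D) v, m (d, v) = m (1, C.v0) * Θ (c (d • C.vt v)) := fun d v =>
    Cx.m_j hj h1 Θ m hm SemidirectProduct.inr (fun g d v => by
      ext <;> simp [m, actF_of, -SemidirectProduct.mk_eq_inl_mul_inr]) (hc _)
  have k1 : ∀ (d : D) v, C.pi (c (d • C.vt v)) = d := fun d v => by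
    simpa [m, t1, -SemidirectProduct.mk_eq_inl_mul_inr] using (congrArg (·.right) (k d v)).symm
  let w : C.R ⊕ {v // v ≠ C.v0} → FreeGroup C.E := Sum.elim C.wf fun v => c ((1 : D) • C.vt v.1)
  refine ⟨C.E, _, C.pi, w, fun d => ⟨_, k1 d C.v0⟩, le_antisymm (fun x hx => ?_)
    (Subgroup.normalClosure_le_normal ?_), linearIndependent_iff.2 fun l hl => ?_⟩
  · let μ : C.Pq →* FreeGroup C.E ⧸ Subgroup.normalClosure (Set.range w) :=
      QuotientGroup.map _ _ (MonoidHom.id _) (Subgroup.normalClosure_mono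
        (by rintro _ ⟨f, rfl⟩; exact ⟨.inl f, rfl⟩))
    have a1 : ∀ v, μ (j (C.vt v)) = 1 := fun v => by
      by_cases e : v = C.v0
      · rw [e, h1, map_one]
      · rw [← one_smul D (C.vt v), ← hc]
        exact (QuotientGroup.eq_one_iff _).2 (Subgroup.subset_normalClosure ⟨.inr ⟨v, e⟩, rfl⟩)
    have a2 : ∀ d e, μ (j ((d * C.pi (.of e)) • C.vt C.v0)) =
        μ (j (d • C.vt C.v0)) * μ (C.mq (.of e)) := fun d e => by
      have := congrArg μ (Cx.j_edge hj d e)
      rw [Cx.j_smul hj h1, Cx.j_smul hj h1 d] at this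
      simpa [a1, Cx.pi] using this
    have a3 : ∀ x d, μ (j ((d * C.pi x) • C.vt C.v0)) = μ (j (d • C.vt C.v0)) * μ (C.mq x) :=
      fun x => by
        induction x using FreeGroup.induction_on with
        | C1 => simp
        | of e => exact (a2 · e)
        | inv_of e ih =>
          intro d
          simpa [eq_mul_inv_iff_mul_eq] using (ih (d * C.pi (.of e)⁻¹)).symm
        | mul a b ha hb => intro d; simp only [map_mul, ← mul_assoc, ha, hb]
    have := a3 x 1
    rw [show C.pi x = 1 from hx, one_mul, left_eq_mul] at this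
    exact (QuotientGroup.eq_one_iff _).1 this
  · rintro _ ⟨f | v, rfl⟩
    exacts [C.m_wf C.pi Prod.fst (by simp [Cx.pi]) f, k1 1 v]
  · let B : (D × C.E →₀ ℤ) →ₗ[ℤ] D × C.V →₀ ℤ := Finsupp.linearCombination ℤ fun b =>
      .single (b.1 * C.pe b.2, C.tgt b.2) 1 - .single (b.1, C.src b.2) 1
    have b1 : ∀ h x, B (fox C.pi h x) = ab (actF D C.V h (Θ x).left) :=
      cross_ext C.pi (fun h u v => by simp [fox_mul]) (fun h u v => by simp [t1])
        fun h e => by
          simp [B, t0, actF_of, -SemidirectProduct.mk_eq_inl_mul_inr, sub_eq_neg_add]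
    have b2 : ∀ h f, B (fox C.pi h (C.wf f)) = 0 := fun h f => by simp [b1, C.m_wf Θ m hm]
    have b3 : ∀ h v, B (fox C.pi h (c ((1 : D) • C.vt v))) =
        .single (h, v) 1 - .single (h, C.v0) 1 := fun h v => by
      have := congrArg (fun x => ab (actF D C.V h x.left)) (k 1 v)
      simp only [m, SemidirectProduct.mul_left, map_one, MulAut.one_apply, map_mul, ab_mul] at this
      rw [b1, eq_sub_iff_add_eq', ← sub_eq_zero]
      simpa [actF_of, sub_eq_zero] using this.symm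
    have z : ∀ h v, l (h, .inr v) = 0 := fun h v =>
      li_aux hl (Finsupp.lapply (h, v.1) ∘ₗ B) _ (by simp [w, b3, -one_smul, Finsupp.single_apply, v.2.symm])
        (by
          rintro ⟨h', f | v'⟩ hi
          · simp [w, b2]
          · have : ¬(h' = h ∧ v'.1 = v.1) := fun e => hi (by rw [e.1, Subtype.ext e.2])
            simp [w, b3, -one_smul, Finsupp.single_apply, v.2.symm, this])
    ext ⟨h, f | v⟩
    · obtain ⟨J, J1, J2⟩ := C.face_ind h f
      refine li_aux hl J _ J1 ?_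
      rintro ⟨h', f' | v'⟩ hi
      exacts [.inr (J2 h' f' fun e => hi (by cases e; rfl)), .inl (z _ _)]
    · exact z h v

end Vale.Agent.P173
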