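import Vale.Agent.P173.Null

/-! A real valued Brouwer degree. -/

namespace Vale.Agent.P173

open MeasureTheory Set Filter Topology

variable {ι : Type} [Fintype ι] [DecidableEq ι]

def bb (t : ℝ) : ℝ := max 0 (1 - |t|)

theorem bb_cont : Continuous bb := by unfold bb; fun_prop

noncomputable def Ph (y : ι → ℝ) : ι → ℝ := fun i => ∫ s in (0 : ℝ)..y i, bb s

noncomputable def JJ (g : (ι → ℝ) → ι → ℝ) (x : ι → ℝ) : ℝ :=
  (∏ i, bb (g x i)) * (fderiv ℝ g x).det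

theorem bb_deriv (t : ℝ) : HasDerivAt (fun t => ∫ s in (0 : ℝ)..t, bb s) (bb t) t :=
  (bb_cont.integral_hasStrictDerivAt 0 t).hasDerivAt

omit [DecidableEq ι] in
theorem Ph_cd : ContDiff ℝ 1 (Ph : (ι → ℝ) → ι → ℝ) := by
  have : ContDiff ℝ 1 fun t => ∫ s in (0 : ℝ)..t, bb s := by
    rw [contDiff_one_iff_deriv]
    refine ⟨fun t => (bb_deriv t).differentiableAt, ?_⟩
    convert bb_cont using 1
    exact funext fun t => (bb_deriv t).deriv
  exact contDiff_pi.2 fun i => this.comp (contDiff_apply ℝ ℝ i)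

theorem JJ_eq {g : (ι → ℝ) → ι → ℝ} (hg : ContDiff ℝ 1 g) (x : ι → ℝ) :
    JJ g x = (fderiv ℝ (Ph ∘ g) x).det := by
  have h1 : HasFDerivAt (Ph : (ι → ℝ) → ι → ℝ)
      (ContinuousLinearMap.pi fun i => bb (g x i) •
        (ContinuousLinearMap.proj i : (ι → ℝ) →L[ℝ] ℝ)) (g x) := by
    refine hasFDerivAt_pi.2 fun i => ?_
    exact (bb_deriv (g x i)).comp_hasFDerivAt (f := fun y : ι → ℝ => y i) (g x)
      (hasFDerivAt_apply (𝕜 := ℝ) i (g x))
  rw [(h1.comp x (hg.differentiable one_ne_zero x).hasFDerivAt).fderiv, JJ]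
  simp only [ContinuousLinearMap.det]
  rw [ContinuousLinearMap.toLinearMap_comp, LinearMap.det_comp]
  refine congrArg₂ (fun a b : ℝ => a * b) ?_ rfl
  rw [← Matrix.det_diagonal, ← LinearMap.det_toMatrix']
  refine congrArg _ ?_
  ext i j
  by_cases e : i = j <;> simp [e, Matrix.diagonal]

theorem JJ_zero {g : (ι → ℝ) → ι → ℝ} {x : ι → ℝ} (h : 1 < ‖g x‖) : JJ g x = 0 := by
  by_contra e
  refine h.not_ge ((pi_norm_le_iff_of_nonneg zero_le_one).2 fun i => ?_)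
  by_contra e'
  refine left_ne_zero_of_mul e (Finset.prod_eq_zero (Finset.mem_univ i) ?_)
  rw [Real.norm_eq_abs, not_le] at e'
  exact max_eq_left (by linarith)

theorem JJ_cont {g : (ι → ℝ) → ι → ℝ} (hg : ContDiff ℝ 1 g) : Continuous (JJ g) :=
  (continuous_finset_prod _ fun i _ =>
    bb_cont.comp ((continuous_apply i).comp hg.continuous)).mul (det_cont hg)

variable [Nonempty ι] {f g g0 g1 : (ι → ℝ) → ι → ℝ} {V Ω : Set (ι → ℝ)}

theorem int_seg (hV : IsOpen V) (hV' : IsCompact (closure V)) (h0 : ContDiff ℝ 1 g0)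
    (h1 : ContDiff ℝ 1 g1)
    (H : ∀ x ∈ frontier V, ∀ s ∈ Icc (0 : ℝ) 1, 1 < ‖g0 x + s • (g1 x - g0 x)‖) :
    ∫ x in V, JJ g0 x = ∫ x in V, JJ g1 x := by
  let W := {x | ∀ s ∈ Icc (0 : ℝ) 1, 1 < ‖g0 x + s • (g1 x - g0 x)‖}
  have hW : IsOpen W := isOpen_iff_mem_nhds.2 fun x hx =>
    isCompact_Icc.eventually_forall_of_forall_eventually fun s hs => by
      have : Continuous fun z : (ι → ℝ) × ℝ => ‖g0 z.1 + z.2 • (g1 z.1 - g0 z.1)‖ := by
        have := h0.continuous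
        have := h1.continuous
        fun_prop
      exact this.continuousAt.eventually (lt_mem_nhds (hx s hs))
  have hK : closure V \ W ⊆ V := fun x hx => by
    by_contra e
    exact hx.2 (H x (by rw [hV.frontier_eq]; exact ⟨hx.1, e⟩))
  obtain ⟨K, k1, k2, k3⟩ := exists_compact_between (hV'.diff hW) hV hK
  obtain ⟨χ, c1, c2, c3⟩ := exists_contMDiffMap_one_nhds_of_subset_interior (n := 1)
    (modelWithCornersSelf ℝ (ι → ℝ)) (hV'.diff hW).isClosed k2
  have cχ : ContDiff ℝ 1 χ := χ.contMDiff.contDiff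
  have cg : ContDiff ℝ 1 fun x => g0 x + χ x • (g1 x - g0 x) := h0.add (cχ.smul (h1.sub h0))
  have := null_lag (Ph_cd.comp h0) (Ph_cd.comp cg) hV hV' k1.isClosed k3 fun x hx => by
    simp [c2 x hx]
  simp only [← JJ_eq h0, ← JJ_eq cg] at this
  rw [this]
  refine setIntegral_congr_fun hV.measurableSet fun x hx => ?_
  by_cases e : x ∈ W
  · rw [JJ_zero (g := fun x => g0 x + χ x • (g1 x - g0 x)) (e _ (c3 x)),
      JJ_zero (by simpa using e 1 (by simp))]
  · have : (fun x => g0 x + χ x • (g1 x - g0 x)) =ᶠ[𝓝 x] g1 := by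
      filter_upwards [c1.filter_mono (nhds_le_nhdsSet (mem_diff_of_mem (subset_closure hx) e))]
        with y hy
      simp [hy]
    simp only [JJ, this.fderiv_eq, this.eq_of_nhds]

def Rp (f : (ι → ℝ) → ι → ℝ) (C : Set (ι → ℝ)) (g : (ι → ℝ) → ι → ℝ) : Prop :=
  ContDiff ℝ 1 g ∧ ∃ l : ℝ, 0 ≤ l ∧ ∀ x ∈ C, ‖g x - l • f x‖ + 1 < l * ‖f x‖

omit [DecidableEq ι] [Nonempty ι] in
theorem Rp.mono {C C' : Set (ι → ℝ)} (h : Rp f C g) (h' : C' ⊆ C) : Rp f C' g :=
  ⟨h.1, h.2.imp fun _ h => ⟨h.1, fun x hx => h.2 x (h' hx)⟩⟩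

omit [DecidableEq ι] [Nonempty ι] in
theorem rp_ex {C : Set (ι → ℝ)} (hC : IsCompact C) (hf : ContinuousOn f C)
    (h : ∀ x ∈ C, f x ≠ 0) : ∃ g, Rp f C g := by
  obtain ⟨m, hm, H⟩ := hC.exists_forall_le' hf.norm fun x hx => norm_pos_iff.2 (h x hx)
  obtain ⟨g, hg⟩ := exists_contMDiffMap_forall_mem_convex_of_local_const (n := 1)
    (modelWithCornersSelf ℝ (ι → ℝ)) (t := fun x => {y | x ∈ C → y ∈ Metric.ball ((2 / m) • f x) 1})
    (fun x => by
      by_cases e : x ∈ C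
      · simpa [e, Metric.ball] using convex_ball ((2 / m) • f x) 1
      · simpa [e] using convex_univ) fun x => by
      refine ⟨(2 / m) • f x, ?_⟩
      by_cases e : x ∈ C
      · have := ((hf x e).const_smul (2 / m)).eventually (Metric.ball_mem_nhds _ one_pos)
        rw [eventually_nhdsWithin_iff] at this
        filter_upwards [this] with y hy hy' using Metric.mem_ball_comm.1 (hy hy')
      · filter_upwards [hC.isClosed.isOpen_compl.mem_nhds e] with y hy hy' using (hy hy').elim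
  refine ⟨g, g.contMDiff.contDiff, 2 / m, by positivity, fun x hx => ?_⟩
  have h1 := mem_ball_iff_norm.1 (hg x hx)
  have : 2 ≤ 2 / m * ‖f x‖ := by
    rw [div_mul_eq_mul_div, le_div_iff₀ hm]; linarith [H x hx]
  linarith

theorem rp_eq (hV : IsOpen V) (hV' : IsCompact (closure V)) (h0 : Rp f (frontier V) g0)
    (h1 : Rp f (frontier V) g1) : ∫ x in V, JJ g0 x = ∫ x in V, JJ g1 x := by
  obtain ⟨c0, l0, p0, h0⟩ := h0
  obtain ⟨c1, l1, p1, h1⟩ := h1
  refine int_seg hV hV' c0 c1 fun x hx s hs => ?_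
  have e : ((1 - s) * l0 + s * l1) • f x = g0 x + s • (g1 x - g0 x) -
      ((1 - s) • (g0 x - l0 • f x) + s • (g1 x - l1 • f x)) := by module
  have h2 := norm_sub_le (g0 x + s • (g1 x - g0 x))
    ((1 - s) • (g0 x - l0 • f x) + s • (g1 x - l1 • f x))
  have h3 := norm_add_le ((1 - s) • (g0 x - l0 • f x)) (s • (g1 x - l1 • f x))
  have s0 := hs.1
  have s1 := sub_nonneg.2 hs.2
  rw [← e, norm_smul, Real.norm_of_nonneg (by positivity)] at h2
  rw [norm_smul, norm_smul, Real.norm_of_nonneg s0, Real.norm_of_nonneg s1] at h3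
  have a0 := h0 x hx
  have a1 := h1 x hx
  rcases s0.eq_or_lt with rfl | s0'
  · simp only [zero_smul, add_zero] at *; nlinarith
  · nlinarith [mul_le_mul_of_nonneg_left a0.le s1, mul_lt_mul_of_pos_left a1 s0']

theorem rp_add {V1 V2 : Set (ι → ℝ)} {g2 : (ι → ℝ) → ι → ℝ} (hV : IsOpen V)
    (hV' : IsCompact (closure V)) (o1 : IsOpen V1) (o2 : IsOpen V2) (s1 : V1 ⊆ V) (s2 : V2 ⊆ V)
    (d : Disjoint V1 V2) (hf : ContinuousOn f (closure V))
    (hz : ∀ x ∈ closure V, f x = 0 → x ∈ V1 ∪ V2) (h : Rp f (frontier V) g)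
    (h1 : Rp f (frontier V1) g1) (h2 : Rp f (frontier V2) g2) :
    ∫ x in V, JJ g x = (∫ x in V1, JJ g1 x) + ∫ x in V2, JJ g2 x := by
  obtain ⟨G, hG⟩ := rp_ex (hV'.diff (o1.union o2)) (hf.mono diff_subset)
    fun x hx e => hx.2 (hz x hx.1 e)
  have k1 := hV'.of_isClosed_subset isClosed_closure (closure_mono s1)
  have k2 := hV'.of_isClosed_subset isClosed_closure (closure_mono s2)
  have ii : IntegrableOn (JJ G) V :=
    ((JJ_cont hG.1).continuousOn.integrableOn_compact hV').mono_set subset_closure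
  rw [rp_eq hV hV' h (hG.mono ?_), rp_eq o1 k1 h1 (hG.mono ?_), rp_eq o2 k2 h2 (hG.mono ?_),
    ← setIntegral_union d o2.measurableSet (ii.mono_set s1) (ii.mono_set s2)]
  · refine setIntegral_eq_of_subset_of_forall_diff_eq_zero hV.measurableSet (union_subset s1 s2)
      fun x hx => JJ_zero ?_
    obtain ⟨l, l0, hl⟩ := hG.2
    have a1 := hl x ⟨subset_closure hx.1, hx.2⟩
    have a2 := norm_sub_norm_le (l • f x) (G x)
    rw [norm_smul, Real.norm_of_nonneg l0, norm_sub_rev] at a2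
    linarith
  · rw [o2.frontier_eq]
    exact fun x hx => ⟨closure_mono s2 hx.1, fun e => e.elim
      (fun e => (d.closure_right o1).notMem_of_mem_left e hx.1) hx.2⟩
  · rw [o1.frontier_eq]
    exact fun x hx => ⟨closure_mono s1 hx.1, fun e => e.elim hx.2
      fun e => (d.closure_left o2).notMem_of_mem_right e hx.1⟩
  · rw [hV.frontier_eq]
    exact fun x hx => ⟨hx.1, fun e => hx.2 (union_subset s1 s2 e)⟩

/-- admissible pair -/
structure Adm {E : Type} [NormedAddCommGroup E] (f : E → E) (Ω : Set E) : Prop where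
  op : IsOpen Ω
  cont : ContinuousOn f Ω
  cpt : IsCompact {x ∈ Ω | f x = 0}

structure Nb (f : (ι → ℝ) → ι → ℝ) (Ω V : Set (ι → ℝ)) : Prop where
  op : IsOpen V
  cpt : IsCompact (closure V)
  sub : closure V ⊆ Ω
  zero : ∀ x ∈ Ω, f x = 0 → x ∈ V

omit [DecidableEq ι] [Nonempty ι] in
theorem Nb.rp (hf : ContinuousOn f Ω) (h : Nb f Ω V) : ∃ g, Rp f (frontier V) g :=
  rp_ex (h.cpt.of_isClosed_subset isClosed_frontier frontier_subset_closure)
    (hf.mono (frontier_subset_closure.trans h.sub)) fun x hx e => by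
      rw [h.op.frontier_eq] at hx
      exact hx.2 (h.zero x (h.sub hx.1) e)

omit [DecidableEq ι] [Nonempty ι] in
theorem Adm.nb (h : Adm f Ω) : ∃ V, Nb f Ω V := by
  obtain ⟨V, h1, h2, h3, h4⟩ := exists_open_between_and_isCompact_closure h.cpt h.op
    (sep_subset _ _)
  exact ⟨V, h1, h4, h3, fun x hx e => h2 ⟨hx, e⟩⟩

noncomputable def dg0 (f : (ι → ℝ) → ι → ℝ) (Ω : Set (ι → ℝ)) : ℝ :=
  Classical.epsilon fun c => ∃ V g, Nb f Ω V ∧ Rp f (frontier V) g ∧ c = ∫ x in V, JJ g x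

theorem dg0_eq (hf : ContinuousOn f Ω) (h : Nb f Ω V) (hg : Rp f (frontier V) g) :
    dg0 f Ω = ∫ x in V, JJ g x := by
  obtain ⟨V', g', h', hg', e⟩ := Classical.epsilon_spec (p := fun c => ∃ V g, Nb f Ω V ∧
    Rp f (frontier V) g ∧ c = ∫ x in V, JJ g x) ⟨_, V, g, h, hg, rfl⟩
  have h0 : Nb f Ω (V ∩ V') := ⟨h.op.inter h'.op, h.cpt.of_isClosed_subset isClosed_closure
    (closure_mono inter_subset_left), (closure_mono inter_subset_left).trans h.sub,
    fun x hx e => ⟨h.zero x hx e, h'.zero x hx e⟩⟩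
  obtain ⟨g0, hg0⟩ := h0.rp hf
  rw [dg0, e, rp_add h.op h.cpt h0.op isOpen_empty inter_subset_left (empty_subset _)
    (disjoint_empty _) (hf.mono h.sub) (fun x hx e => Or.inl (h0.zero x (h.sub hx) e)) hg hg0
    (hg0.mono (by simp)), rp_add h'.op h'.cpt h0.op isOpen_empty inter_subset_right
    (empty_subset _) (disjoint_empty _) (hf.mono h'.sub)
    (fun x hx e => Or.inl (h0.zero x (h'.sub hx) e)) hg' hg0 (hg0.mono (by simp))]

theorem dg0_add {Ω1 Ω2 : Set (ι → ℝ)} (h : Adm f Ω) (o1 : IsOpen Ω1) (o2 : IsOpen Ω2)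
    (s1 : Ω1 ⊆ Ω) (s2 : Ω2 ⊆ Ω) (d : Disjoint Ω1 Ω2) (hz : ∀ x ∈ Ω, f x = 0 → x ∈ Ω1 ∪ Ω2) :
    dg0 f Ω = dg0 f Ω1 + dg0 f Ω2 := by
  have a1 : Adm f Ω1 := ⟨o1, h.cont.mono s1, by
    convert h.cpt.diff o2 using 1
    exact Set.ext fun x => ⟨fun hx => ⟨⟨s1 hx.1, hx.2⟩, d.notMem_of_mem_left hx.1⟩,
      fun hx => ⟨(hz x hx.1.1 hx.1.2).resolve_right hx.2, hx.1.2⟩⟩⟩
  have a2 : Adm f Ω2 := ⟨o2, h.cont.mono s2, by
    convert h.cpt.diff o1 using 1
    exact Set.ext fun x => ⟨fun hx => ⟨⟨s2 hx.1, hx.2⟩, d.notMem_of_mem_right hx.1⟩,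
      fun hx => ⟨(hz x hx.1.1 hx.1.2).resolve_left hx.2, hx.1.2⟩⟩⟩
  obtain ⟨V1, n1⟩ := a1.nb
  obtain ⟨V2, n2⟩ := a2.nb
  have n : Nb f Ω (V1 ∪ V2) := ⟨n1.op.union n2.op, by
    rw [closure_union]; exact n1.cpt.union n2.cpt, by
    rw [closure_union]; exact union_subset (n1.sub.trans s1) (n2.sub.trans s2),
    fun x hx e => (hz x hx e).imp (n1.zero x · e) (n2.zero x · e)⟩
  obtain ⟨g, hg⟩ := n.rp h.cont
  obtain ⟨g1, hg1⟩ := n1.rp a1.cont
  obtain ⟨g2, hg2⟩ := n2.rp a2.cont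
  rw [dg0_eq h.cont n hg, dg0_eq a1.cont n1 hg1, dg0_eq a2.cont n2 hg2]
  exact rp_add n.op n.cpt n1.op n2.op subset_union_left subset_union_right
    (d.mono (subset_closure.trans n1.sub) (subset_closure.trans n2.sub)) (h.cont.mono n.sub)
    (fun x hx e => n.zero x (n.sub hx) e) hg hg1 hg2

theorem dg0_zero (hf : ContinuousOn f Ω) (h : ∀ x ∈ Ω, f x ≠ 0) : dg0 f Ω = 0 := by
  have n : Nb f Ω ∅ := ⟨isOpen_empty, by simp, by simp, h⟩
  obtain ⟨g, hg⟩ := n.rp hf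
  simp [dg0_eq hf n hg]

theorem dg0_id {y : ι → ℝ} (o : IsOpen Ω) (hy : y ∈ Ω) : 0 < dg0 (fun x => x - y) Ω := by
  obtain ⟨r, hr, H⟩ := Metric.nhds_basis_closedBall.mem_iff.1 (o.mem_nhds hy)
  have n : Nb (fun x => x - y) Ω (Metric.ball y r) := ⟨Metric.isOpen_ball, by
    rw [closure_ball _ hr.ne']; exact isCompact_closedBall _ _, by rwa [closure_ball _ hr.ne'],
    fun x _ e => by simp [sub_eq_zero.1 e, hr]⟩
  have cd : ContDiff ℝ 1 fun x => (2 / r) • (x - y) := by fun_prop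
  rw [dg0_eq (g := fun x => (2 / r) • (x - y)) (by fun_prop) n ⟨cd, 2 / r, by positivity,
    fun x hx => by
      rw [frontier_ball _ hr.ne', mem_sphere_iff_norm] at hx
      simp [hx, hr.ne']⟩]
  have e : ∀ x, (fderiv ℝ (fun x => (2 / r) • (x - y)) x).det = (2 / r) ^ Fintype.card ι := by
    intro x
    have : HasFDerivAt (fun x => (2 / r) • (x - y)) _ x :=
      ((hasFDerivAt_id (𝕜 := ℝ) x).sub_const y).const_smul (2 / r)
    rw [this.fderiv]
    simp [ContinuousLinearMap.det]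
  have p : ∀ x, 0 ≤ JJ (fun x => (2 / r) • (x - y)) x := fun x => by
    rw [JJ, e]
    exact mul_nonneg (Finset.prod_nonneg fun _ _ => le_max_left _ _) (by positivity)
  rw [setIntegral_pos_iff_support_of_nonneg_ae (Eventually.of_forall p)
    (((JJ_cont cd).continuousOn.integrableOn_compact n.cpt).mono_set subset_closure)]
  refine ((JJ_cont cd).isOpen_support.inter n.op).measure_pos _ ⟨y, ?_, by simp [hr]⟩
  simp [JJ, e, bb, hr.ne']

theorem dg0_homot {F : ℝ × (ι → ℝ) → ι → ℝ} {W : Set (ℝ × (ι → ℝ))} (o : IsOpen W)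
    (hF : ContinuousOn F W) (hc : IsCompact {z ∈ W | z.1 ∈ Icc (0 : ℝ) 1 ∧ F z = 0}) :
    dg0 (fun x => F (0, x)) {x | (0, x) ∈ W} = dg0 (fun x => F (1, x)) {x | (1, x) ∈ W} := by
  have cf : ∀ t, ContinuousOn (fun x => F (t, x)) {x | (t, x) ∈ W} := fun t =>
    hF.comp (by fun_prop) fun _ h => h
  have lc : IsLocallyConstant fun t : Icc (0 : ℝ) 1 =>
      dg0 (fun x => F (t, x)) {x | (t.1, x) ∈ W} := by
    refine (IsLocallyConstant.iff_eventually_eq _).2 fun t => ?_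
    have a : Adm (fun x => F (t, x)) {x | (t.1, x) ∈ W} := ⟨o.preimage (by fun_prop), cf _, by
      have := (hc.inter_right (isClosed_eq continuous_fst continuous_const :
        IsClosed {z : ℝ × (ι → ℝ) | z.1 = t})).image continuous_snd
      refine (congrArg IsCompact (Set.ext fun x => ?_)).mpr this
      constructor
      · exact fun h => ⟨(t, x), ⟨⟨h.1, t.2, h.2⟩, rfl⟩, rfl⟩
      · rintro ⟨⟨s, x⟩, ⟨h, rfl⟩, rfl⟩
        exact ⟨h.1, h.2.2⟩⟩
    obtain ⟨V, n⟩ := a.nb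
    obtain ⟨g, hg, l, l0, hl⟩ := n.rp a.cont
    have e1 : ∀ᶠ s : ℝ in 𝓝 t, ∀ x ∈ closure V, (s, x) ∈ W :=
      n.cpt.eventually_forall_of_forall_eventually fun x hx => o.mem_nhds (n.sub hx)
    have e2 : ∀ᶠ s : ℝ in 𝓝 t, ∀ x ∈ frontier V, ‖g x - l • F (s, x)‖ + 1 < l * ‖F (s, x)‖ :=
      (n.cpt.of_isClosed_subset isClosed_frontier
        frontier_subset_closure).eventually_forall_of_forall_eventually fun x hx => by
        have c := hF.continuousAt (o.mem_nhds (n.sub (frontier_subset_closure hx)))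
        have := hg.continuous
        exact ContinuousAt.eventually_lt (f := fun z : ℝ × (ι → ℝ) => ‖g z.2 - l • F z‖ + 1)
          (g := fun z => l * ‖F z‖) (by fun_prop) (by fun_prop) (hl x hx)
    have e3 : ∀ᶠ s : ℝ in 𝓝 t, s ∉ Prod.fst '' ({z ∈ W | z.1 ∈ Icc (0 : ℝ) 1 ∧ F z = 0} \
        Prod.snd ⁻¹' V) := ((hc.diff (n.op.preimage continuous_snd)).image
      continuous_fst).isClosed.isOpen_compl.mem_nhds (by
        rintro ⟨⟨s, x⟩, h, rfl⟩
        exact h.2 (n.zero x h.1.1 h.1.2.2))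
    filter_upwards [continuous_subtype_val.continuousAt.eventually ((e1.and e2).and e3)] with s hs
    rw [dg0_eq a.cont n ⟨hg, l, l0, hl⟩, dg0_eq (cf _) ⟨n.op, n.cpt, hs.1.1, fun x hx e => by
      by_contra e'
      exact hs.2 ⟨(s, x), ⟨⟨hx, s.2, e⟩, e'⟩, rfl⟩⟩ ⟨hg, l, l0, hs.1.2⟩]
  exact lc.apply_eq_of_preconnectedSpace ⟨0, by simp⟩ ⟨1, by simp⟩

end Vale.Agent.P173
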