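import Vale.Agent.P173.Word

/-! Estimates for almost flat connections. -/

namespace Vale.Agent.P173

open Set Quaternion

theorem nz_sub (q : ℍ) (p : S3) : ‖(nz q : ℍ) - p‖ ≤ 2 * ‖q - p‖ := by
  have h1 : ‖(nz q : ℍ) - q‖ ≤ ‖q - p‖ := by
    have : (nz q : ℍ) - q = (1 - ‖q‖) • (nz q : ℍ) := by rw [sub_smul, smul_nz, one_smul]
    rw [this, norm_smul, S3.nrm, mul_one, ← p.nrm, Real.norm_eq_abs, abs_sub_comm]
    exact abs_norm_sub_norm_le _ _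
  linarith [norm_sub_le_norm_sub_add_norm_sub (nz q : ℍ) q p]

theorem im_le (q : ℍ) : ‖q.im‖ ≤ ‖q‖ := by
  refine (abs_le_of_sq_le_sq' ?_ (norm_nonneg _)).2
  rw [sq, sq, ← normSq_eq_norm_mul_self, ← normSq_eq_norm_mul_self, normSq_def', normSq_def']
  simp; positivity

theorem re_pos {p : S3} (hp : ‖(p : ℍ) - 1‖ ≤ 1 / 2) : 7 / 8 ≤ (p : ℍ).re := by
  have h1 := normSq_eq_norm_mul_self ((p : ℍ) - 1)
  have h2 := p.normSq
  rw [normSq_def'] at h1 h2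
  simp at h1
  nlinarith [norm_nonneg ((p : ℍ) - 1)]

theorem sub_le_im {p q : S3} (hp : ‖(p : ℍ) - 1‖ ≤ 1 / 2) (hq : ‖(q : ℍ) - 1‖ ≤ 1 / 2) :
    ‖(p : ℍ) - q‖ ≤ 2 * ‖(p : ℍ).im - (q : ℍ).im‖ := by
  have k : ∀ p : S3, ‖(p : ℍ) - 1‖ ≤ 1 / 2 → ‖(p : ℍ).im‖ ≤ 1 / 2 ∧
      (p : ℍ).re ^ 2 + ‖(p : ℍ).im‖ ^ 2 = 1 := fun p hp => by
    refine ⟨le_trans (by simpa using im_le ((p : ℍ) - 1)) hp, ?_⟩
    have := p.normSq
    rw [normSq_def'] at this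
    rw [sq ‖_‖, ← normSq_eq_norm_mul_self, normSq_def']
    simp; linarith
  obtain ⟨a1, a2⟩ := k p hp
  obtain ⟨b1, b2⟩ := k q hq
  have c1 := re_pos hp
  have c2 := re_pos hq
  have d := abs_le.1 (abs_norm_sub_norm_le (p : ℍ).im (q : ℍ).im)
  have e : (p : ℍ) - q = ((p : ℍ).re - (q : ℍ).re) • (1 : ℍ) + ((p : ℍ).im - (q : ℍ).im) := by
    ext <;> simp
  have := norm_add_le (((p : ℍ).re - (q : ℍ).re) • (1 : ℍ)) ((p : ℍ).im - (q : ℍ).im)
  rw [← e, norm_smul, norm_one, mul_one, Real.norm_eq_abs] at this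
  have n1 := norm_nonneg (p : ℍ).im
  have n2 := norm_nonneg (q : ℍ).im
  have : |(p : ℍ).re - (q : ℍ).re| ≤ ‖(p : ℍ).im - (q : ℍ).im‖ :=
    abs_le.2 ⟨by nlinarith, by nlinarith⟩
  linarith

theorem S3.inv_sub (p q : S3) : ‖((p⁻¹ : S3) : ℍ) - (q⁻¹ : S3)‖ = ‖(p : ℍ) - q‖ := by
  rw [S3.v_inv, S3.v_inv, ← star_sub, Quaternion.norm_star]

theorem S3.inv_one (p : S3) : ‖((p⁻¹ : S3) : ℍ) - 1‖ = ‖(p : ℍ) - 1‖ := by
  simpa using p.inv_sub 1

theorem S3.mul_one_le (p q : S3) :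
    ‖((p * q : S3) : ℍ) - 1‖ ≤ ‖(p : ℍ) - 1‖ + ‖(q : ℍ) - 1‖ := by
  have : ((p * q : S3) : ℍ) - 1 = (p - 1) * q + (q - 1) := by simp [sub_mul]
  rw [this]
  exact (norm_add_le _ _).trans (by simp)

noncomputable def Ad (θ : S3) (q : ℍ) : ℍ := θ * q * star (θ : ℍ)

theorem Ad_norm (θ : S3) (q : ℍ) : ‖Ad θ q‖ = ‖q‖ := by simp [Ad]

theorem Ad_im (θ : S3) (q : ℍ) : (Ad θ q).im = Ad θ q.im := by
  ext <;> simp [Ad] <;> ring

theorem Ad_one (θ : S3) : Ad θ 1 = 1 := by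
  rw [Ad, mul_one, ← S3.v_inv, ← S3.v_mul, mul_inv_cancel, S3.v_one]

theorem Ad_sub (θ : S3) (p q : ℍ) : Ad θ (p - q) = Ad θ p - Ad θ q := by
  simp [Ad, mul_sub, sub_mul]

theorem Ad_close (θ θ' : S3) (q : ℍ) : ‖Ad θ (Ad θ'⁻¹ q) - q‖ ≤ 2 * ‖(θ : ℍ) - θ'‖ * ‖q‖ := by
  have e : ‖((θ * θ'⁻¹ : S3) : ℍ) - 1‖ = ‖(θ : ℍ) - θ'‖ := by
    have : ((θ * θ'⁻¹ : S3) : ℍ) - 1 = (θ - θ') * (θ'⁻¹ : S3) := by
      rw [sub_mul, ← S3.v_mul θ', mul_inv_cancel]; rfl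
    rw [this, norm_mul, S3.nrm, mul_one]
  have : Ad θ (Ad θ'⁻¹ q) - q = ((θ * θ'⁻¹ : S3) - 1) * q * star ((θ * θ'⁻¹ : S3) : ℍ) +
      q * star (((θ * θ'⁻¹ : S3) : ℍ) - 1) := by
    simp [Ad, sub_mul, mul_sub, mul_assoc]
  rw [this, ← e]
  refine (norm_add_le _ _).trans ?_
  simp only [norm_mul, Quaternion.norm_star, S3.nrm]
  linarith

theorem list_est {α : Type*} (l : List α) (q p : α → S3) {δ μ : ℝ} (h0 : 0 ≤ δ) (h1 : 0 ≤ μ)
    (h : ∀ a ∈ l, ‖(q a : ℍ) - 1‖ ≤ δ ∧ ‖(p a : ℍ) - 1‖ ≤ δ ∧ ‖(q a : ℍ) - p a‖ ≤ μ) :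
    ‖((l.map q).prod : ℍ) - 1‖ ≤ l.length * δ ∧
    ‖((l.map q).prod : ℍ) - (l.map p).prod‖ ≤ l.length * μ ∧
    ‖((l.map q).prod : ℍ) - (l.map p).prod - (l.map fun a => (q a : ℍ) - p a).sum‖ ≤
      2 * l.length ^ 2 * δ * μ := by
  induction l with
  | nil => simp
  | cons a l ih =>
    obtain ⟨i1, i2, i3⟩ := ih fun a ha => h a (List.mem_cons_of_mem _ ha)
    obtain ⟨j1, j2, j3⟩ := h a List.mem_cons_self
    simp only [List.map_cons, List.prod_cons, List.sum_cons, List.length_cons, Nat.cast_add,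
      Nat.cast_one]
    refine ⟨(S3.mul_one_le _ _).trans (by linarith), ?_, ?_⟩
    · have : ((q a * (l.map q).prod : S3) : ℍ) - (p a * (l.map p).prod : S3) =
          (q a - p a) * (l.map q).prod + p a * ((l.map q).prod - (l.map p).prod) := by
        simp [sub_mul, mul_sub]
      rw [this]
      refine (norm_add_le _ _).trans ?_
      simp only [norm_mul, S3.nrm]
      linarith
    · have : ((q a * (l.map q).prod : S3) : ℍ) - (p a * (l.map p).prod : S3) -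
          ((q a : ℍ) - p a + (l.map fun a => (q a : ℍ) - p a).sum) =
          (q a - p a) * ((l.map q).prod - 1) + (p a - 1) * ((l.map q).prod - (l.map p).prod) +
          (((l.map q).prod : ℍ) - (l.map p).prod - (l.map fun a => (q a : ℍ) - p a).sum) := by
        simp only [S3.v_mul]; noncomm_ring
      rw [this]
      refine (norm_add₃_le).trans ?_
      rw [norm_mul, norm_mul]
      have a1 := mul_le_mul j3 i1 (norm_nonneg _) h1
      have a2 := mul_le_mul j2 i2 (norm_nonneg _) h0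
      have : 0 ≤ (l.length : ℝ) * (δ * μ) := by positivity
      have : 0 ≤ δ * μ := by positivity
      nlinarith

theorem list_norm {α E : Type*} [SeminormedAddCommGroup E] (l : List α) (f : α → E) {μ : ℝ}
    (h : ∀ a ∈ l, ‖f a‖ ≤ μ) : ‖(l.map f).sum‖ ≤ l.length * μ := by
  induction l with
  | nil => simp
  | cons a l ih =>
    simp only [List.map_cons, List.sum_cons, List.length_cons, Nat.cast_add, Nat.cast_one]
    linarith [norm_add_le (f a) (l.map f).sum, h a List.mem_cons_self,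
      ih fun a ha => h a (List.mem_cons_of_mem _ ha)]

/-- a square complex -/
structure Sq (VT ET FT : Type) where
  src : ET → VT
  tgt : ET → VT
  e1 : FT → ET
  e2 : FT → ET
  e3 : FT → ET
  e4 : FT → ET
  h14 : ∀ σ, src (e4 σ) = src (e1 σ)
  h12 : ∀ σ, src (e2 σ) = tgt (e1 σ)
  h23 : ∀ σ, tgt (e3 σ) = tgt (e2 σ)
  h43 : ∀ σ, src (e3 σ) = tgt (e4 σ)

def Sq.cob {VT ET FT M : Type} [AddCommGroup M] (T : Sq VT ET FT) (u : ET → M) (σ : FT) : M :=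
  u (T.e1 σ) + u (T.e2 σ) - u (T.e3 σ) - u (T.e4 σ)

def pw {G : Type*} [Group G] (w : G) (d : Bool) : G := if d then w else w⁻¹

def sg (d : Bool) : ℤ := if d then 1 else -1

/-- combinatorial data with uniform bound `C` -/
structure Dat (C : ℕ) (B FY : Type*) (VT ET FT : Type) [Fintype FT] [DecidableEq FT]
    extends Sq VT ET FT where
  wF : FY → FreeGroup B
  wE : ET → FreeGroup B
  dec : FT → List (FreeGroup B × FY × Bool)
  η : ET → FT → ℤ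
  ψ : FY → FT → ℤ
  idt : ∀ σ, wE (e1 σ) * wE (e2 σ) * (wE (e3 σ))⁻¹ * (wE (e4 σ))⁻¹ =
    ((dec σ).map fun d => d.1 * pw (wF d.2.1) d.2.2 * d.1⁻¹).prod
  len : ∀ σ, (dec σ).length ≤ C
  bη : ∀ e, ∑ τ, |η e τ| ≤ C
  bψ : ∀ σ, ∀ d ∈ dec σ, ∑ τ, |ψ d.2.1 τ| ≤ C
  inv : ∀ σ τ, toSq.cob (η · τ) σ + ((dec σ).map fun d => sg d.2.2 * ψ d.2.1 τ).sum =
    if τ = σ then 1 else 0
  frame : ∀ (b : B → S3) (g : VT → S3) (δ : ℝ), 0 ≤ δ →
    (∀ f, ‖(FreeGroup.lift b (wF f) : ℍ) - 1‖ ≤ δ) →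
    (∀ e, ‖((g (src e) * FreeGroup.lift b (wE e) * (g (tgt e))⁻¹ : S3) : ℍ) - 1‖ ≤ δ) →
    ∀ σ τ, ∀ d ∈ dec σ, ∀ d' ∈ dec τ, d.2.1 = d'.2.1 →
      ‖((g (src (e1 σ)) * FreeGroup.lift b d.1 : S3) : ℍ) -
        (g (src (e1 τ)) * FreeGroup.lift b d'.1 : S3)‖ ≤ C * δ

namespace Dat

variable {C : ℕ} {B FY : Type*} {VT ET FT : Type} [Fintype FT] [DecidableEq FT]
  (D : Dat C B FY VT ET FT) (b : B → S3) (g : VT → S3)

noncomputable def F (f : FY) : S3 := FreeGroup.lift b (D.wF f)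

noncomputable def E (e : ET) : S3 := g (D.src e) * FreeGroup.lift b (D.wE e) * (g (D.tgt e))⁻¹

noncomputable def θ (σ : FT) (d : FreeGroup B × FY × Bool) : S3 :=
  g (D.src (D.e1 σ)) * FreeGroup.lift b d.1

/-- linearised identities -/
noncomputable def DL (yE : ET → ℍ) (yF : FY → ℍ) (σ : FT) : ℍ :=
  D.cob yE σ - ((D.dec σ).map fun d => sg d.2.2 • Ad (D.θ b g σ d) (yF d.2.1)).sum

noncomputable def JE (v : FT → ℍ) (e : ET) : ℍ := ∑ τ, D.η e τ • v τ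

open Classical in
noncomputable def JF (v : FT → ℍ) (f : FY) : ℍ :=
  if h : ∃ σ, ∃ d ∈ D.dec σ, d.2.1 = f then
    -Ad (D.θ b g h.choose h.choose_spec.choose)⁻¹ (∑ τ, D.ψ f τ • v τ) else 0

theorem sum_le {c : FT → ℤ} (h : ∑ τ, |c τ| ≤ C) (v : FT → ℍ) : ‖∑ τ, c τ • v τ‖ ≤ C * ‖v‖ := by
  refine (norm_sum_le _ _).trans (le_trans (Finset.sum_le_sum (g := fun τ => |(c τ : ℝ)| * ‖v‖)
    fun τ _ => ?_) ?_)
  · rw [← Int.cast_smul_eq_zsmul ℝ, norm_smul]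
    exact mul_le_mul_of_nonneg_left (norm_le_pi_norm v τ) (abs_nonneg _)
  · rw [← Finset.sum_mul]
    exact mul_le_mul_of_nonneg_right (by exact_mod_cast h) (norm_nonneg _)

theorem JE_le (v : FT → ℍ) (e : ET) : ‖D.JE v e‖ ≤ C * ‖v‖ := sum_le (D.bη e) v

theorem JF_le (v : FT → ℍ) (f : FY) : ‖D.JF b g v f‖ ≤ C * ‖v‖ := by
  rw [JF]
  split_ifs with h
  · rw [norm_neg, Ad_norm]
    obtain ⟨σ, d, h1, rfl⟩ := h
    exact sum_le (D.bψ σ d h1) v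
  · simp; positivity

variable {b g} {δ : ℝ}

theorem DJ (h0 : 0 ≤ δ) (hF : ∀ f, ‖(D.F b f : ℍ) - 1‖ ≤ δ) (hE : ∀ e, ‖(D.E b g e : ℍ) - 1‖ ≤ δ)
    (v : FT → ℍ) (σ : FT) :
    ‖D.DL b g (D.JE v) (D.JF b g v) σ - v σ‖ ≤ 2 * C ^ 3 * δ * ‖v‖ := by
  have e1 : v σ = D.cob (D.JE v) σ +
      ((D.dec σ).map fun d => sg d.2.2 • ∑ τ, D.ψ d.2.1 τ • v τ).sum := by
    have : ∀ l : List (FreeGroup B × FY × Bool), (l.map fun d => sg d.2.2 • ∑ τ,
        D.ψ d.2.1 τ • v τ).sum = ∑ τ, (l.map fun d => sg d.2.2 * D.ψ d.2.1 τ).sum • v τ := by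
      intro l
      induction l with
      | nil => simp
      | cons a l ih =>
        rw [List.map_cons, List.sum_cons, ih]
        simp only [List.map_cons, List.sum_cons, add_smul, Finset.sum_add_distrib,
          Finset.smul_sum, mul_smul]
    rw [this]
    simp only [Sq.cob, JE, ← Finset.sum_add_distrib, ← Finset.sum_sub_distrib, ← add_smul,
      ← sub_smul]
    have := D.inv σ
    simp only [Sq.cob] at this
    simp [this]
  have e2 : D.DL b g (D.JE v) (D.JF b g v) σ - v σ = -((D.dec σ).map fun d => sg d.2.2 •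
      (Ad (D.θ b g σ d) (D.JF b g v d.2.1) + ∑ τ, D.ψ d.2.1 τ • v τ)).sum := by
    rw [e1, DL]
    simp only [smul_add, List.sum_map_add]
    abel
  rw [e2, norm_neg]
  refine (list_norm _ _ (μ := 2 * (C * δ) * (C * ‖v‖)) fun d hd => ?_).trans ?_
  · have h : ∃ σ, ∃ d' ∈ D.dec σ, d'.2.1 = d.2.1 := ⟨σ, d, hd, rfl⟩
    have s : ∀ q : ℍ, ‖sg d.2.2 • q‖ = ‖q‖ := fun q => by unfold sg; split_ifs <;> simp
    have n : ∀ θ q, Ad θ (-q) = -Ad θ q := fun θ q => by simp [Ad]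
    rw [s, JF, dif_pos h, n, neg_add_eq_sub, norm_sub_rev]
    refine (Ad_close _ _ _).trans ?_
    gcongr
    · exact D.frame b g δ h0 hF hE _ _ d hd _ h.choose_spec.choose_spec.1
        h.choose_spec.choose_spec.2.symm
    · exact sum_le (D.bψ σ d hd) v
  · have : ((D.dec σ).length : ℝ) ≤ C := by exact_mod_cast D.len σ
    calc _ ≤ C * (2 * (C * δ) * (C * ‖v‖)) := by gcongr
      _ = _ := by ring

theorem DI (h0 : 0 ≤ δ) (h1 : δ ≤ 1 / 2) (hF : ∀ f, ‖(D.F b f : ℍ) - 1‖ ≤ δ)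
    (hE : ∀ e, ‖(D.E b g e : ℍ) - 1‖ ≤ δ) {ρ : ET → S3} (hρ : ∀ e, ‖(ρ e : ℍ) - 1‖ ≤ δ) {μ : ℝ}
    (hμ : 0 ≤ μ) (mF : ∀ f, ‖(D.F b f : ℍ).im‖ ≤ μ)
    (mE : ∀ e, ‖(D.E b g e : ℍ).im - (ρ e : ℍ).im‖ ≤ μ) (σ : FT) :
    ‖D.DL b g (fun e => (D.E b g e : ℍ).im - (ρ e : ℍ).im) (fun f => (D.F b f : ℍ).im) σ‖ ≤
      (64 + 4 * C ^ 2) * δ * μ +
      ‖((ρ (D.e1 σ) * ρ (D.e2 σ) * (ρ (D.e3 σ))⁻¹ * (ρ (D.e4 σ))⁻¹ : S3) : ℍ) - 1‖ := by
  have a := fun e => (sub_le_im ((hE e).trans h1) ((hρ e).trans h1)).trans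
    (mul_le_mul_of_nonneg_left (mE e) zero_le_two)
  have l1 := (list_est [(D.e1 σ, true), (D.e2 σ, true), (D.e3 σ, false), (D.e4 σ, false)]
    (fun a => pw (D.E b g a.1) a.2) (fun a => pw (ρ a.1) a.2) h0 (μ := 2 * μ) (by positivity) (by
      simp only [List.forall_mem_cons, pw, if_true, Bool.false_eq_true, if_false, S3.inv_one,
        S3.inv_sub, hE, hρ, a, and_self, List.not_mem_nil, IsEmpty.forall_iff, implies_true])).2.2
  have l2 := (list_est (D.dec σ) (fun d => D.θ b g σ d * pw (D.F b d.2.1) d.2.2 * (D.θ b g σ d)⁻¹)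
    (fun _ => 1) h0 (μ := 2 * μ) (by positivity) fun d _ => by
      have : ‖((D.θ b g σ d * pw (D.F b d.2.1) d.2.2 * (D.θ b g σ d)⁻¹ : S3) : ℍ) - 1‖ =
          ‖(D.F b d.2.1 : ℍ) - 1‖ := by
        conv_lhs =>
          rw [← Ad_one (D.θ b g σ d), S3.v_mul, S3.v_mul, S3.v_inv, ← Ad, ← Ad_sub, Ad_norm, pw]
        split_ifs
        · rfl
        · exact S3.inv_one _
      rw [S3.v_one, this]
      refine ⟨hF _, by simpa using h0, ?_⟩
      have := sub_le_im (q := 1) ((hF d.2.1).trans h1) (by simp)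
      simp only [S3.v_one, Quaternion.im_one, sub_zero] at this
      linarith [mF d.2.1]).2.2
  have e : ((D.dec σ).map fun d => D.θ b g σ d * pw (D.F b d.2.1) d.2.2 * (D.θ b g σ d)⁻¹).prod =
      D.E b g (D.e1 σ) * (D.E b g (D.e2 σ) * ((D.E b g (D.e3 σ))⁻¹ * (D.E b g (D.e4 σ))⁻¹)) := by
    have := congrArg ((MulAut.conj (g (D.src (D.e1 σ)))).toMonoidHom.comp (FreeGroup.lift b))
      (D.idt σ)
    rw [map_list_prod, List.map_map] at this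
    refine (Eq.trans ?_ this.symm).trans ?_
    · congr 1
      refine List.map_congr_left fun d _ => ?_
      cases h : d.2.2 <;> simp [θ, F, pw, h, mul_assoc]
    · simp [E, D.h14, D.h12, D.h23, D.h43, mul_assoc]
  rw [e] at l2
  simp only [List.map_cons, List.map_nil, List.prod_cons, List.prod_nil, pw, if_true, mul_one,
    Bool.false_eq_true, if_false, List.sum_cons, List.sum_nil, add_zero] at l1
  have k : ∀ P R S1 S2 : ℍ, ‖(S1 - S2).im‖ ≤ ‖P - R - S1‖ + ‖P - 1 - S2‖ + ‖R - 1‖ := by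
    intro P R S1 S2
    rw [show S1 - S2 = -(P - R - S1) + (P - 1 - S2) + -(R - 1) by abel]
    exact (im_le _).trans (norm_add₃_le.trans (by simp only [norm_neg, le_refl]))
  simp only [List.map_const', List.prod_replicate, one_pow, S3.v_one] at l2
  have s := (k _ _ _ _).trans (add_le_add (add_le_add l1 l2) le_rfl)
  simp only [mul_assoc (ρ _)]
  refine le_trans (le_of_eq (congrArg _ ?_)) (s.trans ?_)
  · have : (((D.dec σ).map fun d => ((D.θ b g σ d * pw (D.F b d.2.1) d.2.2 * (D.θ b g σ d)⁻¹ : S3) :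
        ℍ) - 1).sum).im = ((D.dec σ).map fun d => sg d.2.2 •
        Ad (D.θ b g σ d) (D.F b d.2.1 : ℍ).im).sum := by
      induction D.dec σ with
      | nil => simp
      | cons d l ih =>
        rw [List.map_cons, List.map_cons, List.sum_cons, List.sum_cons, Quaternion.im_add, ih,
          S3.v_mul, S3.v_mul, S3.v_inv, ← Ad, Quaternion.im_sub, Ad_im]
        cases h : d.2.2 <;> simp [pw, sg, Ad]
    rw [Quaternion.im_sub, this]
    simp only [DL, Sq.cob, Quaternion.im_add, Quaternion.im_sub, S3.v_inv, Quaternion.im_star]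
    abel
  · have : ((D.dec σ).length : ℝ) ≤ C := by exact_mod_cast D.len σ
    have : 2 * ((D.dec σ).length : ℝ) ^ 2 * δ * (2 * μ) ≤ 2 * C ^ 2 * δ * (2 * μ) := by gcongr
    simp only [List.length_cons, List.length_nil]
    push_cast
    linarith

theorem DL_im (yE z : ET → ℍ) (yF : FY → ℍ) (σ : FT) :
    D.DL b g (fun e => (yE e).im + z e) (fun f => (yF f).im) σ =
      (D.DL b g yE yF σ).im + D.cob z σ := by
  have : ((D.dec σ).map fun d => sg d.2.2 • Ad (D.θ b g σ d) (yF d.2.1)).sum.im =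
      ((D.dec σ).map fun d => sg d.2.2 • Ad (D.θ b g σ d) (yF d.2.1).im).sum := by
    induction D.dec σ with
    | nil => simp
    | cons d l ih =>
      rw [List.map_cons, List.map_cons, List.sum_cons, List.sum_cons, Quaternion.im_add, ih,
        ← Ad_im]
      cases h : d.2.2 <;> simp [sg]
  simp only [DL, Sq.cob, Quaternion.im_add, Quaternion.im_sub, this]
  abel

theorem est [Fintype ET] (h0 : 0 ≤ δ) (h1 : δ ≤ 1 / 2)
    (h2 : ((64 + 4 * C ^ 2) * C + 2 * C ^ 3) * δ ≤ 1 / 2) (hF : ∀ f, ‖(D.F b f : ℍ) - 1‖ ≤ δ)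
    (hE : ∀ e, ‖(D.E b g e : ℍ) - 1‖ ≤ δ) {ρ U : ET → S3} (hρ : ∀ e, ‖(ρ e : ℍ) - 1‖ ≤ δ)
    (hU : ∀ e, ‖(U e : ℍ) - 1‖ ≤ 1 / 2) {s m ν κ : ℝ} (s0 : 0 ≤ s) (m0 : 0 ≤ m) (ν0 : 0 ≤ ν)
    (κ0 : 0 ≤ κ) (hs : s * ((136 + 8 * C ^ 2) * ν * δ) ≤ s / 2) {v : FT → ℍ}
    (hv : v = D.cob fun e => (U e : ℍ).im) (hν : ∀ e, ‖(U e : ℍ).im‖ ≤ ν * ‖v‖)
    (hκ : ∀ σ, ‖((ρ (D.e1 σ) * ρ (D.e2 σ) * (ρ (D.e3 σ))⁻¹ * (ρ (D.e4 σ))⁻¹ : S3) : ℍ) - 1‖ ≤ κ)
    (eF : ∀ f, ((D.F b f : ℍ) - D.JF b g (m • v) f).im = 0)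
    (eE : ∀ e, ((D.E b g e : ℍ) - ρ e - D.JE (m • v) e -
      s • ((D.E b g e : ℍ) - (D.E b g e * (U e)⁻¹ : S3))).im = 0) :
    (m + s) * ‖v‖ ≤ 2 * κ ∧ (∀ f, ‖(D.F b f : ℍ) - 1‖ ≤ 2 * ((C * m + 2 * s * ν) * ‖v‖)) ∧
      (∀ e, ‖(D.E b g e : ℍ) - ρ e‖ ≤ 2 * ((C * m + 2 * s * ν) * ‖v‖)) ∧
      ∀ e, ‖(U e : ℍ) - 1‖ ≤ 2 * (ν * ‖v‖) := by
  have nv : ‖m • v‖ = m * ‖v‖ := by rw [norm_smul, Real.norm_of_nonneg m0]
  have n0 := norm_nonneg v
  have bU : ∀ e, ‖(U e : ℍ) - 1‖ ≤ 2 * (ν * ‖v‖) := fun e => by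
    have := sub_le_im (q := 1) (hU e) (by simp)
    simp only [S3.v_one, Quaternion.im_one, sub_zero] at this
    linarith [hν e]
  let z : ET → ℍ := fun e => ((D.E b g e : ℍ) - (D.E b g e * (U e)⁻¹ : S3)).im
  have z1 : ∀ e, ‖z e‖ ≤ 2 * (ν * ‖v‖) := fun e => (im_le _).trans (by
    rw [S3.v_mul, ← mul_one_sub, norm_mul, S3.nrm, one_mul, norm_sub_rev, S3.inv_one]
    exact bU e)
  have z2 : ∀ e, ‖z e - (U e : ℍ).im‖ ≤ δ * (2 * (ν * ‖v‖)) := fun e => by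
    have : z e - (U e : ℍ).im = (((D.E b g e : ℍ) - 1) * (1 - ((U e)⁻¹ : S3))).im := by
      simp [z, sub_mul, mul_sub]; abel
    rw [this]
    refine (im_le _).trans ?_
    rw [norm_mul, norm_sub_rev 1, S3.inv_one]
    exact mul_le_mul (hE e) (bU e) (norm_nonneg _) h0
  have eF' : ∀ f, (D.F b f : ℍ).im = (D.JF b g (m • v) f).im := fun f => by
    simpa [sub_eq_zero] using eF f
  have eE' : ∀ e, (D.E b g e : ℍ).im - (ρ e : ℍ).im = (D.JE (m • v) e).im + s • z e := fun e => by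
    have := eE e
    rw [Quaternion.im_sub, Quaternion.im_sub, Quaternion.im_sub, Quaternion.im_smul, sub_sub,
      sub_eq_zero] at this
    exact this
  have mF : ∀ f, ‖(D.F b f : ℍ).im‖ ≤ (C * m + 2 * s * ν) * ‖v‖ := fun f => by
    have := (im_le _).trans (D.JF_le b g (m • v) f)
    rw [← eF', nv] at this
    have : 0 ≤ s * ν * ‖v‖ := by positivity
    linarith
  have mE : ∀ e, ‖(D.E b g e : ℍ).im - (ρ e : ℍ).im‖ ≤ (C * m + 2 * s * ν) * ‖v‖ := fun e => by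
    have a := (im_le _).trans (D.JE_le (m • v) e)
    have b := mul_le_mul_of_nonneg_left (z1 e) s0
    rw [eE']
    refine (norm_add_le _ _).trans ?_
    rw [norm_smul, Real.norm_of_nonneg s0]
    rw [nv] at a
    linarith
  refine ⟨?_, fun f => ?_, fun e => (sub_le_im ((hE e).trans h1) ((hρ e).trans h1)).trans
    (by linarith [mE e]), bU⟩
  · have : ‖(m + s) • v‖ ≤ (64 + 4 * C ^ 2) * δ * ((C * m + 2 * s * ν) * ‖v‖) + κ +
        2 * C ^ 3 * δ * (m * ‖v‖) + s * (8 * δ * ν * ‖v‖) := by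
      refine (pi_norm_le_iff_of_nonneg (by positivity)).2 fun σ => ?_
      have a1 := D.DI h0 h1 hF hE hρ (by positivity) mF mE σ
      have a2 := (im_le _).trans (D.DJ h0 hF hE (m • v) σ)
      have a3 : ‖D.cob (fun e => z e - (U e : ℍ).im) σ‖ ≤ 8 * δ * ν * ‖v‖ := by
        refine (norm_sub_le _ _).trans ((add_le_add ((norm_sub_le _ _).trans
          (add_le_add (norm_add_le _ _) le_rfl)) le_rfl).trans ?_)
        linarith [z2 (D.e1 σ), z2 (D.e2 σ), z2 (D.e3 σ), z2 (D.e4 σ)]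
      simp only [eE', eF', DL_im] at a1
      have : ((m + s) • v) σ = ((D.DL b g (D.JE (m • v)) (D.JF b g (m • v)) σ).im +
          D.cob (fun e => s • z e) σ) +
          -(D.DL b g (D.JE (m • v)) (D.JF b g (m • v)) σ - (m • v) σ).im +
          -(s • D.cob (fun e => z e - (U e : ℍ).im) σ) := by
        have : (v σ).im = v σ := by simp [hv, Sq.cob]
        simp only [Quaternion.im_sub, Pi.smul_apply, Quaternion.im_smul, this]
        simp only [hv, Sq.cob]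
        module
      rw [this]
      refine norm_add₃_le.trans ?_
      rw [norm_neg, norm_neg, norm_smul, Real.norm_of_nonneg s0]
      rw [nv] at a2
      linarith [hκ σ, mul_le_mul_of_nonneg_left a3 s0]
    rw [norm_smul, Real.norm_of_nonneg (by positivity)] at this
    linarith [mul_le_mul_of_nonneg_right h2 (mul_nonneg m0 n0), mul_le_mul_of_nonneg_right hs n0]
  · have := sub_le_im (q := 1) ((hF f).trans h1) (by simp)
    simp only [S3.v_one, Quaternion.im_one, sub_zero] at this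
    linarith [mF f]

end Dat

end Vale.Agent.P173
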