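import Vale.Agent.P173.Lam
import Vale.Agent.P173.Band

/-! The chain homotopy equivalence between the band and a presentation complex. -/

namespace Vale.Agent.P173

open Finsupp

variable {V : Type} [LinearOrder V] {G : SimpleGraph V}

/-- the Bestvina-Brady group -/
abbrev BB (G : SimpleGraph V) : Subgroup (Ra G) := (ht : Ra G →* _).ker

omit [LinearOrder V] in
@[simp] theorem hh_BB (h : BB G) : hh (h : Ra G) = 0 := congrArg Multiplicative.toAdd h.2

noncomputable def act (x : Ra G) : Ch G →ₗ[ℤ] Ch G := lmapDomain ℤ ℤ fun c => (x * c.1, c.2)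

omit [LinearOrder V] in
@[simp] theorem act_single (x : Ra G) (c : Ra G × Finset V) (n : ℤ) :
    act x (single c n) = single (x * c.1, c.2) n := by simp [act]

omit [LinearOrder V] in
theorem act_act (x y : Ra G) (z : Ch G) : act x (act y z) = act (x * y) z :=
  DFunLike.congr_fun (show act x ∘ₗ act y = act (x * y) from
    lhom_ext' fun c => LinearMap.ext_ring (by simp [mul_assoc])) z

omit [LinearOrder V] in
@[simp] theorem act_one (z : Ch G) : act 1 z = z :=
  DFunLike.congr_fun (show act 1 = LinearMap.id from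
    lhom_ext' fun c => LinearMap.ext_ring (by simp)) z

theorem bd_act (x : Ra G) (z : Ch G) : bd (act x z) = act x (bd z) :=
  DFunLike.congr_fun (show bd ∘ₗ act x = act x ∘ₗ bd from
    lhom_ext' fun c => LinearMap.ext_ring (by simp [bd_single, mul_assoc, smul_sub])) z

omit [LinearOrder V] in
theorem act_apply (x : Ra G) (z : Ch G) (c : Ra G × Finset V) :
    act x z c = z (x⁻¹ * c.1, c.2) := by
  have := mapDomain_apply (f := fun c : Ra G × Finset V => (x * c.1, c.2))
    (fun a b h => by simpa [Prod.ext_iff] using h) z (x⁻¹ * c.1, c.2)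
  simpa [act] using this

omit [LinearOrder V] in
theorem act_sup (h : BB G) {d : ℕ} {z : Ch G} (hz : z ∈ Sup (Xq d)) : act h z ∈ Sup (Xq d) :=
  sup_mem (fun c hc => by rw [act_single]; exact sup_single (by simpa [Xq] using hc)) hz

theorem eps_sup {d : ℕ} {z : Ch G} (hz : z ∈ Sup (Xq (d + 1))) : eps z = 0 :=
  sup_eq (g := 0) (fun c hc => by
    have : c.2 ≠ ∅ := fun e => by simpa [e] using hc.1.2
    simp [eps, this]) hz

theorem bd_vx (x : Ra G) : bd (single (x, ∅) 1 : Ch G) = 0 := by simp [bd_single]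

theorem bd_ed (x : Ra G) (v : V) :
    bd (single (x, {v}) 1 : Ch G) = single (x * gn G v, ∅) 1 - single (x, ∅) 1 := by
  simp [bd_single, sgn, Finset.filter_singleton]

theorem bd_sq (x : Ra G) {u v : V} (h : u < v) : bd (single (x, {u, v}) 1 : Ch G) =
    single (x, {u}) 1 + single (x * gn G u, {v}) 1 - single (x * gn G v, {u}) 1 -
      single (x, {v}) 1 := by
  simp [bd_single, sgn, Finset.filter_singleton, Finset.filter_insert, h.ne, h.ne', h, h.not_gt,
    Finset.erase_insert_of_ne]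
  abel

variable [Fintype V]

theorem Acy.inj (L : Acy G) {z : Ch G} (hz : z ∈ Sup (Xq 2)) (h : bd z = 0) : z = 0 := by
  obtain ⟨y, hy, rfl⟩ := L.band hz h (eps_sup hz)
  exact sup_eq (g := 0) (fun c hc => by have := hc.2; omega) hy

theorem Acy.path (L : Acy G) {x y : Ra G} (h1 : 0 ≤ hh x) (h2 : hh x ≤ 2) (h3 : 0 ≤ hh y)
    (h4 : hh y ≤ 2) : ∃ z ∈ Sup (Xq 1), bd z = single (x, ∅) 1 - single (y, ∅) 1 :=
  L.band (d := 0) (sub_mem (sup_single ⟨⟨by simp, rfl⟩, h1, by simpa using h2⟩)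
    (sup_single ⟨⟨by simp, rfl⟩, h3, by simpa using h4⟩)) (by simp [bd_vx]) (by simp [eps])

theorem Acy.htp (L : Acy G) {A R : Type*} (π : FreeGroup A →* BB G) (w : R → FreeGroup A)
    (hw : ∀ r, π (w r) = 1) (p : ℤ → V → FreeGroup A) (hp : ∀ k v, (π (p k v) : Ra G) =
      gn G L.v0 ^ k * gn G v * (gn G L.v0 ^ (k + 1))⁻¹) :
    ∃ (ζ : ℤ → V → Ch G) (ψ : R → Ch G), ∀ (h : BB G) u v, u < v → G.Adj u v →
      ∀ l : List (FreeGroup A × R × Bool), (l.map fun d => d.1 * pw (w d.2.1) d.2.2 * d.1⁻¹).prod =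
        p 0 u * p 1 v * (p 1 u)⁻¹ * (p 0 v)⁻¹ →
      act h (ζ 0 u) + act (h * π (p 0 u)) (ζ 1 v) - act (h * π (p 0 v)) (ζ 1 u) - act h (ζ 0 v) +
        (l.map fun d => sg d.2.2 • act (h * π d.1) (ψ d.2.1)).sum =
        single ((h : Ra G), {u, v}) 1 := by
  set t := gn G L.v0
  choose y y1 y2 using fun a : A => L.path (x := π (.of a)) (y := 1) (by simp) (by simp)
    (by simp) (by simp)
  let Ψ : (BB G × A →₀ ℤ) →ₗ[ℤ] Ch G := linearCombination ℤ fun b => act b.1 (y b.2)
  have s1 : ∀ m, Ψ m ∈ Sup (Xq 1) := fun m => sup_mem (P := fun _ => True)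
    (fun c _ => by simpa [Ψ] using act_sup _ (y1 _)) fun _ _ => trivial
  have f1 : ∀ h u, bd (Ψ (fox π h u)) =
      single ((h : Ra G) * (π u : Ra G), ∅) 1 - single ((h : Ra G), ∅) 1 :=
    cross_ext π (fun h u v => by simp [fox_mul]) (fun h u v => by simp [mul_assoc])
      fun h a => by simp [Ψ, bd_act, y2]
  have f2 : ∀ (g : BB G) h u, Ψ (fox π (g * h) u) = act g (Ψ (fox π h u)) := fun g =>
    cross_ext π (fun h u v => by simp [fox_mul, mul_assoc]) (fun h u v => by simp [fox_mul])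
      fun h a => by simp [Ψ, act_act]
  have f3 : ∀ (g : BB G) u, Ψ (fox π g u) = act g (Ψ (fox π 1 u)) := fun g u => by
    rw [← f2, mul_one]
  choose ψ ψ1 ψ2 using fun r : R => L.band (s1 (fox π 1 (w r))) (by simp [f1, hw])
    (eps_sup (s1 _))
  have hz : ∀ k : ℤ, ∃ z : Ch G, 0 ≤ k → k ≤ 2 →
      z ∈ Sup (Xq 1) ∧ bd z = single (t ^ k, ∅) 1 - single (1, ∅) 1 := fun k => by
    by_cases h : 0 ≤ k ∧ k ≤ 2
    · obtain ⟨z, hz⟩ := L.path (x := t ^ k) (y := 1) (by simp [t, h]) (by simp [t, h])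
        (by simp) (by simp)
      exact ⟨z, fun _ _ => hz⟩
    · exact ⟨0, fun h1 h2 => (h ⟨h1, h2⟩).elim⟩
  choose z hz using hz
  have hζ : ∀ (k : ℤ) v, ∃ ζ : Ch G, 0 ≤ k → k ≤ 1 → ζ ∈ Sup (Xq 2) ∧ bd ζ =
      single (t ^ k, {v}) 1 - Ψ (fox π 1 (p k v)) - act (π (p k v)) (z (k + 1)) + z k :=
    fun k v => by
    by_cases h : 0 ≤ k ∧ k ≤ 1
    · have a1 := hz k h.1 (by omega)
      have a2 := hz (k + 1) (by omega) (by omega)
      have a3 : single (t ^ k, {v}) 1 - Ψ (fox π 1 (p k v)) - act (π (p k v)) (z (k + 1)) + z k ∈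
          Sup (Xq 1) := add_mem (sub_mem (sub_mem (sup_single
            ⟨⟨by simp, rfl⟩, by simp [t, h], by simp [t]; omega⟩) (s1 _)) (act_sup _ a2.1)) a1.1
      obtain ⟨ζ, hζ⟩ := L.band a3 (by simp [bd_ed, f1, bd_act, a1.2, a2.2, hp]; abel) (eps_sup a3)
      exact ⟨ζ, fun _ _ => hζ⟩
    · exact ⟨0, fun h1 h2 => (h ⟨h1, h2⟩).elim⟩
  choose ζ hζ using hζ
  refine ⟨ζ, ψ, fun h u v huv ad l hl => sub_eq_zero.1 (L.inj ?_ ?_)⟩
  · refine sub_mem (add_mem (sub_mem (sub_mem (add_mem (act_sup _ (hζ 0 u le_rfl zero_le_one).1)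
      (act_sup (h * π _) (hζ 1 v zero_le_one le_rfl).1))
      (act_sup (h * π _) (hζ 1 u zero_le_one le_rfl).1)) (act_sup _ (hζ 0 v le_rfl zero_le_one).1))
      (list_sum_mem fun x hx => ?_)) (sup_single ⟨⟨by simpa using fun _ => ad,
        Finset.card_pair huv.ne⟩, by simp, by simp⟩)
    obtain ⟨d, -, rfl⟩ := List.mem_map.1 hx
    exact Submodule.smul_mem _ _ (act_sup (h * π _) (ψ1 _))
  · have e1 : bd (l.map fun d => sg d.2.2 • act ((h : Ra G) * (π d.1 : Ra G)) (ψ d.2.1)).sum =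
        Ψ (fox π h (p 0 u * p 1 v * (p 1 u)⁻¹ * (p 0 v)⁻¹)) := by
      have := ab_list (l.map fun d => (lam π h d.1, lam π (h * π d.1) (w d.2.1), d.2.2))
      rw [List.map_map, List.map_map] at this
      rw [← hl, fox, lam_list hw]
      refine Eq.trans ?_ (congrArg Ψ this).symm
      rw [map_list_sum, map_list_sum, List.map_map, List.map_map]
      refine congrArg _ (List.map_congr_left fun d _ => ?_)
      simp only [Function.comp, map_smul, bd_act, ψ2]
      exact congrArg _ (f3 (h * π d.1) _).symm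
    have c : π (p 0 u) * π (p 1 v) = π (p 0 v) * π (p 1 u) := Subtype.ext (by
      simp only [Subgroup.coe_mul, hp, zero_add, inv_mul_cancel_left, mul_assoc, zpow_zero, one_mul]
      rw [← mul_assoc, gn_comm ad, mul_assoc])
    have e2 : fox π h (p 0 u * p 1 v * (p 1 u)⁻¹ * (p 0 v)⁻¹) = fox π h (p 0 u) +
        fox π (h * π (p 0 u)) (p 1 v) - fox π (h * π (p 0 v)) (p 1 u) - fox π h (p 0 v) := by
      rw [mul_assoc (_ * _), ← mul_inv_rev, fox, lam_div π (h' := h) (by simp [c])]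
      simp only [lam_mul, ab_mul, ab_inv, fox]
      abel
    have c' := congrArg (fun x : BB G => act ((h : Ra G) * (x : Ra G)) (z (1 + 1))) c
    rw [e2] at e1
    simp only [Subgroup.coe_mul]
    simp only [map_sub, map_add, e1, bd_act, (hζ 0 _ le_rfl zero_le_one).2,
      (hζ 1 _ zero_le_one le_rfl).2, bd_sq _ huv, f3 h, f3 (h * _), act_act, act_single,
      Subgroup.coe_mul, mul_assoc, zero_add] at c' ⊢
    rw [c']
    simp [hp]
    abel

omit [LinearOrder V] [Fintype V] in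
theorem act_bound (z : Ch G) : ∃ C : ℕ, ∀ (x : Ra G) {FT : Type} [Fintype FT]
    (ι : FT → Ra G × Finset V), Function.Injective ι → ∑ τ, |act x z (ι τ)| ≤ C := by
  classical
  refine ⟨∑ c ∈ z.support, (z c).natAbs, fun x FT _ ι hι => ?_⟩
  have : Function.Injective fun τ => (x⁻¹ * (ι τ).1, (ι τ).2) := fun a b h =>
    hι (by simpa [Prod.ext_iff] using h)
  simp only [act_apply, Nat.cast_sum, Int.natCast_natAbs]
  rw [← Finset.sum_image (f := fun c => |z c|) this.injOn]
  rw [← Finset.sum_filter_ne_zero]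
  exact Finset.sum_le_sum_of_subset_of_nonneg (fun c hc => by
    simpa using (Finset.mem_filter.1 hc).2) fun _ _ _ => abs_nonneg _

end Vale.Agent.P173
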