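import Vale.Agent.P173.Cx

/-! The two-cells of a contractible complex have independent boundaries. -/

namespace Vale.Agent.P173

open Topology Filter Quaternion Complex

variable {D Y : Type*} [Group D] [TopologicalSpace Y] [MulAction D Y]

def qm (a b c d : ℝ) : ℍ := ⟨a, b, c, d⟩

@[simp] theorem qm_re (a b c d : ℝ) : (qm a b c d).re = a := rfl
@[simp] theorem qm_imI (a b c d : ℝ) : (qm a b c d).imI = b := rfl
@[simp] theorem qm_imJ (a b c d : ℝ) : (qm a b c d).imJ = c := rfl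
@[simp] theorem qm_imK (a b c d : ℝ) : (qm a b c d).imK = d := rfl

def qi : ℍ := qm 0 1 0 0

def cx (q : ℍ) : ℂ := ⟨q.re, q.imI⟩

theorem cx_c : Continuous cx := by
  have : cx = fun q : ℍ => (q.re : ℂ) + q.imI * I := funext fun q => by
    apply Complex.ext <;> simp [cx]
  rw [this]
  exact (continuous_ofReal.comp Quaternion.continuous_re).add
    ((continuous_ofReal.comp Quaternion.continuous_imI).mul continuous_const)

theorem cx_ne {q : ℍ} (h : q ≠ 0) (h' : q * qi = qi * q) : cx q ≠ 0 := fun e => h (by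
  have a := congrArg (·.imJ) h'
  have b := congrArg (·.imK) h'
  have c := congrArg Complex.re e
  have d := congrArg Complex.im e
  simp [qi, cx] at a b c d
  ext <;> simp <;> linarith)

namespace Cx

variable (C : Cx D Y)

def pi : FreeGroup C.E →* D := FreeGroup.lift C.pe

noncomputable def Gq (x : ℂ) : ℍ := qm x.re x.im (max 0 (1 / 2 - C.N x)) 0

theorem Gq_c : Continuous C.Gq := by
  have : C.Gq = fun x => x.re • (1 : ℍ) + x.im • qi + max 0 (1 / 2 - C.N x) • qm 0 0 1 0 :=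
    funext fun x => by ext <;> simp [Gq, qi]
  have := C.N_c
  rw [‹C.Gq = _›]; fun_prop

theorem Gq_ne (x : ℂ) : C.Gq x ≠ 0 := fun e => by
  have a : x.re = 0 := congrArg (·.re) e
  have b : x.im = 0 := congrArg (·.imI) e
  have c : max 0 (1 / 2 - C.N x) = 0 := congrArg (·.imJ) e
  rw [Complex.ext (w := 0) a b, N_zero] at c
  norm_num at c

theorem Gq_big {x : ℂ} (h : 1 ≤ C.N x) : C.Gq x * qi = qi * C.Gq x ∧
    ∀ k, cx (C.Gq x * k) = x * cx k := by
  have : max 0 (1 / 2 - C.N x) = 0 := max_eq_left (by linarith)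
  refine ⟨by ext <;> simp [Gq, qi, -one_div, this], fun k => ?_⟩
  apply Complex.ext <;> simp [Gq, cx, -one_div, this]

theorem pi_sf (d : D) (f : C.R) (z : ℂ) :
    (C.ζ (d • C.Lf f z)).1 = d * (C.ζ (C.Lf f 0)).1 * C.pi (C.sf f z) := by
  rw [C.ζ_smul d (C.Lf_mem f z), C.m_sf C.pi Prod.fst (by simp [pi]), mul_assoc]

variable [ContinuousConstSMul D Y]

theorem wind {u : Y → ℂ} (hu : Continuous u) (h0 : ∀ y ∈ C.Y1, u y ≠ 0) :
    ∃ J : (D × C.E →₀ ℤ) →ₗ[ℤ] ℂ, ∀ (d : D) f (F : ℂ → ℂ), Continuous F →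
      (∀ z, exp (F z) = u (d • C.Lf f z)) →
      J (fox C.pi (d * (C.ζ (C.Lf f 0)).1) (C.wf f)) = F (2 * Real.pi * I) - F 0 := by
  let l0 : D × C.V → ℂ := fun c => log (u (c.1 • C.vt c.2))
  have e0 : ∀ c, exp (l0 c) = u (c.1 • C.vt c.2) := fun c => exp_log (h0 _ (.inl ⟨_, _, rfl⟩))
  choose Λ Λ1 Λ2 Λ3 using fun (d : D) e => exists_log (u := fun s => u (d • C.ed e s))
    (hu.comp ((C.ed_c e).const_smul d)) (fun s => h0 _ (C.ed_mem d e s)) (z0 := -1)
    ((e0 (d, C.src e)).trans (by rw [C.ed_s _ _ le_rfl]))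
  let I0 : D × C.E → ℂ := fun b => Λ b.1 b.2 1 - l0 (b.1 * C.pe b.2, C.tgt b.2)
  let J : (D × C.E →₀ ℤ) →ₗ[ℤ] ℂ := Finsupp.linearCombination ℤ I0
  have eJ : ∀ m, exp (J m) = 1 := fun m => by
    induction m using Finsupp.induction_linear with
    | zero => simp
    | add a b ha hb => rw [map_add, Complex.exp_add, ha, hb, one_mul]
    | single b n =>
      have : exp (I0 b) = 1 := by
        rw [Complex.exp_sub, Λ3, e0, C.ed_t _ _ le_rfl, mul_smul, div_self]
        rw [← mul_smul]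
        exact h0 _ (.inl ⟨_, _, rfl⟩)
      simp [J, exp_int_mul, this]
  let l : Y → ℂ := fun y => Sum.elim l0 (Sum.elim (fun c => if c.2.2 ≤ 0 then Λ c.1 c.2.1 c.2.2
    else Λ c.1 c.2.1 c.2.2 - I0 (c.1, c.2.1)) 0) (C.cd y)
  have l1 : ∀ (d : D) e s, l (d • C.ed e s) = if s ≤ 0 then Λ d e (max (-1) s)
      else Λ d e (min 1 s) - I0 (d, e) := fun d e s => by
    rcases C.ed_cases d e s with h | h | h
    · simp [l, C.cd_e _ _ _ h, (abs_lt.1 h).1.le, (abs_lt.1 h).2.le]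
    · simp [l, h.2, C.cd_v, h.1, Λ2, show s ≤ 0 by linarith]
    · simp [l, h.2, C.cd_v, h.1, I0, show ¬s ≤ 0 by linarith]
  have l2 : ∀ y ∈ C.Y1, exp (l y) = u y := by
    rintro _ (⟨d, v, rfl⟩ | ⟨d, e, s, h, rfl⟩)
    · simp [l, C.cd_v, e0]
    · have := eJ (Finsupp.single (d, e) 1)
      simp only [l, C.cd_e _ _ _ h, Sum.elim_inr, Sum.elim_inl]
      split_ifs <;> simp_all [J, Complex.exp_sub]
  have l3 : ∀ y, ContinuousWithinAt (fun y' => l y' + J (fox C.pi (C.ζ y).1 (C.τ y y'))) C.Y1 y :=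
    fun y => tendsto_nhds.2 fun W hW hy => by
      by_cases h : C.mid y
      · obtain ⟨d, e, rfl⟩ := h
        have k : ∀ s, |s| < 1 → l (d • C.ed e s) + J (fox C.pi (C.ζ (d • C.ed e 0)).1
            (C.τ (d • C.ed e 0) (d • C.ed e s))) = Λ d e s := fun s hs => by
          simp only [l, C.cd_e _ _ _ hs, τ, mid_ed, C.κ_ed _ _ hs, ζ_ed, Sum.elim_inr, Sum.elim_inl]
          split_ifs <;> simp_all [J]
        simp only [k 0 (by simp)] at hy
        refine C.near_ed (by simp) ?_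
        filter_upwards [abs_ev (s := 0) (by simp), (Λ1 d e).continuousAt.eventually
          (hW.mem_nhds hy)] with s a b
        rwa [k s a]
      · simp only [τ, h, if_false, fox_one, map_zero, add_zero] at hy ⊢
        refine (C.near_nm (p := fun y => l y ∈ W) (fun d e s hs h => ?_) h hy).mono fun _ h => h.2
        simp only [l1] at h ⊢
        have := Λ1 d e
        exact (step_cont (by fun_prop) (by fun_prop) hs).eventually (hW.mem_nhds h)
  refine ⟨J, fun d f F hF hF' => ?_⟩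
  set c := d * (C.ζ (C.Lf f 0)).1
  have cc : Continuous fun z => l (d • C.Lf f z) + J (fox C.pi c (C.sf f z)) :=
    continuous_iff_continuousAt.2 fun z => by
      refine ContinuousAt.congr (Tendsto.add_const (J (fox C.pi c (C.sf f z))) ((l3 _).tendsto.comp
        (C.pull ((C.Lf_c f).const_smul d).continuousAt
          (.of_forall fun z => C.smul_mem d (C.Lf_mem f z))))) ?_
      filter_upwards [C.sf_adm f z] with z' hz
      simp only [hz, fox_mul, map_add, Function.comp, Pi.smul_apply, pi_sf, τ_smul, c]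
      ring
  have := log_uniq cc hF (fun z => by
    rw [Complex.exp_add, eJ, mul_one, hF', l2 _ (C.smul_mem d (C.Lf_mem f z))])
    (0 + 2 * Real.pi * I) 0
  rw [Lf_per, zero_add, sf_zero, fox_one, map_zero, ← wf] at this
  linear_combination this

theorem face_ind [ContractibleSpace Y] (d0 : D) (f0 : C.R) : ∃ J : (D × C.E →₀ ℤ) →ₗ[ℤ] ℂ,
    J (fox C.pi d0 (C.wf f0)) ≠ 0 ∧ ∀ d f, (d, f) ≠ (d0, f0) → J (fox C.pi d (C.wf f)) = 0 := by
  classical
  let d1 := d0 * (C.ζ (C.Lf f0 0)).1⁻¹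
  let q0 : ℂ → ℍ := fun x => C.Gq x * qi * (C.Gq x)⁻¹
  let q : Y → ℍ := fun y => Sum.elim (fun _ => qi) (Sum.elim (fun _ => qi) fun c =>
    if (c.1, c.2.1) = (d1, f0) then q0 c.2.2 else qi) (C.cd y)
  have q1 : ∀ y ∈ C.Y1, q y = qi := by
    rintro _ (⟨d, v, rfl⟩ | ⟨d, e, s, h, rfl⟩) <;> simp [q, C.cd_v, C.cd_e, *]
  have q2 : ∀ (d : D) f x, q (d • C.fc f x) = if (d, f) = (d1, f0) then q0 x else qi :=
    fun d f x => by
      by_cases c : C.N x < 1
      · simp only [q, C.cd_f _ _ _ c, Sum.elim_inr]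
      · rw [q1 _ (C.smul_mem _ (C.fc_b _ _ (not_lt.1 c)))]
        simp only [q0, (C.Gq_big (not_lt.1 c)).1, mul_inv_cancel_right₀ (C.Gq_ne x), ite_self]
  have cq : Continuous q := continuous_def.2 fun W hW => C.wt2 _ (fun d e => by
    simp only [Set.mem_preimage, q1 _ (C.ed_mem _ _ _)]; exact isOpen_const) fun d f => by
    simp only [Set.mem_preimage, q2]
    split_ifs
    exacts [hW.preimage ((C.Gq_c.mul continuous_const).mul (C.Gq_c.inv₀ C.Gq_ne)), isOpen_const]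
  have ii : qi * qi = -1 := by ext <;> simp [qi]
  obtain ⟨g, cg, hg⟩ := hopf cq (fun y => by
    rcases C.cov y with h | ⟨d, f, x, -, rfl⟩
    · rw [q1 y h, ii]
    · rw [q2]
      split_ifs
      · simp only [q0, mul_assoc, inv_mul_cancel_left₀ (C.Gq_ne x)]
        rw [← mul_assoc qi, ii, neg_one_mul, mul_neg, mul_inv_cancel₀ (C.Gq_ne x)]
      · exact ii) ((1 : D) • C.vt C.v0)
  rw [q1 _ (.inl ⟨_, _, rfl⟩)] at hg
  obtain ⟨J, hJ⟩ := C.wind (cx_c.comp cg) fun y hy => cx_ne (hg y).1 (by rw [(hg y).2, q1 y hy])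
  refine ⟨J, ?_, fun d f h => ?_⟩
  · have n : ∀ x, cx ((C.Gq x)⁻¹ * g (d1 • C.fc f0 x)) ≠ 0 := fun x =>
      cx_ne (mul_ne_zero (inv_ne_zero (C.Gq_ne x)) (hg _).1) (by
        rw [mul_assoc, (hg _).2, q2, if_pos rfl]
        simp [q0, mul_assoc, C.Gq_ne])
    obtain ⟨Λ, Λ1, -, Λ3⟩ := exists_log (cx_c.comp ((C.Gq_c.inv₀ C.Gq_ne).mul
      (cg.comp ((C.fc_c f0).const_smul d1)))) n (exp_log (n 0))
    have := hJ d1 f0 (fun z => z - (Real.log (C.N (exp z)) : ℝ) + Λ (C.nr (exp z)))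
      ((continuous_id.sub (continuous_ofReal.comp ((C.N_c.comp continuous_exp).log
        fun z => (C.N_pos _ z.exp_ne_zero).ne'))).add (Λ1.comp C.nre_c)) fun z => by
        rw [Complex.exp_add, Λ3, Complex.exp_sub, ← ofReal_exp,
          Real.exp_log (C.N_pos _ z.exp_ne_zero)]
        have := (C.Gq_big (C.N_nr z.exp_ne_zero).ge).2
          ((C.Gq (C.nr (exp z)))⁻¹ * g (d1 • C.fc f0 (C.nr (exp z))))
        rw [mul_inv_cancel_left₀ (C.Gq_ne _)] at this
        refine Eq.trans ?_ this.symm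
        simp [nr, div_eq_inv_mul]
    rw [inv_mul_cancel_right] at this
    simp [this, Real.pi_ne_zero]
  · have n : ∀ x, cx (g ((d * (C.ζ (C.Lf f 0)).1⁻¹) • C.fc f x)) ≠ 0 := fun x =>
      cx_ne (hg _).1 (by
        rw [(hg _).2, q2, if_neg]
        intro e
        obtain ⟨e, rfl⟩ := Prod.ext_iff.1 e
        exact h (by rw [mul_right_cancel e]))
    obtain ⟨Λ, Λ1, -, Λ3⟩ := exists_log (cx_c.comp (cg.comp ((C.fc_c f).const_smul _))) n
      (exp_log (n 0))
    simpa using hJ _ f (fun z => Λ (C.nr (exp z))) (Λ1.comp C.nre_c) fun z => Λ3 _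

end Cx

end Vale.Agent.P173
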