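import Vale.Agent.P173.Rigid

/-! The Bestvina-Brady group has no aspherical presentation. -/

namespace Vale.Agent.P173

open Quaternion

variable {V : Type} [LinearOrder V] [Fintype V] {G : SimpleGraph V}

/-- a nontrivial flat connection on the flag complex -/
structure Fl (G : SimpleGraph V) where
  α : V → V → S3
  mul : ∀ u v w, (u = v ∨ G.Adj u v) → (v = w ∨ G.Adj v w) → (u = w ∨ G.Adj u w) →
    α u v * α v w = α u w
  pos : ∀ u v, (u = v ∨ G.Adj u v) → 0 ≤ (α u v : ℍ).re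
  nt : ∀ β : V → S3, ¬∀ u v, G.Adj u v → α u v = (β u)⁻¹ * β v

variable (F : Fl G)

omit [LinearOrder V] [Fintype V] in
theorem Fl.one (u : V) : F.α u u = 1 := by simpa using F.mul u u u (.inl rfl) (.inl rfl) (.inl rfl)

noncomputable def Fl.S (n : V → ℕ) (u : V) : ℍ := ∑ w, (n w : ℝ) • (F.α w u : ℍ)

omit [Fintype V] in
theorem Cl.or {n : V → ℕ} (h : Cl G n) {u v : V} (hu : n u ≠ 0) (hv : n v ≠ 0) :
    u = v ∨ G.Adj u v := (em _).imp_right (h u v hu hv)

theorem Fl.S_mul {n : V → ℕ} {u v : V} (h : Cl G (n + ee u + ee v)) :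
    F.S n u * F.α u v = F.S n v := by
  rw [Fl.S, Finset.sum_mul]
  refine Finset.sum_congr rfl fun w _ => ?_
  by_cases e : n w = 0
  · simp [e]
  rw [smul_mul_assoc, ← S3.v_mul, F.mul w u v (h.or (by simp [e]) (by simp))
    (h.or (by simp) (by simp)) (h.or (by simp [e]) (by simp))]

theorem Fl.S_add (n : V → ℕ) (u : V) : F.S (n + ee u) u = F.S n u + 1 := by
  simp [Fl.S, add_smul, Finset.sum_add_distrib, Pi.single_apply, F.one]

theorem nz_mul {q : ℍ} (h : q ≠ 0) (p : S3) : nz (q * p) = nz q * p := by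
  conv_lhs => rw [← smul_nz q, smul_mul_assoc, ← S3.v_mul, nz_smul (norm_pos_iff.2 h)]

theorem Fl.S_norm [Nonempty V] {n : V → ℕ} {u : V} (h : Cl G (n + ee u)) :
    (lv n : ℝ) ≤ Fintype.card V * ‖F.S n u‖ := by
  obtain ⟨a, ha, -⟩ := exists_big n
  by_cases e : n a = 0
  · rw [e, mul_zero, Nat.le_zero] at ha
    rw [ha, Nat.cast_zero]; positivity
  have h1 := congrArg norm (F.S_mul (h.add (a := a) (by simp [e])))
  rw [norm_mul, S3.nrm, mul_one] at h1
  have h2 : (F.S n a).re ≤ ‖F.S n a‖ := by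
    refine le_trans (le_abs_self _) (abs_le_of_sq_le_sq' ?_ (norm_nonneg _) |> abs_le.2)
    rw [sq ‖_‖, ← normSq_eq_norm_mul_self, normSq_def']
    nlinarith [sq_nonneg (F.S n a).imI, sq_nonneg (F.S n a).imJ, sq_nonneg (F.S n a).imK]
  have h3 : (n a : ℝ) ≤ (F.S n a).re := by
    have : (F.S n a).re = ∑ w, ((n w : ℝ) • (F.α w a : ℍ)).re :=
      map_sum (QuaternionAlgebra.reₗ (R := ℝ) (-1) 0 (-1)) _ Finset.univ
    rw [this]
    refine le_trans (by simp [F.one]) (Finset.single_le_sum (fun w _ => ?_) (Finset.mem_univ a))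
    by_cases e' : n w = 0
    · simp [e']
    · simpa using mul_nonneg (Nat.cast_nonneg (n w)) (F.pos w a (h.left.or e' e))
  calc (lv n : ℝ) ≤ Fintype.card V * n a := by exact_mod_cast ha
    _ ≤ _ := by gcongr; linarith

theorem Fl.S_ne [Nonempty V] {n : V → ℕ} {u : V} (h : Cl G (n + ee u)) (h0 : 0 < lv n) :
    F.S n u ≠ 0 := fun e => by
  have := F.S_norm h
  rw [e, norm_zero, mul_zero] at this
  exact this.not_gt (by exact_mod_cast h0)

noncomputable def Fl.ρ (n : V → ℕ) (u : V) : S3 := nz (F.S n u) * (nz (F.S (n + ee u) u))⁻¹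

theorem Fl.ρ_eq [Nonempty V] {n : V → ℕ} {u v : V} (h : Cl G (n + ee u + ee v)) (h0 : 0 < lv n) :
    F.ρ n v = nz (F.S n u) * (nz (F.S (n + ee v) u))⁻¹ := by
  have h' : Cl G (n + ee v + ee u) := by rwa [add_right_comm]
  rw [Fl.ρ, ← F.S_mul h, ← F.S_mul (h'.add (a := v) (by simp)), nz_mul (F.S_ne h.left h0),
    nz_mul (F.S_ne h' (by simp))]
  simp [mul_assoc]

theorem Fl.ρ_small [Nonempty V] {n : V → ℕ} {u : V} (h : Cl G (n + ee u)) (h0 : 0 < lv n) :
    ‖(F.ρ n u : ℍ) - 1‖ * lv n ≤ 2 * Fintype.card V := by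
  have h1 := norm_pos_iff.2 (F.S_ne h h0)
  have h2 := nz_sub (‖F.S n u‖⁻¹ • (F.S n u + 1)) (nz (F.S n u))
  have h3 : nz (‖F.S n u‖⁻¹ • (F.S n u + 1)) = nz (F.S n u + 1) := by
    conv_lhs => rw [← smul_nz (F.S n u + 1), smul_smul]
    refine nz_smul (mul_pos (inv_pos.2 h1) (norm_pos_iff.2 ?_)) _
    rw [← F.S_add]
    exact F.S_ne (h.add (by simp)) (by simp)
  rw [h3, nz_coe (F.S_ne h h0), smul_add, add_sub_cancel_left, norm_smul, norm_one, mul_one,
    norm_inv, norm_norm, ← nz_coe (F.S_ne h h0), norm_sub_rev, ← F.S_add, S3.sub_eq] at h2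
  calc _ ≤ 2 * ‖F.S n u‖⁻¹ * (Fintype.card V * ‖F.S n u‖) :=
        mul_le_mul h2 (F.S_norm h) (by positivity) (by positivity)
    _ = _ := by field_simp

theorem nogo (L : Acy G) (F : Fl G) {A R : Type*} (π : FreeGroup A →* BB G) (w : R → FreeGroup A)
    (sur : Function.Surjective π) (ker : π.ker = Subgroup.normalClosure (Set.range w)) :
    ¬LinearIndependent ℤ fun f : BB G × R => fox π f.1 (w f.2) := fun ind => by
  classical
  have : Nonempty V := ⟨L.v0⟩
  obtain ⟨ε, ε0, k0, h⟩ := L.rigid π w sur ker ind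
  obtain ⟨k1, hk⟩ := exists_nat_ge (2 * Fintype.card V / ε)
  set k := k0 + k1 + 1
  obtain ⟨γ, hγ⟩ := h k (by omega) (fun e => F.ρ e.1.1 e.1.2) (fun e => by
    have h1 := F.ρ_small e.2.2.2 (by have := e.2.1; omega)
    have h2 : (k1 : ℝ) + 1 ≤ lv e.1.1 := by have := e.2.1; exact_mod_cast (by omega)
    rw [div_le_iff₀ ε0] at hk
    by_contra hc
    nlinarith [norm_nonneg ((F.ρ e.1.1 e.1.2 : ℍ) - 1)]) (by
    rintro ⟨⟨n, u, v⟩, h1, h2, h3⟩
    simp only [TSq] at h1 h2 h3 ⊢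
    have h4 : Cl G (n + ee v + ee u) := by rwa [add_right_comm]
    rw [F.ρ_eq (u := u) (v := v) h3 (by omega), F.ρ_eq (u := u) (v := v) (n := n + ee u)
      (by rw [add_right_comm]; exact h3.add (by simp)) (by simp), Fl.ρ, Fl.ρ,
      add_right_comm n (ee v)]
    group)
  let g : (V → ℕ) → S3 := fun m => if h : lv m ≤ k + 2 then γ ⟨m, h⟩ else 1
  have gg : ∀ m : VT V k, γ m = g m.1 := fun m => by simp only [g, dif_pos m.2]
  have ed : ∀ n u v, lv n = k → Cl G (n + ee u + ee v) →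
      (g n)⁻¹ * nz (F.S n u) = (g (n + ee v))⁻¹ * nz (F.S (n + ee v) u) := fun n u v a b => by
    have := hγ ⟨(n, v), a.ge, by simp [a], Cl.left (a := u) (by rwa [add_right_comm])⟩
    simp only [TSq, gg] at this
    rw [F.ρ_eq b (by omega), mul_inv_eq_iff_eq_mul] at this
    rw [this]; group
  refine F.nt (fun u => (g (k • ee u))⁻¹) fun v u ad => ?_
  have := zig (G := G) (k := k) (u := u) (fun _ n m => (g n)⁻¹ * nz (F.S n u) =
    (g m)⁻¹ * nz (F.S m u)) (fun _ => rfl) (fun _ n z n' m a1 a2 a3 a4 => by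
      rw [ed n u u a1 (a2.add (by simp)), ← a4, a3, ← ed n' u z (by
        have := congrArg lv a3; simp at this; omega) (by
        rw [add_right_comm, ← a3]; exact a2.add (by simp))]) k (k • ee v) 0 (by rw [lv_smul]; simp)
      (fun a b ha hb ab => by
        have : ∀ x, (k • ee v + ee u) x ≠ 0 → x = v ∨ x = u := fun x hx => by
          by_contra hc
          push Not at hc
          simp [hc] at hx
        rcases this a ha with rfl | rfl <;> rcases this b hb with rfl | rfl <;>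
          first | exact (ab rfl).elim | assumption | (symm; assumption))
      zero_le (by rw [lv_smul, lv_ee]; simp [lv])
  have e : ∀ a b, nz (F.S (k • ee a) b) = F.α a b := fun a b => by
    rw [← nz_smul (r := k) (by positivity) (F.α a b)]
    simp [Fl.S, Pi.single_apply]
  rw [zero_add, e, e, F.one, mul_one] at this
  rw [← this]; group

end Vale.Agent.P173
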