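import Mathlib

/-! The Jacobian determinant is a null Lagrangian. -/

namespace Vale.Agent.P173

open MeasureTheory Set Filter Topology Polynomial

variable {ι : Type} [Fintype ι] [DecidableEq ι]

theorem det_cont {h : (ι → ℝ) → ι → ℝ} (hh : ContDiff ℝ 1 h) :
    Continuous fun x => (fderiv ℝ h x).det :=
  ContinuousLinearMap.continuous_det.comp (hh.continuous_fderiv one_ne_zero)

theorem det_poly (A : (ι → ℝ) →L[ℝ] ι → ℝ) : ∃ P : ℝ[X], P.natDegree ≤ Fintype.card ι ∧
    P.coeff (Fintype.card ι) = A.det ∧
    ∀ s : ℝ, P.eval s = (ContinuousLinearMap.id ℝ _ + s • A).det := by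
  let M := LinearMap.toMatrix' (A : (ι → ℝ) →ₗ[ℝ] ι → ℝ)
  refine ⟨_, Polynomial.natDegree_det_X_add_C_le M 1, ?_, fun s => ?_⟩
  · rw [Polynomial.coeff_det_X_add_C_card]; exact LinearMap.det_toMatrix' _
  · rw [← Polynomial.coe_evalRingHom, RingHom.map_det, ContinuousLinearMap.det,
      ← LinearMap.det_toMatrix']
    congr 1
    ext i j
    by_cases e : i = j
    · subst e; simp [M]; ring
    · simp [M, e, mul_comm s]

theorem null_small {h : (ι → ℝ) → ι → ℝ} (hh : ContDiff ℝ 1 h) (hs : HasCompactSupport h) :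
    ∃ c > 0, ∀ s : ℝ, |s| < c → ∫ x in tsupport h,
      (ContinuousLinearMap.id ℝ _ + s • fderiv ℝ h x).det = volume.real (tsupport h) := by
  obtain ⟨C, hC⟩ := (hh.continuous_fderiv one_ne_zero).bounded_above_of_compact_support
    (hs.fderiv ℝ)
  have hC0 : 0 ≤ C := (norm_nonneg _).trans (hC 0)
  have ev : ∀ᶠ B in 𝓝 (ContinuousLinearMap.id ℝ (ι → ℝ)), 0 < ContinuousLinearMap.det B :=
    ContinuousLinearMap.continuous_det.continuousAt.eventually
      (lt_mem_nhds (by simp [ContinuousLinearMap.det]))
  obtain ⟨r, hr, hr'⟩ := Metric.eventually_nhds_iff.1 ev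
  refine ⟨min r (1 / 2) / (C + 1), by positivity, fun s hs' => ?_⟩
  have h1 : |s| * C < min r (1 / 2) := by
    rw [lt_div_iff₀ (by positivity)] at hs'
    nlinarith [abs_nonneg s]
  have hn : ∀ x, ‖s • fderiv ℝ h x‖ < min r (1 / 2) := fun x => by
    rw [norm_smul, Real.norm_eq_abs]
    exact lt_of_le_of_lt (mul_le_mul_of_nonneg_left (hC x) (abs_nonneg _)) h1
  have hd : ∀ x, HasFDerivAt (fun x => s • h x) (s • fderiv ℝ h x) x := fun x =>
    (hh.differentiable one_ne_zero x).hasFDerivAt.const_smul s
  have hl : LipschitzWith (1 / 2) fun x => s • h x :=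
    lipschitzWith_of_nnnorm_fderiv_le (𝕜 := ℝ) (fun x => (hd x).differentiableAt) fun x => by
      rw [(hd x).fderiv, ← NNReal.coe_le_coe]
      simpa using ((hn x).trans_le (min_le_right _ _)).le
  let F : (ι → ℝ) → ι → ℝ := fun x => x + s • h x
  have inj : Function.Injective F := fun x y e => by
    have h2 := hl.dist_le_mul x y
    have : x - y = s • h y - s • h x := by
      simp only [F] at e; linear_combination (exp := 1) e
    rw [dist_eq_norm, dist_eq_norm, this, norm_sub_rev] at h2
    have h3 : ‖s • h y - s • h x‖ = 0 := by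
      have := norm_nonneg (s • h y - s • h x)
      simp only [NNReal.coe_div, NNReal.coe_one, NNReal.coe_ofNat] at h2
      linarith
    rw [← this] at h3
    exact sub_eq_zero.1 (norm_eq_zero.1 h3)
  have sur : Function.Surjective F := fun y => by
    have hc : ContractingWith (1 / 2) fun x => y - s • h x :=
      ⟨by rw [← NNReal.coe_lt_coe]; norm_num, by simpa using (LipschitzWith.const y).sub hl⟩
    refine ⟨hc.fixedPoint _, ?_⟩
    have := hc.fixedPoint_isFixedPt
    simp only [F]
    exact eq_sub_iff_add_eq.1 this.symm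
  have fix : ∀ x ∉ tsupport h, F x = x := fun x hx => by
    simp [F, image_eq_zero_of_notMem_tsupport hx]
  have im : F '' tsupport h = tsupport h := by
    ext y
    constructor
    · rintro ⟨x, hx, rfl⟩
      by_contra e
      rw [inj (fix _ e)] at e
      exact e hx
    · intro hy
      obtain ⟨x, rfl⟩ := sur y
      refine ⟨x, ?_, rfl⟩
      by_contra e
      rw [fix x e] at hy
      exact e hy
  have := integral_image_eq_integral_abs_det_fderiv_smul volume (isClosed_tsupport h).measurableSet
    (f := F) (f' := fun x => ContinuousLinearMap.id ℝ _ + s • fderiv ℝ h x)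
    (fun x _ => ((hasFDerivAt_id x).add (hd x)).hasFDerivWithinAt) inj.injOn fun _ => (1 : ℝ)
  rw [im] at this
  simp only [integral_const, MeasurableSet.univ, measureReal_restrict_apply, univ_inter,
    smul_eq_mul, mul_one] at this
  rw [this]
  congr 1
  ext x
  refine (abs_of_pos (hr' ?_)).symm
  rw [dist_eq_norm, add_sub_cancel_left]
  exact (hn x).trans_le (min_le_left _ _)

theorem null_cs [Nonempty ι] {h : (ι → ℝ) → ι → ℝ} (hh : ContDiff ℝ 1 h)
    (hs : HasCompactSupport h) : ∫ x in tsupport h, (fderiv ℝ h x).det = 0 := by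
  obtain ⟨c, hc, H⟩ := null_small hh hs
  set n := Fintype.card ι
  have hn : 0 < n := Fintype.card_pos
  let v : ℕ → ℝ := fun j => c * j / (n + 1)
  have hv : Set.InjOn v (Finset.range (n + 1)) := fun i _ j _ e => by
    simp only [v] at e
    field_simp at e
    exact_mod_cast e
  have key : ∀ P : ℝ[X], P.natDegree ≤ n → P.coeff n = ∑ i ∈ Finset.range (n + 1),
      P.eval (v i) / ∏ j ∈ (Finset.range (n + 1)).erase i, (v i - v j) := fun P hP => by
    have := Lagrange.coeff_eq_sum hv (P := P) (by
      rw [Finset.card_range]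
      exact lt_of_le_of_lt (degree_le_of_natDegree_le hP) (by exact_mod_cast n.lt_succ_self))
    simpa using this
  have e1 : ∀ x, (fderiv ℝ h x).det = ∑ i ∈ Finset.range (n + 1),
      (ContinuousLinearMap.id ℝ _ + v i • fderiv ℝ h x).det /
        ∏ j ∈ (Finset.range (n + 1)).erase i, (v i - v j) := fun x => by
    obtain ⟨P, h1, h2, h3⟩ := det_poly (fderiv ℝ h x)
    rw [← h2, key P h1]
    simp only [h3]
  simp only [e1]
  rw [integral_finset_sum]
  · have := key (C (volume.real (tsupport h))) (by simp)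
    rw [coeff_C, if_neg hn.ne'] at this
    rw [this]
    refine Finset.sum_congr rfl fun i hi => ?_
    rw [integral_div, H, eval_C]
    have h1 : (i : ℝ) < n + 1 := by exact_mod_cast Finset.mem_range.1 hi
    rw [abs_of_nonneg (by positivity), div_lt_iff₀ (by positivity)]
    gcongr
  · intro i _
    refine Integrable.div_const ?_ _
    exact (ContinuousLinearMap.continuous_det.comp (continuous_const.add
      ((hh.continuous_fderiv one_ne_zero).const_smul (v i)))).continuousOn.integrableOn_compact hs

theorem null_lag [Nonempty ι] {h0 h1 : (ι → ℝ) → ι → ℝ} (hh0 : ContDiff ℝ 1 h0)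
    (hh1 : ContDiff ℝ 1 h1) {V K : Set (ι → ℝ)} (hV : IsOpen V) (hV' : IsCompact (closure V))
    (hK : IsClosed K) (hKV : K ⊆ V) (he : ∀ x ∉ K, h0 x = h1 x) :
    ∫ x in V, (fderiv ℝ h0 x).det = ∫ x in V, (fderiv ℝ h1 x).det := by
  obtain ⟨U, hU, hU1⟩ := exists_compact_superset hV'
  obtain ⟨χ, c1, c2, -⟩ := exists_contMDiffMap_one_nhds_of_subset_interior (n := 1)
    (modelWithCornersSelf ℝ (ι → ℝ)) isClosed_closure hU1
  have cχ : ContDiff ℝ 1 χ := χ.contMDiff.contDiff
  have key : ∀ {h : (ι → ℝ) → ι → ℝ}, ContDiff ℝ 1 h → ∫ x in V, (fderiv ℝ h x).det =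
      -∫ x in Vᶜ, (fderiv ℝ (fun x => χ x • h x) x).det := by
    intro h hh
    have s1 : HasCompactSupport fun x => χ x • h x :=
      HasCompactSupport.intro hU fun x hx => by simp [c2 x hx]
    have z : ∀ x ∉ tsupport fun x => χ x • h x,
        (fderiv ℝ (fun x => χ x • h x) x).det = 0 := fun x hx => by
      rw [fderiv_of_notMem_tsupport ℝ hx]
      simp [ContinuousLinearMap.det]
    have cc : ContDiff ℝ 1 fun x => χ x • h x := cχ.smul hh
    have := null_cs cc s1
    rw [setIntegral_eq_integral_of_forall_compl_eq_zero z, ← integral_add_compl hV.measurableSet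
      ((det_cont cc).integrable_of_hasCompactSupport (HasCompactSupport.intro s1 z))]
      at this
    rw [← eq_neg_of_add_eq_zero_left this]
    refine setIntegral_congr_fun hV.measurableSet fun x hx => ?_
    refine congrArg _ (Filter.EventuallyEq.fderiv_eq ?_)
    filter_upwards [c1.filter_mono (nhds_le_nhdsSet (subset_closure hx))] with y hy
    simp [hy]
  rw [key hh0, key hh1]
  congr 1
  refine setIntegral_congr_fun hV.measurableSet.compl fun x hx => ?_
  refine congrArg _ (Filter.EventuallyEq.fderiv_eq ?_)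
  filter_upwards [hK.isOpen_compl.mem_nhds fun h => hx (hKV h)] with y hy
  rw [he y hy]

end Vale.Agent.P173
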