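import Mathlib

/-! Right-angled Artin groups and the exactness of the Salvetti complex. -/

namespace Vale.Agent.P173

open Finsupp

variable {V : Type} (G : SimpleGraph V)

def Ra : Type := PresentedGroup {w : FreeGroup V | ∃ u v, G.Adj u v ∧
  w = .of u * .of v * (.of u)⁻¹ * (.of v)⁻¹}

instance : Group (Ra G) := inferInstanceAs (Group (PresentedGroup _))

def gn (v : V) : Ra G := PresentedGroup.of v

variable {G}

theorem gn_comm {u v : V} (h : G.Adj u v) : gn G u * gn G v = gn G v * gn G u := by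
  have : gn G u * gn G v * (gn G u)⁻¹ * (gn G v)⁻¹ = 1 :=
    PresentedGroup.one_of_mem (x := .of u * .of v * (.of u)⁻¹ * (.of v)⁻¹)
      (rels := {w : FreeGroup V | ∃ u v, G.Adj u v ∧ w = .of u * .of v * (.of u)⁻¹ * (.of v)⁻¹})
      ⟨u, v, h, rfl⟩
  rwa [mul_inv_eq_one, mul_inv_eq_iff_eq_mul] at this

def liftA {Γ : Type*} [Group Γ] (f : V → Γ) (h : ∀ u v, G.Adj u v → f u * f v = f v * f u) :
    Ra G →* Γ := PresentedGroup.toGroup (f := f) (by
  rintro _ ⟨u, v, e, rfl⟩
  simp [h u v e])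

@[simp] theorem liftA_gn {Γ : Type*} [Group Γ] (f : V → Γ) (h) (v : V) :
    liftA (G := G) f h (gn G v) = f v := PresentedGroup.toGroup.of _

theorem ra_mem (S : Subgroup (Ra G)) (h : ∀ v, gn G v ∈ S) (x : Ra G) : x ∈ S :=
  PresentedGroup.generated_by _ S h x

variable [LinearOrder V]

def rM (M : Finset V) : Ra G →* Ra G :=
  liftA (fun v => if v ∈ M then gn G v else 1) fun u v h => by
    split_ifs <;> simp [gn_comm h]

def qM (M : Finset V) (x : Ra G) : Ra G := x * (rM M x)⁻¹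

theorem qM_gn {M : Finset V} {u : V} (h : u ∈ M) (x : Ra G) : qM M (x * gn G u) = qM M x := by
  simp [qM, rM, h]

theorem inv_qM {α : Type*} {M : Finset V} {f : Ra G → α}
    (h : ∀ x, ∀ u ∈ M, f (x * gn G u) = f x) (x : Ra G) : f (qM M x) = f x := by
  let S : Subgroup (Ra G) :=
    { carrier := {y | ∀ x, f (x * y) = f x}
      mul_mem' := fun ha hb x => by rw [← mul_assoc, hb, ha]
      one_mem' := fun x => by rw [mul_one]
      inv_mem' := fun {a} ha x => by rw [← ha, inv_mul_cancel_right] }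
  have := ra_mem (S.comap (rM M)) (fun v x => by
    simp only [rM, liftA_gn]
    split_ifs with e
    exacts [h x v e, by rw [mul_one]]) x⁻¹ x
  rwa [map_inv] at this

/-- the tree of an HNN extension has no cycles -/
theorem exists_pot' (M K : Finset V) {v : V} (hv : v ∈ M) (hK : ∀ u ∈ M, G.Adj v u → u ∈ K) :
    ∃ s : Ra G → Ra G →₀ ℤ, (∀ x, ∀ u ∈ M, u ≠ v → s (x * gn G u) = s x) ∧
      ∀ x, s (x * gn G v) = s x + single (qM K x) 1 := by
  let p : V → Equiv.Perm (Ra G × (Ra G →₀ ℤ)) := fun u =>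
    { toFun := fun z => (z.1 * rM M (gn G u), if u = v then z.2 + single (qM K z.1) 1 else z.2)
      invFun := fun z => (z.1 * (rM M (gn G u))⁻¹,
        if u = v then z.2 - single (qM K (z.1 * (rM M (gn G u))⁻¹)) 1 else z.2)
      left_inv := fun z => by by_cases e : u = v <;> simp [e]
      right_inv := fun z => by by_cases e : u = v <;> simp [e] }
  have q : ∀ u, G.Adj v u → ∀ x, qM K (x * rM M (gn G u)) = qM K x := fun u h x => by
    simp only [rM, liftA_gn]
    split_ifs with e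
    exacts [qM_gn (hK u e h) x, by rw [mul_one]]
  let Ψ : Ra G →* (Equiv.Perm (Ra G × (Ra G →₀ ℤ)))ᵐᵒᵖ :=
    liftA (fun u => MulOpposite.op (p u)) fun u u' h => by
      rw [← MulOpposite.op_mul, ← MulOpposite.op_mul]
      refine congrArg _ (Equiv.ext fun z => Prod.ext ?_ ?_)
      · simp only [p, Equiv.Perm.mul_apply, Equiv.coe_fn_mk, mul_assoc, ← map_mul, gn_comm h]
      · simp only [p, Equiv.Perm.mul_apply, Equiv.coe_fn_mk]
        by_cases e : u = v
        · subst e; simp [h.ne', q _ h]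
        · by_cases e' : u' = v
          · subst e'; simp [e, q _ h.symm]
          · simp [e, e']
  have f : ∀ x z, ((Ψ x).unop z).1 = z.1 * rM M x := by
    let S : Subgroup (Ra G) :=
      { carrier := {x | ∀ z, ((Ψ x).unop z).1 = z.1 * rM M x}
        mul_mem' := fun ha hb z => by
          rw [map_mul, MulOpposite.unop_mul, Equiv.Perm.mul_apply, hb, ha, map_mul, mul_assoc]
        one_mem' := fun z => by simp
        inv_mem' := fun {a} ha z => by
          have := ha ((Ψ a⁻¹).unop z)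
          rw [← Equiv.Perm.mul_apply, ← MulOpposite.unop_mul, ← map_mul, inv_mul_cancel] at this
          simpa [eq_mul_inv_iff_mul_eq] using this.symm }
    exact ra_mem S fun u z => by simp [Ψ, p]
  refine ⟨fun x => ((Ψ x).unop (qM M x, 0)).2, fun x u h e => ?_, fun x => ?_⟩
  · simp [qM_gn h, Ψ, p, e]
  · have : ∀ z, ((Ψ (gn G v)).unop z).2 = z.2 + single (qM K z.1) 1 := fun z => by simp [Ψ, p]
    simp only [qM_gn hv, map_mul, MulOpposite.unop_mul, Equiv.Perm.mul_apply, this, f]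
    rw [qM, inv_mul_cancel_right]

abbrev Ch (G : SimpleGraph V) := Ra G × Finset V →₀ ℤ

def sgn (σ : Finset V) (v : V) : ℤ := (-1) ^ (σ.filter (· < v)).card

noncomputable def up : Ch G →ₗ[ℤ] Ch G := linearCombination ℤ fun c =>
  ∑ v ∈ c.2, sgn c.2 v • single (c.1 * gn G v, c.2.erase v) 1

noncomputable def dn : Ch G →ₗ[ℤ] Ch G := linearCombination ℤ fun c =>
  ∑ v ∈ c.2, sgn c.2 v • single (c.1, c.2.erase v) 1

noncomputable def bd : Ch G →ₗ[ℤ] Ch G := up - dn

theorem bd_single (c : Ra G × Finset V) : bd (single c 1) = ∑ v ∈ c.2, sgn c.2 v •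
    (single (c.1 * gn G v, c.2.erase v) 1 - single (c.1, c.2.erase v) 1) := by
  simp only [bd, up, dn, LinearMap.sub_apply, linearCombination_single, one_smul, smul_sub,
    Finset.sum_sub_distrib]

abbrev Sup {α : Type*} (P : α → Prop) : Submodule ℤ (α →₀ ℤ) := supported ℤ ℤ {c | P c}

theorem sup_mem {α M : Type*} [AddCommGroup M] {P : α → Prop} {f : (α →₀ ℤ) →ₗ[ℤ] M}
    {N : Submodule ℤ M} (h : ∀ c, P c → f (single c 1) ∈ N) {z} (hz : z ∈ Sup P) : f z ∈ N := by
  have : Sup P ≤ N.comap f := by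
    rw [Sup, supported_eq_span_single, Submodule.span_le]
    rintro _ ⟨c, hc, rfl⟩
    exact h c hc
  exact this hz

theorem sup_eq {α M : Type*} [AddCommGroup M] {P : α → Prop} {f g : (α →₀ ℤ) →ₗ[ℤ] M}
    (h : ∀ c, P c → f (single c 1) = g (single c 1)) {z} (hz : z ∈ Sup P) : f z = g z :=
  sub_eq_zero.1 (sup_mem (f := f - g) (N := ⊥) (fun c hc => by simp [h c hc]) hz)

theorem sup_mono {α : Type*} {P Q : α → Prop} (h : ∀ c, P c → Q c) {z} (hz : z ∈ Sup P) :
    z ∈ Sup Q := supported_mono h hz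

theorem sup_single {α : Type*} {P : α → Prop} {c : α} (h : P c) : single c (1 : ℤ) ∈ Sup P :=
  single_mem_supported ℤ 1 h

theorem sgn_swap {σ : Finset V} {u v : V} (hu : u ∈ σ) (hv : v ∈ σ) (h : u ≠ v) :
    sgn σ v * sgn (σ.erase v) u = -(sgn σ u * sgn (σ.erase u) v) := by
  have k : ∀ {u v : V}, u ∈ σ → u < v →
      sgn σ v = -sgn (σ.erase u) v ∧ sgn (σ.erase v) u = sgn σ u := fun {u v} hu h => by
    constructor
    · rw [sgn, sgn, Finset.filter_erase, ← Finset.card_erase_add_one (a := u) (by simp [hu, h])]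
      ring
    · rw [sgn, sgn, Finset.filter_erase, Finset.erase_eq_of_notMem (by simp [h.le])]
  rcases h.lt_or_gt with h | h
  · rw [(k hu h).1, (k hu h).2]; ring
  · rw [(k hv h).1, (k hv h).2]; ring

theorem bd_bd {z : Ch G} (hz : z ∈ Sup fun c => G.IsClique (c.2 : Set V)) : bd (bd z) = 0 := by
  refine (sup_eq (f := bd ∘ₗ bd) (g := 0) (fun ⟨x, σ⟩ hc => ?_) hz :)
  let T : V → V → Ch G := fun v u => (sgn σ v * sgn (σ.erase v) u) •
    (single (x * gn G v * gn G u, (σ.erase v).erase u) 1 - single (x * gn G v, (σ.erase v).erase u) 1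
    - (single (x * gn G u, (σ.erase v).erase u) 1 - single (x, (σ.erase v).erase u) 1))
  have e1 : bd (bd (single (x, σ) 1)) = ∑ v ∈ σ, ∑ u ∈ σ.erase v, T v u := by
    simp only [bd_single, map_sum, map_smul, map_sub, ← Finset.sum_sub_distrib, ← smul_sub,
      Finset.smul_sum, smul_smul, T]
  have e2 : ∑ v ∈ σ, ∑ u ∈ σ.erase v, T v u = -∑ v ∈ σ, ∑ u ∈ σ.erase v, T v u := by
    conv_lhs => rw [Finset.sum_comm' (t' := σ) (s' := fun u => σ.erase u) (by
      simp only [Finset.mem_erase]; tauto)]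
    simp only [← Finset.sum_neg_distrib]
    refine Finset.sum_congr rfl fun u hu => Finset.sum_congr rfl fun v hv => ?_
    obtain ⟨h, hv⟩ := Finset.mem_erase.1 hv
    simp only [T, sgn_swap hu hv h.symm, neg_smul, Finset.erase_right_comm (a := v), mul_assoc,
      gn_comm (hc hv hu h)]
    congr 2
    abel
  rw [eq_neg_iff_add_eq_zero, ← two_smul ℤ, smul_eq_zero] at e2
  simpa [e1] using e2

open Classical in
noncomputable def aug (M : Finset V) : Ch G →ₗ[ℤ] Ra G →₀ ℤ := linearCombination ℤ fun c =>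
  if c.2 = ∅ then single (qM M c.1) 1 else 0

theorem aug_bd {M : Finset V} {z : Ch G} (hz : z ∈ Sup fun c => c.2 ⊆ M) : aug M (bd z) = 0 := by
  refine sup_eq (f := aug M ∘ₗ bd) (g := 0) (fun ⟨x, σ⟩ hc => ?_) hz
  simp only [LinearMap.comp_apply, bd_single, map_sum, map_smul, map_sub, aug,
    linearCombination_single, one_smul]
  exact Finset.sum_eq_zero fun v hv => by rw [qM_gn (hc hv), sub_self, smul_zero]

def Kq (M : Finset V) (d : ℕ) (c : Ra G × Finset V) : Prop :=
  G.IsClique (c.2 : Set V) ∧ c.2 ⊆ M ∧ c.2.card = d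

theorem salv0 (M : Finset V) {z : Ch G} (hz : z ∈ Sup (Kq M 0)) (h : aug M z = 0) :
    ∃ y ∈ Sup (Kq M 1), bd y = z := by
  suffices (LinearMap.id - lmapDomain ℤ ℤ (fun x => (x, ∅)) ∘ₗ aug M : Ch G →ₗ[ℤ] Ch G) z ∈
      (Sup (Kq M 1)).map bd by simpa [h] using this
  refine sup_mem (fun ⟨x, σ⟩ hc => ?_) hz
  obtain rfl : σ = ∅ := Finset.card_eq_zero.1 hc.2.2
  have := inv_qM (M := M) (f := fun x => (Submodule.Quotient.mk (single (x, ∅) 1) :
    Ch G ⧸ (Sup (Kq M 1)).map bd)) (fun x u hu => (Submodule.Quotient.eq _).2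
      ⟨single (x, {u}) 1, sup_single ⟨by simp, by simpa using hu, rfl⟩, by
        simp [bd_single, sgn, Finset.filter_singleton]⟩) x
  simpa [aug] using (Submodule.Quotient.eq _).1 this.symm

theorem salv (M : Finset V) : ∀ d, ∀ z ∈ Sup (Kq (G := G) M d), bd z = 0 → aug M z = 0 →
    ∃ y ∈ Sup (Kq M (d + 1)), bd y = z := by
  classical
  induction M using Finset.strongInduction with
  | H M ih =>
  rintro (_ | d) z hz h1 h2
  · exact salv0 M hz h2
  rcases M.eq_empty_or_nonempty with rfl | hM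
  · refine ⟨0, zero_mem _, (map_zero _).trans (sup_eq (f := 0) (g := LinearMap.id) ?_ hz)⟩
    rintro ⟨x, σ⟩ ⟨-, h3, h4⟩
    rw [Finset.subset_empty.1 h3] at h4
    simp at h4
  set v := M.min' hM
  have hv : v ∈ M := M.min'_mem hM
  let K := (M.erase v).filter (G.Adj v)
  have KM : K ⊆ M.erase v := Finset.filter_subset _ _
  let cn : Ch G →ₗ[ℤ] Ch G := lmapDomain ℤ ℤ fun c => (c.1, insert v c.2)
  let R : Ch G →ₗ[ℤ] Ch G := lmapDomain ℤ ℤ (fun c => (c.1 * gn G v, c.2)) - LinearMap.id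
  let p1 : Ch G →ₗ[ℤ] Ch G := linearCombination ℤ fun c =>
    if v ∈ c.2 then single (c.1, c.2.erase v) 1 else 0
  have nv : ∀ {σ : Finset V}, σ ⊆ M.erase v → v ∉ σ := fun h e => by simpa using h e
  have bc : ∀ y ∈ Sup fun c => c.2 ⊆ M.erase v, bd (cn y) = R y - cn (bd y) := fun y hy => by
    refine sup_eq (f := bd ∘ₗ cn) (g := R - cn ∘ₗ bd) (fun ⟨x, σ⟩ hc => ?_) hy
    have lt : ∀ u ∈ σ, v < u := fun u hu => lt_of_le_of_ne
      (M.min'_le u (Finset.mem_of_mem_erase (hc hu))) (Finset.ne_of_mem_erase (hc hu)).symm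
    have s1 : sgn (insert v σ) v = 1 := by
      rw [sgn, Finset.filter_eq_empty_iff.2 (by simpa using fun u hu => (lt u hu).le)]; rfl
    simp only [LinearMap.comp_apply, cn, R, lmapDomain_apply, mapDomain_single, bd_single,
      Finset.sum_insert (nv hc), s1, one_smul, Finset.erase_insert (nv hc), LinearMap.sub_apply,
      LinearMap.id_apply, map_sum, map_smul, map_sub, sub_eq_add_neg (_ - _) (∑ _ ∈ _, _),
      ← Finset.sum_neg_distrib]
    refine congrArg _ (Finset.sum_congr rfl fun u hu => ?_)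
    rw [Finset.erase_insert_of_ne (lt u hu).ne, ← neg_smul, sgn, sgn, Finset.filter_insert,
      if_pos (lt u hu), Finset.card_insert_of_notMem (by simp [nv hc]), pow_succ, mul_neg_one]
  have z1 : p1 z ∈ Sup (Kq K d) := sup_mem (fun ⟨x, σ⟩ hc => by
    simp only [p1, linearCombination_single, one_smul]
    split_ifs with e
    · refine sup_single ⟨hc.1.subset (by simp), fun u hu => ?_, by
        rw [Finset.card_erase_of_mem e, show σ.card = d + 1 from hc.2.2]; rfl⟩
      obtain ⟨a, b⟩ := Finset.mem_erase.1 hu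
      exact Finset.mem_filter.2 ⟨Finset.mem_erase.2 ⟨a, hc.2.1 b⟩, hc.1 e b a.symm⟩
    · exact zero_mem _) hz
  have z0 : z - cn (p1 z) ∈ Sup (Kq (M.erase v) (d + 1)) :=
    sup_mem (f := LinearMap.id - cn ∘ₗ p1) (fun ⟨x, σ⟩ hc => by
      by_cases e : v ∈ σ
      · simp [p1, cn, e, Finset.insert_erase e]
      · simpa [p1, e] using sup_single ⟨hc.1, Finset.subset_erase.2 ⟨hc.2.1, e⟩, hc.2.2⟩) hz
  have bs : ∀ y ∈ Sup fun c : Ra G × Finset V => c.2 ⊆ M.erase v,
      bd y ∈ Sup fun c => c.2 ⊆ M.erase v := fun y hy => sup_mem (fun ⟨x, σ⟩ hc => by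
    rw [bd_single]
    exact sum_mem fun u _ => Submodule.smul_mem _ _ (sub_mem
      (sup_single ((Finset.erase_subset _ _).trans hc))
      (sup_single ((Finset.erase_subset _ _).trans hc)))) hy
  have rs : ∀ {P : Ra G × Finset V → Prop}, (∀ x y σ, P (x, σ) → P (y, σ)) → ∀ y ∈ Sup P,
      R y ∈ Sup P := fun h y hy => sup_mem (fun ⟨x, σ⟩ hc => by
    simpa [R] using sub_mem (sup_single (h _ _ _ hc)) (sup_single hc)) hy
  have p0 : ∀ y ∈ Sup fun c : Ra G × Finset V => c.2 ⊆ M.erase v, p1 y = 0 ∧ p1 (cn y) = y :=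
    fun y hy => ⟨sup_eq (g := 0) (fun c hc => by simp [p1, nv hc]) hy,
      sup_eq (f := p1 ∘ₗ cn) (g := LinearMap.id) (fun c hc => by simp [p1, cn, nv hc]) hy⟩
  have a0 := sup_mono (Q := fun c => c.2 ⊆ M.erase v) (fun c hc => hc.2.1) z0
  have a1 := sup_mono (Q := fun c => c.2 ⊆ M.erase v) (fun c hc => hc.2.1.trans KM) z1
  have e1 : bd (z - cn (p1 z)) + R (p1 z) = cn (bd (p1 z)) := by
    rw [map_sub, h1, bc _ a1]; abel
  have e2 : bd (p1 z) = 0 := by
    rw [← (p0 _ (bs _ a1)).2, ← e1, map_add, (p0 _ (bs _ a0)).1,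
      (p0 _ (rs (fun _ _ _ h => h) _ a1)).1, add_zero]
  obtain ⟨s, s1, s2⟩ := exists_pot' (G := G) M K hv fun u h h' =>
    Finset.mem_filter.2 ⟨Finset.mem_erase.2 ⟨h'.ne', h⟩, h'⟩
  have e3 : aug K (p1 z) = 0 := by
    have q := inv_qM (M := M.erase v) fun x u hu =>
      s1 x u (Finset.mem_of_mem_erase hu) (Finset.ne_of_mem_erase hu)
    have : aug K = (linearCombination ℤ s ∘ₗ aug (M.erase v)) ∘ₗ R := by
      refine lhom_ext' fun c => LinearMap.ext_ring ?_
      by_cases e : c.2 = ∅ <;> simp [aug, R, e, q, s2]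
    rw [e2, map_zero, add_eq_zero_iff_neg_eq] at e1
    rw [this, LinearMap.comp_apply, ← e1, LinearMap.comp_apply, map_neg, aug_bd a0]
    simp
  obtain ⟨y2, hy2, e4⟩ := ih K (KM.trans_ssubset (Finset.erase_ssubset hv)) d _ z1 e2 e3
  have a2 := sup_mono (Q := fun c => c.2 ⊆ M.erase v) (fun c hc => hc.2.1.trans KM) hy2
  have c2 : cn y2 ∈ Sup (Kq M (d + 1 + 1)) := sup_mem (fun ⟨x, σ⟩ hc => by
    simp only [cn, lmapDomain_apply, mapDomain_single]
    refine sup_single ⟨?_, Finset.insert_subset hv ((hc.2.1.trans KM).trans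
      (Finset.erase_subset _ _)), by
        rw [Finset.card_insert_of_notMem (nv (hc.2.1.trans KM)), hc.2.2]⟩
    rw [Finset.coe_insert]
    exact hc.1.insert fun u hu _ => (Finset.mem_filter.1 (hc.2.1 hu)).2) hy2
  have m1 : z + bd (cn y2) ∈ Sup (Kq (M.erase v) (d + 1)) := by
    rw [bc _ a2, e4, add_sub, add_sub_right_comm]
    exact add_mem z0 (rs (fun _ _ _ h => h) _
      (sup_mono (fun c hc => ⟨hc.1, hc.2.1.trans KM, hc.2.2⟩) hy2))
  obtain ⟨y1, hy1, e5⟩ := ih _ (Finset.erase_ssubset hv) _ _ m1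
    (by rw [map_add, h1, bd_bd (sup_mono (fun c hc => hc.1) c2), add_zero])
    (sup_eq (g := 0) (fun c hc => by
      have : c.2 ≠ ∅ := fun e => by simpa [e] using hc.2.2
      simp [aug, this]) m1)
  exact ⟨y1 - cn y2, sub_mem (sup_mono (fun c hc =>
    ⟨hc.1, hc.2.1.trans (Finset.erase_subset _ _), hc.2.2⟩) hy1) c2, by simp [e5]⟩

end Vale.Agent.P173
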