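import Vale.Agent.P173.Htp
import Vale.Agent.P173.Cone

/-! Small flat connections on the scaled shadows are trivial. -/

namespace Vale.Agent.P173

open Finsupp Quaternion

variable {V : Type} [LinearOrder V] [Fintype V] {G : SimpleGraph V}

abbrev VT (V : Type) [Fintype V] (k : ℕ) : Type := {n : V → ℕ // lv n ≤ k + 2}

abbrev ET (G : SimpleGraph V) (k : ℕ) : Type :=
  {e : (V → ℕ) × V // k ≤ lv e.1 ∧ lv e.1 ≤ k + 1 ∧ Cl G (e.1 + ee e.2)}

abbrev FT (G : SimpleGraph V) (k : ℕ) : Type :=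
  {s : (V → ℕ) × V × V // lv s.1 = k ∧ s.2.1 < s.2.2 ∧ Cl G (s.1 + ee s.2.1 + ee s.2.2)}

instance (k : ℕ) : Finite (VT V k) :=
  ((Set.Finite.pi' fun _ : V => Set.finite_Iic (k + 2)).subset fun n (hn : lv n ≤ k + 2) v =>
    (Finset.single_le_sum (f := n) (fun _ _ => Nat.zero_le _) (Finset.mem_univ v)).trans hn).to_subtype

instance (k : ℕ) : Finite (ET G k) :=
  Finite.of_injective (fun e => ((⟨e.1.1, by have := e.2.2.1; omega⟩, e.1.2) : VT V k × V))
    fun a b h => Subtype.ext (by simpa [Prod.ext_iff] using h)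

instance (k : ℕ) : Finite (FT G k) :=
  Finite.of_injective (fun e => ((⟨e.1.1, by have := e.2.1; omega⟩, e.1.2) : VT V k × V × V))
    fun a b h => Subtype.ext (by simpa [Prod.ext_iff] using h)

def TSq (G : SimpleGraph V) (k : ℕ) : Sq (VT V k) (ET G k) (FT G k) where
  src e := ⟨e.1.1, by have := e.2.2.1; omega⟩
  tgt e := ⟨e.1.1 + ee e.1.2, by have := e.2.2.1; simp; omega⟩
  e1 s := ⟨(s.1.1, s.1.2.1), s.2.1.ge, s.2.1.le.trans k.le_succ, s.2.2.2.left⟩
  e2 s := ⟨(s.1.1 + ee s.1.2.1, s.1.2.2), by simp [s.2.1], by simp [s.2.1], s.2.2.2⟩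
  e3 s := ⟨(s.1.1 + ee s.1.2.2, s.1.2.1), by simp [s.2.1], by simp [s.2.1],
    by rw [add_right_comm]; exact s.2.2.2⟩
  e4 s := ⟨(s.1.1, s.1.2.2), s.2.1.ge, s.2.1.le.trans k.le_succ,
    Cl.left (a := s.1.2.1) (by rw [add_right_comm]; exact s.2.2.2)⟩
  h14 _ := rfl
  h12 _ := rfl
  h23 _ := Subtype.ext (add_right_comm _ _ _)
  h43 _ := rfl

theorem Acy.TSq_h1 (L : Acy G) (k : ℕ) (u : ET G k → ℝ) (h : ∀ σ, (TSq G k).cob u σ = 0) :
    ∃ f : VT V k → ℝ, ∀ e, u e = f ((TSq G k).src e) - f ((TSq G k).tgt e) := by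
  classical
  let u' : (V → ℕ) → V → ℝ := fun n v =>
    if h : k ≤ lv n ∧ lv n ≤ k + 1 ∧ Cl G (n + ee v) then u ⟨(n, v), h⟩ else 0
  have e : ∀ x : ET G k, u' x.1.1 x.1.2 = u x := fun x => dif_pos x.2
  have c : ∀ n a b, lv n = k → a < b → Cl G (n + ee a + ee b) →
      u' n a + u' (n + ee a) b = u' n b + u' (n + ee b) a := fun n a b h1 h2 h3 => by
    have := h ⟨(n, a, b), h1, h2, h3⟩
    simp only [Sq.cob, ← e] at this
    simp only [TSq] at this
    linarith
  obtain ⟨f, hf⟩ := L.pot (u := u') (k := k) fun n a b h1 h2 h3 => by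
    rcases h2.lt_or_gt with h2 | h2
    exacts [c n a b h1 h2 h3, (c n b a h1 h2 (by rwa [add_right_comm])).symm]
  exact ⟨fun x => f x.1, fun x => by rw [← e, hf _ _ x.2.1 x.2.2.1 x.2.2.2]; rfl⟩

omit [LinearOrder V] [Fintype V] in
theorem mem_BB {x : Ra G} (h : hh x = 0) : x ∈ BB G := congrArg Multiplicative.ofAdd h

def kk' (k : ℕ) (n : V → ℕ) : ℤ := (lv n : ℤ) - k

noncomputable def el (v0 : V) (k : ℕ) (n : V → ℕ) : BB G :=
  ⟨(gn G v0 ^ (k : ℤ))⁻¹ * emb G n * (gn G v0 ^ kk' k n)⁻¹,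
    mem_BB (by simp only [hh_mul, hh_inv, hh_zpow, hh_emb, kk', hh_gn]; ring)⟩

theorem el_ab {v0 : V} {k : ℕ} {n m : V → ℕ} (hn : lv n = k) (hm : lv m = k) {a b : BB G}
    (h : el v0 k n * a = el v0 k m * b) (v : V) :
    (n v : ℤ) + (abA (a : Ra G)).toAdd v = m v + (abA (b : Ra G)).toAdd v := by
  have := congrArg (fun x : BB G => (abA (x : Ra G)).toAdd v) h
  simpa [el, kk', hn, hm, abA_emb, add_assoc] using this

theorem exists_big (n : V → ℕ) [Nonempty V] : ∃ u, lv n ≤ Fintype.card V * n u ∧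
    ∀ v, n v ≤ n u := by
  obtain ⟨u, hu⟩ := Finite.exists_max n
  exact ⟨u, Finset.sum_le_card_nsmul _ _ _ fun v _ => hu v, hu⟩

omit [Fintype V] in
theorem pair_inj {u v u' v' : V} (h : u < v) (h' : u' < v') (e : ({u, v} : Finset V) = {u', v'}) :
    u = u' ∧ v = v' := by
  have a : ∀ x, x = u ∨ x = v ↔ x = u' ∨ x = v' := fun x => by simpa using Finset.ext_iff.1 e x
  have a1 := (a u).1 (.inl rfl)
  have a2 := (a v).1 (.inr rfl)
  have a3 := (a u').2 (.inl rfl)
  rcases a1 with a1 | a1 <;> rcases a2 with a2 | a2 <;> rcases a3 with a3 | a3 <;>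
    constructor <;> order

theorem map_pmap' {α β γ : Type*} {p : α → Prop} {f : ∀ a, p a → β} {g : β → γ} (h : α → γ)
    {l : List α} {H : ∀ a ∈ l, p a} (e : ∀ a ha, g (f a ha) = h a) :
    (l.pmap f H).map g = l.map h := by
  rw [List.map_pmap]; simp only [e, List.pmap_eq_map]

universe u1 u2 in
set_option maxHeartbeats 800000 in
theorem Acy.rigid (L : Acy G) {A : Type u1} {R : Type u2} (π : FreeGroup A →* BB G) (w : R → FreeGroup A)
    (sur : Function.Surjective π) (ker : π.ker = Subgroup.normalClosure (Set.range w))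
    (ind : LinearIndependent ℤ fun f : BB G × R => fox π f.1 (w f.2)) :
    ∃ ε : ℝ, 0 < ε ∧ ∃ k0 : ℕ, ∀ k ≥ k0, ∀ ρ : ET G k → S3, (∀ e, ‖(ρ e : ℍ) - 1‖ ≤ ε) →
      (∀ σ, ρ ((TSq G k).e1 σ) * ρ ((TSq G k).e2 σ) * (ρ ((TSq G k).e3 σ))⁻¹ *
        (ρ ((TSq G k).e4 σ))⁻¹ = 1) →
      ∃ γ : VT V k → S3, ∀ e, ρ e = γ ((TSq G k).src e) * (γ ((TSq G k).tgt e))⁻¹ := by
  classical
  have : Nonempty V := ⟨L.v0⟩
  have hw : ∀ r, π (w r) = 1 := fun r => show w r ∈ π.ker from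
    ker ▸ Subgroup.subset_normalClosure ⟨r, rfl⟩
  choose P hP using sur
  let p : ℤ → V → FreeGroup A := fun k v => P ⟨gn G L.v0 ^ k * gn G v * (gn G L.v0 ^ (k + 1))⁻¹,
    mem_BB (by simp)⟩
  have hp : ∀ k v, (π (p k v) : Ra G) = gn G L.v0 ^ k * gn G v * (gn G L.v0 ^ (k + 1))⁻¹ :=
    fun k v => by simp only [p, hP]
  clear_value p
  obtain ⟨ζ, ψ, hom⟩ := L.htp π w hw p hp
  obtain ⟨Dec, hDec⟩ := exists_dec w
  rw [← ker] at hDec
  let ω : V → V → FreeGroup A := fun u v => p 0 u * p 1 v * (p 1 u)⁻¹ * (p 0 v)⁻¹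
  have hω : ∀ u v, G.Adj u v → ω u v ∈ π.ker := fun u v ad => Subtype.ext (by
    simp only [ω, map_mul, map_inv, Subgroup.coe_mul, Subgroup.coe_inv, hp]
    simp [mul_assoc, ← mul_assoc (gn G u), gn_comm ad])
  let Zw : List (V × V) → FreeGroup A := fun l => (l.map fun x => p 0 x.1 * (p 0 x.2)⁻¹).prod
  let Cj : Set (FreeGroup A × R × Bool) := ⋃ u, ⋃ v, {d | d ∈ Dec (ω u v)}
  have fC : Cj.Finite := Set.finite_iUnion fun u => Set.finite_iUnion fun v => List.finite_toSet _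
  have mC : ∀ {u v d}, d ∈ Dec (ω u v) → d ∈ Cj := fun h =>
    Set.mem_iUnion.2 ⟨_, Set.mem_iUnion.2 ⟨_, h⟩⟩
  obtain ⟨D0, hD0⟩ := ((fC.prod (Set.finite_univ (α := V))).image
    fun x => ((abA (π x.1.1 : Ra G)).toAdd x.2).natAbs).bddAbove
  replace hD0 : ∀ d ∈ Cj, ∀ v, ((abA (π d.1 : Ra G)).toAdd v).natAbs ≤ D0 := fun d hd v =>
    hD0 ⟨(d, v), ⟨hd, trivial⟩, rfl⟩
  let c := Fintype.card V * (2 * D0)
  let W0 : Set (FreeGroup A) := Set.range (fun x : V × V => ω x.1 x.2) ∪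
    (fun x : (List (V × V) × List (V × V)) × _ × _ => Zw x.1.1 * (Zw x.1.2)⁻¹ * x.2.2.1 * x.2.1.1⁻¹)
      '' (({l | l.length ≤ c} ×ˢ {l | l.length ≤ c}) ×ˢ Cj ×ˢ Cj)
  have fW : W0.Finite := (Set.finite_range _).union ((((List.finite_length_le _ c).prod
    (List.finite_length_le _ c)).prod (fC.prod fC)).image _)
  obtain ⟨C1, hC1⟩ := (fW.image fun x => (Dec x).length).bddAbove
  replace hC1 : ∀ x ∈ W0, (Dec x).length ≤ C1 := fun x hx => hC1 ⟨x, hx, rfl⟩
  choose bn hbn using act_bound (G := G)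
  obtain ⟨C2, hC2⟩ := (((Set.finite_Icc (0 : ℤ) 1).prod (Set.finite_univ (α := V))).image
    fun x => bn (ζ x.1 x.2)).bddAbove
  replace hC2 : ∀ k v, 0 ≤ k → k ≤ 1 → bn (ζ k v) ≤ C2 := fun k v a b =>
    hC2 ⟨(k, v), ⟨⟨a, b⟩, trivial⟩, rfl⟩
  obtain ⟨C3, hC3⟩ := (fC.image fun d => bn (ψ d.2.1)).bddAbove
  replace hC3 : ∀ d ∈ Cj, bn (ψ d.2.1) ≤ C3 := fun d hd => hC3 ⟨d, hd, rfl⟩
  obtain ⟨ε, ε0, hε⟩ := core.{u1, u2} (C1 + C2 + C3 + 4 * c)
  refine ⟨ε, ε0, Fintype.card V * (2 * D0) + 1, fun k hk => ?_⟩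
  let T := TSq G k
  let x : (V → ℕ) → BB G := el L.v0 k
  have xa : ∀ n v, Cl G (n + ee v) → x (n + ee v) = x n * π (p (kk' k n) v) := fun n v h =>
    Subtype.ext (by
      have : kk' k (n + ee v) = kk' k n + 1 := by simp [kk']; ring
      simp [x, el, hp, emb_add h, this, mul_assoc])
  have k0 : ∀ n : V → ℕ, lv n = k → kk' k n = 0 := fun n h => by simp [kk', h]
  have k1 : ∀ (n : V → ℕ) v, lv n = k → kk' k (n + ee v) = 1 := fun n v h => by simp [kk', h]
  let W : Set (FreeGroup A) := W0 ∪ Set.range fun e : ET G k =>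
    p (kk' k e.1.1) e.1.2 * (P (x (e.1.1 + ee e.1.2)))⁻¹ * P (x e.1.1)
  let S : Set (BB G × R) := ⋃ n : VT V k, ⋃ y ∈ W, (fun d => (x n.1 * π d.1, d.2.1)) '' {d | d ∈ Dec y}
  have : Finite S := (Set.finite_iUnion fun n => (fW.union (Set.finite_range _)).biUnion
    fun y _ => (List.finite_toSet _).image _).to_subtype
  have mS : ∀ (n : VT V k), ∀ y ∈ W, ∀ d ∈ Dec y, (x n.1 * π d.1, d.2.1) ∈ S := fun n y hy d hd =>
    Set.mem_iUnion.2 ⟨n, Set.mem_biUnion hy ⟨d, hd, rfl⟩⟩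
  have near : ∀ (b : BB G × A → S3) (δ : ℝ), 0 ≤ δ →
      (∀ f : S, ‖(FreeGroup.lift b (lam π f.1.1 (w f.1.2)) : ℍ) - 1‖ ≤ δ) → ∀ (n : VT V k),
      ∀ y ∈ W, y ∈ π.ker → ‖(FreeGroup.lift b (lam π (x n.1) y) : ℍ) - 1‖ ≤ (Dec y).length * δ :=
    fun b δ h0 h n y hy hy' => by
      conv_lhs => rw [← hDec y hy']
      exact lam_est hw _ _ b h0 fun d hd => h ⟨_, mS n y hy d hd⟩
  have := Fintype.ofFinite (FT G k)
  let ι : FT G k → Ra G × Finset V := fun s => (x s.1.1, {s.1.2.1, s.1.2.2})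
  have hι : Function.Injective ι := by
    rintro ⟨⟨n, u, v⟩, h1, h2, h7⟩ ⟨⟨m, u', v'⟩, h3, h4, h8⟩ h
    obtain ⟨h5, h6⟩ := Prod.ext_iff.1 h
    obtain rfl : n = m := funext fun z => by
      simpa using el_ab h1 h3 (a := 1) (b := 1) (by simpa using Subtype.ext h5) z
    obtain ⟨rfl, rfl⟩ := pair_inj h2 h4 h6
    rfl
  have mW : ∀ u v, ω u v ∈ W0 := fun u v => .inl ⟨(u, v), rfl⟩
  let D : Dat (C1 + C2 + C3 + 4 * c) (BB G × A) S (VT V k) (ET G k) (FT G k) :=
    { T with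
      wF := fun f => lam π f.1.1 (w f.1.2)
      wE := fun e => lam π (x e.1.1) (p (kk' k e.1.1) e.1.2)
      dec := fun s => (Dec (ω s.1.2.1 s.1.2.2)).pmap (fun d hd => (lam π (x s.1.1) d.1,
        ⟨(x s.1.1 * π d.1, d.2.1), hd⟩, d.2.2)) (mS (T.src (T.e1 s)) _ (.inl (mW _ _)))
      η := fun e τ => act (x e.1.1) (ζ (kk' k e.1.1) e.1.2) (ι τ)
      ψ := fun f τ => act f.1.1 (ψ f.1.2) (ι τ)
      idt := by
        rintro ⟨⟨n, u, v⟩, h1, h2, h3⟩
        have h4 : Cl G (n + ee v + ee u) := by rwa [add_right_comm]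
        have := hω u v (h3.adj h2.ne)
        rw [map_pmap' (fun d => lam π (x n) d.1 * pw (lam π (x n * π d.1) (w d.2.1)) d.2.2 *
          (lam π (x n) d.1)⁻¹) fun _ _ => rfl, ← lam_list hw, hDec _ this]
        simp only [T, TSq, xa n u h3.left, xa n v h4.left, k0 n h1, k1 n _ h1, ω] at this ⊢
        rw [mul_assoc (_ * _) _ (p 0 v)⁻¹, ← mul_inv_rev] at this ⊢
        rw [lam_div π (h' := x n) (by
          rw [MonoidHom.mem_ker, map_mul, map_inv, mul_inv_eq_one] at this; rw [this])]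
        simp [lam_mul, mul_assoc]
      len := fun s => by
        rw [List.length_pmap]
        linarith [hC1 _ (mW s.1.2.1 s.1.2.2)]
      bη := fun e => (hbn _ _ ι hι).trans (by
        have := hC2 (kk' k e.1.1) e.1.2 (by have := e.2.1; simp [kk']; omega)
          (by have := e.2.2.1; simp [kk']; omega)
        omega)
      bψ := fun s d hd0 => by
        obtain ⟨d, hd, rfl⟩ := List.mem_pmap.1 hd0
        exact (hbn _ _ ι hι).trans (by have := hC3 d (mC hd); simp only; omega)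
      inv := by
        rintro ⟨⟨n, u, v⟩, h1, h2, h3⟩ τ
        have h4 : Cl G (n + ee v + ee u) := by rwa [add_right_comm]
        have := congrArg (· (ι τ)) (hom (x n) u v h2 (h3.adj h2.ne) _
          (hDec _ (hω u v (h3.adj h2.ne))))
        rw [map_pmap' (fun d => sg d.2.2 * act (x n * π d.1 : BB G) (ψ d.2.1) (ι τ)) fun _ _ => rfl]
        simp only [T, TSq, Sq.cob, xa n u h3.left,
          xa n v h4.left, k0 n h1, k1 n _ h1]
        have e : ∀ l : List (Ch G), l.sum (ι τ) = (l.map (· (ι τ))).sum := fun l =>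
          map_list_sum (applyAddHom (ι τ)) l
        simp only [Finsupp.add_apply, Finsupp.sub_apply, e, List.map_map] at this
        refine this.trans ?_
        rw [single_apply]
        exact if_congr ((hι.eq_iff (a := ⟨⟨n, u, v⟩, h1, h2, h3⟩)).trans eq_comm) rfl rfl
      frame := by
        rintro b g δ h0 hF hE ⟨⟨n, u, v⟩, h1, h2, h3⟩ ⟨⟨n', u', v'⟩, h1', h2', h3'⟩ d hd0 d' hd1 e
        obtain ⟨d, hd, rfl⟩ := List.mem_pmap.1 hd0
        obtain ⟨d', hd', rfl⟩ := List.mem_pmap.1 hd1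
        clear hd0 hd1
        simp only at h1 h2 h3 h1' h2' h3' hd hd'
        replace e : x n * π d.1 = x n' * π d'.1 := congrArg (·.1.1) e
        have df : ∀ z, n z ≤ n' z + 2 * D0 ∧ n' z ≤ n z + 2 * D0 := fun z => by
          have := el_ab h1 h1' e z
          have := hD0 d (mC hd) z
          have := hD0 d' (mC hd') z
          omega
        obtain ⟨a, ha, -⟩ := exists_big n
        have a1 : 2 * D0 < n a := lt_of_mul_lt_mul_left (a := Fintype.card V)
          (by omega) (Nat.zero_le _)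
        obtain ⟨j, hj⟩ := exists_add_of_le (show lv (n ⊓ n') ≤ lv n from
          Finset.sum_le_sum fun z _ => inf_le_left)
        have jc : j ≤ c := by
          have : lv n ≤ lv (n ⊓ n' + fun _ => 2 * D0) := Finset.sum_le_sum fun z _ => by
            have := df z
            simp only [Pi.add_apply, Pi.inf_apply]; omega
          rw [lv_add] at this
          simp only [lv, Finset.sum_const, smul_eq_mul, Finset.card_univ] at this hj
          omega
        let g' : (V → ℕ) → S3 := fun m => if h : lv m ≤ k + 2 then g ⟨m, h⟩ else 1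
        have gg : ∀ m : VT V k, g m = g' m.1 := fun m => by simp only [g', dif_pos m.2]
        have zz := zig (G := G) (k := k) (u := a) (fun c n m => ∃ l, l.length = c ∧
          x n * π (Zw l) = x m ∧ ‖((g' n * FreeGroup.lift b (lam π (x n) (Zw l)) * (g' m)⁻¹ : S3) : ℍ)
            - 1‖ ≤ 2 * c * δ) (fun n => ⟨[], rfl, by simp [Zw], by simp [Zw]⟩) (by
            rintro c n z n' m a1 a2 a3 ⟨l, rfl, a4, a5⟩
            have a6 : lv n' = k := by have := congrArg lv a3; simp at this; omega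
            have a7 := xa n a a2
            rw [a3, xa n' z (a3 ▸ a2), k0 _ a1, k0 _ a6] at a7
            have a8 : x n * π (p 0 a * (p 0 z)⁻¹) = x n' := by
              rw [map_mul, ← mul_assoc, ← a7]; simp
            have b1 := hE ⟨(n, a), a1.ge, by simp [a1], a2⟩
            have b2 := hE ⟨(n', z), a6.ge, by simp [a6], a3 ▸ a2⟩
            simp only [T, TSq, gg, k0 _ a1, k0 _ a6, a3] at b1 b2
            rw [← S3.inv_one] at b2
            refine ⟨(a, z) :: l, rfl, by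
              simp only [Zw, List.map_cons, List.prod_cons] at a4 ⊢
              rw [map_mul, ← mul_assoc, a8, a4], ?_⟩
            have b3 := (S3.mul_one_le _ _).trans
              (add_le_add ((S3.mul_one_le _ _).trans (add_le_add b1 b2)) a5)
            simp only [Zw, List.map_cons, List.prod_cons] at b3 ⊢
            rw [lam_mul, a8, lam_div π a7.symm]
            refine le_trans (le_of_eq (congrArg (fun q : S3 => ‖(q : ℍ) - 1‖) ?_))
              (b3.trans (le_of_eq ?_))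
            · simp [mul_assoc]
            · simp; ring) j
        obtain ⟨l1, p1, p2, p3⟩ := zz n _ h1 (h3.left.left.add (by omega)) inf_le_left hj
        obtain ⟨l2, q1, q2, q3⟩ := zz n' _ h1' (h3'.left.left.add (by have := df a; omega))
          inf_le_right (h1'.trans (h1.symm.trans hj))
        have m0 : Zw l1 * (Zw l2)⁻¹ * d'.1 * d.1⁻¹ ∈ W0 := .inr ⟨((l1, l2), d, d'),
          ⟨⟨p1.le.trans jc, q1.le.trans jc⟩, mC hd, mC hd'⟩, rfl⟩
        have r1 : x n * π (Zw l1 * (Zw l2)⁻¹) = x n' := by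
          rw [map_mul, ← mul_assoc, p2, ← q2]; simp
        have r2 : x n * π (Zw l1 * (Zw l2)⁻¹ * d'.1) = x n * π d.1 := by
          rw [map_mul, ← mul_assoc, r1, e]
        have r3 := near b δ h0 hF (T.src (T.e1 ⟨⟨n, u, v⟩, h1, h2, h3⟩)) _ (.inl m0) (by
          rw [MonoidHom.mem_ker, map_mul, map_inv, mul_left_cancel r2, mul_inv_cancel])
        simp only [T, TSq, gg] at r3 ⊢
        rw [lam_div π r2, lam_mul, r1, lam_div π (p2.trans q2.symm), ← S3.conj_one (g' n)] at r3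
        rw [← S3.inv_one] at p3
        have r4 := (S3.mul_one_le _ _).trans
          (add_le_add ((S3.mul_one_le _ _).trans (add_le_add q3 p3)) r3)
        rw [norm_sub_rev, S3.sub_eq]
        have r5 : (j : ℝ) ≤ c := by exact_mod_cast jc
        have r6 : ((Dec (Zw l1 * (Zw l2)⁻¹ * d'.1 * d.1⁻¹)).length : ℝ) ≤ C1 := by
          exact_mod_cast hC1 _ m0
        refine le_trans (le_of_eq (congrArg (fun q : S3 => ‖(q : ℍ) - 1‖) ?_)) (r4.trans ?_)
        · simp [mul_assoc]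
        · push_cast
          nlinarith [mul_le_mul_of_nonneg_right r5 h0, mul_le_mul_of_nonneg_right r6 h0,
            mul_nonneg (Nat.cast_nonneg C2) h0, mul_nonneg (Nat.cast_nonneg C3) h0] }
  have : Nonempty (VT V k) := ⟨⟨0, by simp [lv]⟩⟩
  refine hε D (ind.comp (Subtype.val : S → _) Subtype.val_injective) (L.TSq_h1 k) fun b hb => ?_
  refine ⟨fun n => FreeGroup.lift b (lam π 1 (P (x n.1))), fun e => ?_⟩
  have h1 : x e.1.1 * π (p (kk' k e.1.1) e.1.2) = 1 * π (P (x (e.1.1 + ee e.1.2))) := by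
    rw [one_mul, hP, xa _ _ e.2.2.2]
  have h2 : x e.1.1 * π (p (kk' k e.1.1) e.1.2 * (P (x (e.1.1 + ee e.1.2)))⁻¹) = 1 := by
    rw [map_mul, ← mul_assoc, h1]; simp
  have := near b 0 le_rfl (fun f => by simpa [Dat.F, D, sub_eq_zero] using congrArg S3.v (hb f))
    (T.src e) _ (.inr ⟨e, rfl⟩) (by
      rw [MonoidHom.mem_ker, map_mul, hP, mul_eq_one_comm]; exact h2)
  simp only [T, TSq] at this
  rw [lam_mul, h2, lam_div π h1, mul_zero, norm_le_zero_iff, sub_eq_zero, map_mul, map_mul,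
    map_inv] at this
  have := mul_eq_one_comm.1 (S3.ext this)
  rw [← mul_assoc, mul_inv_eq_one] at this
  exact eq_inv_mul_of_mul_eq this

end Vale.Agent.P173
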