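import Vale.Agent.P173.Deg

/-! The degree of a word map on powers of the group of unit quaternions. -/

namespace Vale.Agent.P173

open Set Filter Topology Quaternion

section Gen

variable {E : Type} [NormedAddCommGroup E] [NormedSpace ℝ E] [FiniteDimensional ℝ E]

noncomputable def eqv (E : Type) [NormedAddCommGroup E] [NormedSpace ℝ E] [FiniteDimensional ℝ E] :
    E ≃L[ℝ] (Fin (Module.finrank ℝ E) → ℝ) := (Module.finBasis ℝ E).equivFunL

noncomputable def deg (f : E → E) (Ω : Set E) : ℝ :=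
  dg0 (fun x => eqv E (f ((eqv E).symm x))) ((eqv E).symm ⁻¹' Ω)

instance [Nontrivial E] : Nonempty (Fin (Module.finrank ℝ E)) := ⟨⟨0, Module.finrank_pos⟩⟩

variable [Nontrivial E] {f g : E → E} {Ω : Set E}

omit [Nontrivial E] in
theorem tr_cont (h : ContinuousOn f Ω) :
    ContinuousOn (fun x => eqv E (f ((eqv E).symm x))) ((eqv E).symm ⁻¹' Ω) :=
  (eqv E).continuous.comp_continuousOn (h.comp (eqv E).symm.continuous.continuousOn fun _ h => h)

theorem deg_add {Ω1 Ω2 : Set E} (h : Adm f Ω) (o1 : IsOpen Ω1) (o2 : IsOpen Ω2)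
    (s1 : Ω1 ⊆ Ω) (s2 : Ω2 ⊆ Ω) (d : Disjoint Ω1 Ω2) (hz : ∀ x ∈ Ω, f x = 0 → x ∈ Ω1 ∪ Ω2) :
    deg f Ω = deg f Ω1 + deg f Ω2 :=
  dg0_add ⟨h.op.preimage (eqv E).symm.continuous, tr_cont h.cont, by
    have := (eqv E).symm.toHomeomorph.isCompact_preimage.2 h.cpt
    refine (congrArg IsCompact (Set.ext fun x => ?_)).mpr this
    simp⟩ (o1.preimage (eqv E).symm.continuous) (o2.preimage (eqv E).symm.continuous)
    (preimage_mono s1) (preimage_mono s2) (d.preimage _) fun x hx e => hz _ hx (by simpa using e)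

theorem deg_zero (hf : ContinuousOn f Ω) (h : ∀ x ∈ Ω, f x ≠ 0) : deg f Ω = 0 :=
  dg0_zero (tr_cont hf) fun x hx => by simpa using h _ hx

theorem deg_exc {Ω1 : Set E} (h : Adm f Ω) (o1 : IsOpen Ω1) (s1 : Ω1 ⊆ Ω)
    (hz : ∀ x ∈ Ω, f x = 0 → x ∈ Ω1) : deg f Ω = deg f Ω1 := by
  rw [deg_add h o1 isOpen_empty s1 (empty_subset _) (disjoint_empty _) (by simpa using hz),
    deg_zero (Ω := ∅) (continuousOn_empty _) (by simp), add_zero]

theorem deg_id {y : E} (o : IsOpen Ω) (hy : y ∈ Ω) : 0 < deg (fun x => x - y) Ω := by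
  have := dg0_id (y := eqv E y) (o.preimage (eqv E).symm.continuous) (by simpa using hy)
  simpa [deg] using this

theorem cpt_of {X Y : Type} [TopologicalSpace X] [T2Space X] [TopologicalSpace Y] [T1Space Y]
    [Zero Y] {K W : Set X} {F : X → Y} (hK : IsCompact K) (hW : K ⊆ W) (hF : ContinuousOn F K)
    (hz : ∀ x ∈ W, F x = 0 → x ∈ K) : IsCompact {x ∈ W | F x = 0} := by
  have := hK.of_isClosed_subset (hF.preimage_isClosed_of_isClosed hK.isClosed
    (isClosed_singleton (x := 0))) inter_subset_left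
  refine (congrArg IsCompact (Set.ext fun x => ?_)).mpr this
  exact ⟨fun h => ⟨hz x h.1 h.2, h.2⟩, fun h => ⟨hW h.1, h.2⟩⟩

theorem deg_homot {F : ℝ × E → E} {K : Set E} (o : IsOpen Ω)
    (hF : ContinuousOn F (Icc 0 1 ×ˢ Ω)) (hK : IsCompact K) (hK' : K ⊆ Ω)
    (hz : ∀ t ∈ Icc (0 : ℝ) 1, ∀ x ∈ Ω, F (t, x) = 0 → x ∈ K) :
    deg (fun x => F (0, x)) Ω = deg (fun x => F (1, x)) Ω := by
  have c : ContinuousOn (fun z : ℝ × (Fin (Module.finrank ℝ E) → ℝ) =>
      eqv E (F (projIcc 0 1 zero_le_one z.1, (eqv E).symm z.2))) {z | (eqv E).symm z.2 ∈ Ω} :=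
    (eqv E).continuous.comp_continuousOn (hF.comp (by fun_prop)
      fun z h => ⟨(projIcc 0 1 zero_le_one z.1).2, h⟩)
  have := dg0_homot (o.preimage (by fun_prop)) c (by
    have := cpt_of (W := {z | (eqv E).symm z.2 ∈ Ω ∧ z.1 ∈ Icc (0 : ℝ) 1})
      (isCompact_Icc.prod ((eqv E).symm.toHomeomorph.isCompact_preimage.2 hK))
      (fun z hz => ⟨hK' hz.2, hz.1⟩) (c.mono fun z hz => hK' hz.2) fun z h e =>
        ⟨h.2, hz _ (projIcc 0 1 zero_le_one z.1).2 _ h.1 (by simpa using e)⟩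
    simpa only [mem_setOf_eq, and_assoc, mem_preimage] using this)
  simpa [deg, preimage] using this

theorem deg_congr (h : Adm f Ω) (e : ∀ x ∈ Ω, f x = g x) : deg f Ω = deg g Ω := by
  have := deg_homot (F := fun z => f z.2 + z.1 • (g z.2 - f z.2)) h.op
    ((h.cont.comp continuousOn_snd fun _ h => h.2).congr fun z hz => by simp [e _ hz.2])
    h.cpt (sep_subset _ _) fun t _ x hx e' => ⟨hx, by simpa [e x hx] using e'⟩
  simpa using this

end Gen

def S3 : Type := Metric.sphere (0 : ℍ) 1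

noncomputable instance : Group S3 := Metric.unitSphere.instGroup
noncomputable instance : TopologicalSpace S3 := instTopologicalSpaceSubtype
noncomputable instance : HasDistribNeg S3 := Metric.sphere.instHasDistribNeg
instance : IsTopologicalGroup S3 := Metric.sphere.instIsTopologicalGroup
instance : ContinuousNeg S3 := ⟨Continuous.subtype_mk continuous_subtype_val.neg _⟩

@[coe] def S3.v (q : S3) : ℍ := q.1
instance : Coe S3 ℍ := ⟨S3.v⟩

@[simp] theorem S3.nrm (q : S3) : ‖(q : ℍ)‖ = 1 := mem_sphere_zero_iff_norm.1 q.2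
@[simp] theorem S3.v_mul (p q : S3) : ((p * q : S3) : ℍ) = p * q := rfl
@[simp] theorem S3.v_one : ((1 : S3) : ℍ) = 1 := rfl
@[simp] theorem S3.v_neg (p : S3) : ((-p : S3) : ℍ) = -p := rfl
@[ext] theorem S3.ext {p q : S3} (h : (p : ℍ) = q) : p = q := Subtype.ext h
@[fun_prop] theorem S3.cont : Continuous S3.v := continuous_subtype_val
theorem S3.normSq (q : S3) : normSq (q : ℍ) = 1 := by simp [normSq_eq_norm_mul_self]
@[simp] theorem S3.v_inv (p : S3) : ((p⁻¹ : S3) : ℍ) = star (p : ℍ) := by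
  change (p : ℍ)⁻¹ = _
  rw [Quaternion.inv_def, S3.normSq]; simp

def S3.mk (q : ℍ) (h : ‖q‖ = 1) : S3 := ⟨q, mem_sphere_zero_iff_norm.2 h⟩

@[simp] theorem S3.v_mk (q : ℍ) (h : ‖q‖ = 1) : (S3.mk q h : ℍ) = q := rfl

open Classical in
noncomputable def nz (q : ℍ) : S3 :=
  if h : q = 0 then 1 else S3.mk (‖q‖⁻¹ • q) (by simp [norm_smul, h])

theorem nz_coe {q : ℍ} (h : q ≠ 0) : (nz q : ℍ) = ‖q‖⁻¹ • q := by
  rw [nz, dif_neg h]; rfl

theorem nz_smul {r : ℝ} (hr : 0 < r) (q : S3) : nz (r • (q : ℍ)) = q := by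
  have : (q : ℍ) ≠ 0 := norm_pos_iff.1 (by simp)
  ext1
  rw [nz_coe (smul_ne_zero hr.ne' this), norm_smul, S3.nrm, smul_smul]
  simp [abs_of_pos hr, hr.ne']

theorem nz_S3 (q : S3) : nz q = q := by simpa using nz_smul one_pos q

theorem smul_nz (q : ℍ) : ‖q‖ • (nz q : ℍ) = q := by
  by_cases h : q = 0
  · simp [h]
  · rw [nz_coe h, smul_smul]; simp [h]

theorem nz_cd {q : ℍ} (h : q ≠ 0) : ContDiffAt ℝ 1 (fun q => (nz q : ℍ)) q := by
  refine (((contDiffAt_norm ℝ h).inv (by simpa using h)).smul contDiffAt_id).congr_of_eventuallyEq ?_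
  filter_upwards [isOpen_ne.mem_nhds h] with y hy using nz_coe hy

theorem nz_cont {q : ℍ} (h : q ≠ 0) : ContinuousAt nz q :=
  continuousAt_subtype_val_iff (nz_cd h).continuousAt
  where continuousAt_subtype_val_iff : ContinuousAt (fun q => (nz q : ℍ)) q → ContinuousAt nz q :=
    fun h => Topology.IsInducing.subtypeVal.continuousAt_iff.2 h

variable {ι : Type} [Fintype ι] [DecidableEq ι] [Nonempty ι]

def Om (ι : Type) : Set (ι → ℍ) := {x | ∀ a, x a ≠ 0}

def Sp (ι : Type) : Set (ι → ℍ) := {x | ∀ a, ‖x a‖ = 1}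

omit [DecidableEq ι] [Nonempty ι] in
theorem Om_open : IsOpen (Om ι) := by
  simp only [Om, setOf_forall]
  exact isOpen_iInter_of_finite fun a => isOpen_ne.preimage (continuous_apply a)

omit [DecidableEq ι] [Nonempty ι] [Fintype ι] in
theorem Sp_cpt : IsCompact (Sp ι) := by
  have := isCompact_univ_pi fun _ : ι => isCompact_sphere (0 : ℍ) 1
  simpa [Sp, Set.pi] using this

omit [DecidableEq ι] [Nonempty ι] [Fintype ι] in
theorem Sp_sub : Sp ι ⊆ Om ι := fun x hx a e => by simpa [e] using hx a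

noncomputable def FF (h : ι → (ι → ℍ) → S3) (x : ι → ℍ) (a : ι) : ℍ := ‖x a‖ • (h a x : ℍ) - 1

omit [DecidableEq ι] [Nonempty ι] [Fintype ι] in
theorem FF_zero {h : ι → (ι → ℍ) → S3} {x} : FF h x = 0 ↔ x ∈ Sp ι ∧ ∀ a, h a x = 1 := by
  constructor
  · intro e
    have e1 : ∀ a, ‖x a‖ • (h a x : ℍ) = 1 := fun a => sub_eq_zero.1 (congrFun e a)
    have e2 : x ∈ Sp ι := fun a => by simpa [norm_smul] using congrArg norm (e1 a)
    exact ⟨e2, fun a => S3.ext (by simpa [e2 a] using e1 a)⟩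
  · rintro ⟨h1, h2⟩
    ext1 a
    simp [FF, h1 a, h2 a]

omit [DecidableEq ι] [Nonempty ι] [Fintype ι] in
theorem FF_adm [Fintype ι] {h : ι → (ι → ℍ) → S3} (hc : ∀ a, ContinuousOn (h a) (Om ι)) :
    Adm (FF h) (Om ι) := by
  have c : ContinuousOn (FF h) (Om ι) := continuousOn_pi.2 fun a =>
    (((continuous_apply a).norm.continuousOn).smul
      (S3.cont.comp_continuousOn (hc a))).sub continuousOn_const
  exact ⟨Om_open, c, cpt_of Sp_cpt Sp_sub (c.mono Sp_sub) fun x _ e => (FF_zero.1 e).1⟩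

noncomputable def DD (h : ι → (ι → ℍ) → S3) : ℝ := deg (FF h) (Om ι)

omit [DecidableEq ι] in
theorem DD_homot {H : ι → ℝ × (ι → ℍ) → S3} (hc : ∀ a, ContinuousOn (H a) (Icc 0 1 ×ˢ Om ι)) :
    DD (fun a x => H a (0, x)) = DD fun a x => H a (1, x) :=
  deg_homot (F := fun z => FF (fun a x => H a (z.1, x)) z.2) Om_open (continuousOn_pi.2 fun a =>
    ((((continuous_apply a).comp continuous_snd).norm.continuousOn).smul
      (S3.cont.comp_continuousOn (hc a))).sub continuousOn_const) Sp_cpt Sp_sub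
    fun _ _ _ _ e => (FF_zero.1 e).1

theorem S3_path (c : S3) : ∃ γ : ℝ → S3, Continuous γ ∧ γ 0 = 1 ∧ γ 1 = c := by
  have : PathConnectedSpace S3 := isPathConnected_iff_pathConnectedSpace.1
    (isPathConnected_sphere (by rw [Quaternion.rank_eq_four]; norm_num) 0 zero_le_one)
  let p := PathConnectedSpace.somePath 1 c
  exact ⟨p.extend, p.continuous_extend, p.extend_zero, p.extend_one⟩

omit [DecidableEq ι] in
theorem DD_mul {h : ι → (ι → ℍ) → S3} (hc : ∀ a, ContinuousOn (h a) (Om ι)) (l r : ι → S3) :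
    DD (fun a x => l a * h a x * r a) = DD h := by
  choose γ γ1 γ2 γ3 using S3_path
  have := DD_homot (H := fun a z => γ (l a) z.1 * h a z.2 * γ (r a) z.1) fun a =>
    (((γ1 _).comp continuous_fst).continuousOn.mul
      ((hc a).comp continuousOn_snd fun _ h => h.2)).mul
      ((γ1 _).comp continuous_fst).continuousOn
  simpa [γ2, γ3] using this.symm

noncomputable def kk (η s : ℝ) (q : ℍ) : ℍ :=
  (1 - s) • q + s • ((q.re + 1 - η / 2) • (1 : ℍ) + max 0 (-1 + η - q.re) • q.im)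

theorem kk_ne {η s : ℝ} (h : 0 < η) (h' : η < 1) (hs : s ∈ Icc (0 : ℝ) 1) (q : S3) :
    kk η s q ≠ 0 := by
  intro e
  obtain ⟨s0, s1⟩ := hs
  have e1 : (1 - s) * (q : ℍ).re + s * ((q : ℍ).re + 1 - η / 2) = 0 := by
    simpa [kk] using congrArg QuaternionAlgebra.re e
  have e2 : (1 - s + s * max 0 (-1 + η - (q : ℍ).re)) • (q : ℍ).im = 0 := by
    have : (kk η s q).im = 0 := by rw [e]; rfl
    rw [← this]
    ext <;> simp [kk] <;> ring
  rcases smul_eq_zero.1 e2 with e3 | e3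
  · have m := le_max_left 0 (-1 + η - (q : ℍ).re)
    have m' := le_max_right 0 (-1 + η - (q : ℍ).re)
    have : s = 1 := by nlinarith
    subst this
    linarith
  · have n := q.nrm
    rw [← Quaternion.re_add_im (q : ℍ), e3, add_zero, norm_coe, Real.norm_eq_abs,
      abs_eq zero_le_one] at n
    rcases n with n | n <;> rw [n] at e1 <;> nlinarith

theorem kk_one {η : ℝ} (h : 0 < η) {q : ℍ} (hq : -1 + η < q.re) : nz (kk η 1 q) = 1 := by
  have := nz_smul (r := q.re + 1 - η / 2) (by linarith) 1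
  rw [← this, kk, max_eq_left (by linarith)]
  congr 1
  ext <;> simp

omit [Fintype ι] [Nonempty ι] in
theorem upd_cont {X : Type} [TopologicalSpace X] {s : Set X} {h : ι → X → S3} {f : X → S3} {a0 : ι}
    (hc : ∀ a, ContinuousOn (h a) s) (hf : ContinuousOn f s) (a : ι) :
    ContinuousOn (Function.update h a0 f a) s := by
  by_cases e : a = a0
  · subst e; simpa using hf
  · simpa [e] using hc a

theorem DD_upd {h : ι → (ι → ℍ) → S3} (hc : ∀ a, ContinuousOn (h a) (Om ι)) (a0 : ι)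
    {H : ℝ × (ι → ℍ) → S3} (hH : ContinuousOn H (Icc 0 1 ×ˢ Om ι)) :
    DD (Function.update h a0 fun x => H (0, x)) = DD (Function.update h a0 fun x => H (1, x)) := by
  have := DD_homot (upd_cont (a0 := a0) (h := fun a (z : ℝ × (ι → ℍ)) => h a z.2)
    (fun a => (hc a).comp continuousOn_snd fun _ h => h.2) hH)
  have e : ∀ t : ℝ, (fun a x => Function.update (fun a (z : ℝ × (ι → ℍ)) => h a z.2) a0 H a (t, x)) =
      Function.update h a0 fun x => H (t, x) := fun t => by
    ext1 a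
    by_cases e : a = a0
    · subst e; simp
    · simp [e]
  rwa [e, e] at this

theorem DD_neg {h : ι → (ι → ℍ) → S3} (hc : ∀ a, ContinuousOn (h a) (Om ι)) (a0 : ι)
    {f : (ι → ℍ) → S3} (hf : ContinuousOn f (Om ι)) :
    DD (Function.update h a0 fun x => -f x) = DD (Function.update h a0 f) := by
  rw [← DD_mul (upd_cont hc hf) (Function.update 1 a0 (-1)) 1]
  congr 1
  ext1 a
  by_cases e : a = a0
  · subst e; simp
  · simp [e]

theorem DD_add0 {h : ι → (ι → ℍ) → S3} (hc : ∀ a, ContinuousOn (h a) (Om ι)) (a0 : ι)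
    {f g : (ι → ℍ) → S3} (hf : ContinuousOn f (Om ι)) (hg : ContinuousOn g (Om ι))
    (H : ∀ x ∈ Sp ι, (∀ a ≠ a0, h a x = 1) → f x = -1 → g x ≠ -1) :
    DD (Function.update h a0 fun x => f x * g x) =
      DD (Function.update h a0 f) + DD (Function.update h a0 g) := by
  have re1 : ∀ q : S3, q ≠ -1 → -1 < (q : ℍ).re := fun q hq => by
    by_contra e
    have n := q.nrm
    have n2 := normSq_eq_norm_mul_self (q : ℍ)
    rw [n, normSq_def'] at n2
    refine hq (S3.ext ?_)
    ext <;> simp <;> nlinarith [sq_nonneg (q : ℍ).imI, sq_nonneg (q : ℍ).imJ, sq_nonneg (q : ℍ).imK]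
  have rc : ∀ {f : (ι → ℍ) → S3}, ContinuousOn f (Om ι) →
      ContinuousOn (fun x => (f x : ℍ).re) (Om ι) := fun hf =>
    (continuous_re.comp S3.cont).comp_continuousOn hf
  have ad := FF_adm (upd_cont (a0 := a0) hc (continuousOn_const (c := 1)))
  obtain ⟨η0, h0, hη0⟩ := ad.cpt.exists_forall_le' (a := (-1 : ℝ))
    (f := fun x => max (f x : ℍ).re (g x : ℍ).re) (((rc hf).sup (rc hg)).mono (sep_subset _ _)) fun x hx => by
      obtain ⟨h1, h2⟩ := FF_zero.1 hx.2
      by_cases e : f x = -1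
      · exact lt_max_of_lt_right (re1 _ (H x h1 (fun a ha => by simpa [ha] using h2 a) e))
      · exact lt_max_of_lt_left (re1 _ e)
  obtain ⟨η, η1, η2, η3⟩ : ∃ η : ℝ, 0 < η ∧ η < 1 ∧ -1 + η < η0 :=
    ⟨min (1 / 2) ((η0 + 1) / 2), by simp; linarith, by simp; norm_num, by
      linarith [min_le_right (1 / 2) ((η0 + 1) / 2)]⟩
  have cov : ∀ x ∈ Sp ι, (∀ a ≠ a0, h a x = 1) → -1 + η < (f x : ℍ).re ∨ -1 + η < (g x : ℍ).re :=
    fun x h1 h2 => lt_max_iff.1 (η3.trans_le (hη0 x ⟨Sp_sub h1, FF_zero.2 ⟨h1, fun a => by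
      by_cases e : a = a0
      · subst e; simp
      · simp [e, h2 a e]⟩⟩))
  have kc : ∀ {f : (ι → ℍ) → S3}, ContinuousOn f (Om ι) →
      ContinuousOn (fun z : ℝ × (ι → ℍ) => nz (kk η z.1 (f z.2))) (Icc 0 1 ×ˢ Om ι) :=
    fun {f} hf z hz => ContinuousAt.comp_continuousWithinAt (g := nz)
      (f := fun z : ℝ × (ι → ℍ) => kk η z.1 (f z.2)) (nz_cont (kk_ne η1 η2 hz.1 _)) (by
      have : Continuous fun z : ℝ × S3 => kk η z.1 z.2 := by
        have c1 : Continuous fun z : ℝ × S3 => (z.2 : ℍ) := by fun_prop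
        have c2 := continuous_re.comp c1
        have c3 := continuous_im.comp c1
        exact ((continuous_const.sub continuous_fst).smul c1).add (continuous_fst.smul
          ((((c2.add continuous_const).sub continuous_const).smul continuous_const).add
          ((continuous_const.max (continuous_const.sub c2)).smul c3)))
      exact this.continuousAt.comp_continuousWithinAt (f := fun z : ℝ × (ι → ℍ) => (z.1, f z.2))
        (continuousWithinAt_fst.prodMk ((hf.comp continuousOn_snd fun _ h => h.2) z hz)))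
  have k0 : ∀ q : S3, nz (kk η 0 q) = q := fun q => by simp [kk, nz_S3]
  have k1 : ∀ {f : (ι → ℍ) → S3}, ContinuousOn f (Om ι) →
      ContinuousOn (fun x => nz (kk η 1 (f x))) (Om ι) := fun hf =>
    (kc hf).comp (f := fun x => ((1 : ℝ), x)) (by fun_prop) fun x hx => ⟨by simp, hx⟩
  have e1 := DD_upd hc a0 (kc hf)
  have e2 := DD_upd hc a0 (kc hg)
  have e3 := DD_upd hc a0 ((kc hf).mul (kc hg))
  simp only [k0, Pi.mul_apply] at e1 e2 e3
  rw [e3, e1, e2, ← DD_neg hc a0 (k1 hf), ← DD_neg hc a0 (k1 hg),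
    ← DD_neg hc a0 (f := fun x => nz (kk η 1 (f x)) * nz (kk η 1 (g x))) ((k1 hf).mul (k1 hg))]
  have op : ∀ {f g : (ι → ℍ) → S3}, ContinuousOn f (Om ι) → ContinuousOn g (Om ι) →
      IsOpen {x ∈ Om ι | -1 + η < (g x : ℍ).re ∧ (nz (kk η 1 (f x)) : ℍ).re < 0} := fun hf hg =>
    ((rc hg).prodMk (rc (k1 hf))).isOpen_inter_preimage Om_open (isOpen_Ioi.prod isOpen_Iio)
  have ne1 : (1 : S3) ≠ -1 := fun e => by
    have := congrArg (fun q : S3 => (q : ℍ).re) e
    norm_num at this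
  have zz : ∀ {f : (ι → ℍ) → S3} {x}, FF (Function.update h a0 fun x => -f x) x = 0 →
      f x = -1 ∧ (-1 + η < (f x : ℍ).re → False) ∧ x ∈ Sp ι ∧ ∀ a ≠ a0, h a x = 1 := by
    intro f x e
    obtain ⟨h1, h2⟩ := FF_zero.1 e
    have : f x = -1 := by simpa [neg_eq_iff_eq_neg] using h2 a0
    exact ⟨this, fun e => by simp [this] at e; linarith, h1, fun a ha => by simpa [ha] using h2 a⟩
  have ex : ∀ {f g p : (ι → ℍ) → S3}, ContinuousOn f (Om ι) → ContinuousOn g (Om ι) →
      (∀ x ∈ Sp ι, (∀ a ≠ a0, h a x = 1) → -1 + η < (f x : ℍ).re ∨ -1 + η < (g x : ℍ).re) →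
      (∀ x, nz (kk η 1 (g x)) = 1 → p x = nz (kk η 1 (f x))) →
      DD (Function.update h a0 fun x => -nz (kk η 1 (f x))) =
      deg (FF (Function.update h a0 fun x => -p x))
        {x ∈ Om ι | -1 + η < (g x : ℍ).re ∧ (nz (kk η 1 (f x)) : ℍ).re < 0} := by
    intro f g p hf hg cov hp
    have a1 := FF_adm (upd_cont (a0 := a0) (f := fun x => -nz (kk η 1 (f x))) hc (k1 hf).neg)
    have z1 : ∀ x ∈ Om ι, FF (Function.update h a0 fun x => -nz (kk η 1 (f x))) x = 0 →
        x ∈ {x ∈ Om ι | -1 + η < (g x : ℍ).re ∧ (nz (kk η 1 (f x)) : ℍ).re < 0} := fun x hx e => by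
      obtain ⟨h1, -, h2, h3⟩ := zz e
      refine ⟨hx, (cov x h2 h3).resolve_left fun e' => ne1 ?_, by simp [h1]⟩
      rw [← h1, kk_one η1 e']
    rw [DD, deg_exc a1 (op hf hg) (sep_subset _ _) z1]
    refine deg_congr ⟨op hf hg, a1.cont.mono (sep_subset _ _), cpt_of a1.cpt
      (fun x hx => z1 x hx.1 hx.2) (a1.cont.mono (sep_subset _ _)) fun x hx e => ⟨hx.1, e⟩⟩
      fun x hx => funext fun a => ?_
    by_cases e : a = a0
    · subst e; simp [FF, hp x (kk_one η1 hx.2.1)]
    · simp [FF, e]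
  rw [ex (p := fun x => nz (kk η 1 (f x)) * nz (kk η 1 (g x))) hf hg cov (fun x e => by simp [e]),
    ex (p := fun x => nz (kk η 1 (f x)) * nz (kk η 1 (g x))) hg hf
      (fun x h1 h2 => (cov x h1 h2).symm) (fun x e => by simp [e])]
  refine deg_add (FF_adm (upd_cont hc ((k1 hf).mul (k1 hg)).neg)) (op hf hg) (op hg hf)
    (sep_subset _ _) (sep_subset _ _) (Set.disjoint_left.2 fun x h1 h2 => ?_) fun x hx e => ?_
  · have := h2.2.2
    rw [kk_one η1 h1.2.1] at this
    norm_num at this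
  · obtain ⟨h1, -, h2, h3⟩ := zz e
    rcases cov x h2 h3 with e' | e'
    · rw [kk_one η1 e', one_mul] at h1
      exact Or.inr ⟨hx, e', by simp [h1]⟩
    · rw [kk_one η1 e', mul_one] at h1
      exact Or.inl ⟨hx, e', by simp [h1]⟩

noncomputable def ev {B : Type} (w : FreeGroup B) (x : B → ℍ) : S3 :=
  FreeGroup.lift (fun a => nz (x a)) w

omit [DecidableEq ι] [Nonempty ι] in
theorem ev_cd (w : FreeGroup ι) {x} (hx : x ∈ Om ι) : ContDiffAt ℝ 1 (fun x => (ev w x : ℍ)) x := by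
  induction w using FreeGroup.induction_on with
  | C1 => simpa [ev] using contDiffAt_const
  | of a =>
    simpa [ev, Function.comp_def] using (nz_cd (hx a)).comp x (contDiffAt_apply ℝ ℍ a x)
  | inv_of a ih =>
    have e : ∀ q : ℍ, star q = (2 * inner ℝ q 1) • (1 : ℍ) - q := fun q => by
      ext <;> simp [Quaternion.inner_def]; ring
    simp only [ev, map_inv, S3.v_inv, e] at ih ⊢
    exact ((contDiffAt_const.mul (ih.inner ℝ contDiffAt_const)).smul contDiffAt_const).sub ih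
  | mul u v h1 h2 => simpa [ev] using h1.mul h2

omit [DecidableEq ι] [Nonempty ι] in
theorem ev_cont (w : FreeGroup ι) : ContinuousOn (ev w) (Om ι) := fun _ hx =>
  (Topology.IsInducing.subtypeVal.continuousAt_iff.2 (ev_cd w hx).continuousAt).continuousWithinAt

omit [Nonempty ι] in
theorem ev_miss (w : ι → FreeGroup ι) (v : FreeGroup ι) :
    ∃ (c : ι → S3) (d : S3), ∀ x ∈ Om ι, (∀ a, ev (w a) x = c a) → ev v x ≠ d := by
  let Ψ : (ι → ℍ) × ℝ → (ι → ℍ) × ℍ := fun z =>
    (fun a => ‖z.1 a‖ • (ev (w a) z.1 : ℍ), z.2 • (ev v z.1 : ℍ))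
  have h1 := dimH_image_le_of_locally_lipschitzOn (f := Ψ) (s := Om ι ×ˢ univ) fun z hz => by
    have c : ∀ u, ContDiffAt ℝ 1 (fun z : (ι → ℍ) × ℝ => (ev u z.1 : ℍ)) z := fun u =>
      (ev_cd u hz.1).comp z contDiffAt_fst
    have : ContDiffAt ℝ 1 Ψ z := (contDiffAt_pi.2 fun a =>
      (ContDiffAt.norm ℝ (f := fun z : (ι → ℍ) × ℝ => z.1 a) (by fun_prop) (hz.1 a)).smul
        (c _)).prodMk (contDiffAt_snd.smul (c _))
    obtain ⟨K, t, h1, h2⟩ := this.exists_lipschitzOnWith
    exact ⟨K, t, mem_nhdsWithin_of_mem_nhds h1, h2⟩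
  have h2 := dense_compl_of_dimH_lt_finrank (h1.trans_lt ((dimH_mono (subset_univ _)).trans_lt (by
    rw [Real.dimH_univ_eq_finrank]
    simp [Quaternion.finrank_eq_four])))
  obtain ⟨⟨y, z⟩, ⟨h3, h4⟩, h5⟩ := h2.inter_open_nonempty (Om ι ×ˢ {0}ᶜ)
    (Om_open.prod isOpen_compl_singleton) ⟨(1, 1), fun _ => one_ne_zero, one_ne_zero⟩
  refine ⟨fun a => nz (y a), nz z, fun x hx e1 e2 => h5 ?_⟩
  have e : (fun a => nz (‖y a‖ • (nz (x a) : ℍ))) = fun a => nz (x a) :=
    funext fun a => nz_smul (norm_pos_iff.2 (h3 a)) _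
  refine ⟨(fun a => ‖y a‖ • (nz (x a) : ℍ), ‖z‖), ⟨fun a => ?_, trivial⟩, ?_⟩
  · exact norm_pos_iff.1 (by simpa [norm_smul] using h3 a)
  · simp only [ev] at e1 e2
    simp [Ψ, ev, e, e1, e2, norm_smul, smul_nz]

noncomputable def DW (w : ι → FreeGroup ι) : ℝ := DD fun a => ev (w a)

theorem DW_add (w : ι → FreeGroup ι) (a0 : ι) (u v : FreeGroup ι) :
    DW (Function.update w a0 (u * v)) =
      DW (Function.update w a0 u) + DW (Function.update w a0 v) := by
  obtain ⟨c, d, H⟩ := ev_miss (Function.update w a0 u) v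
  have := DD_add0 (h := fun a x => (c a)⁻¹ * ev (w a) x) (fun a => continuousOn_const.mul
    (ev_cont _)) a0 (f := fun x => -(c a0)⁻¹ * ev u x) (g := fun x => ev v x * -d⁻¹)
    (continuousOn_const.mul (ev_cont _)) ((ev_cont _).mul continuousOn_const)
    fun x hx h1 h2 h3 => H x (Sp_sub hx) (fun a => by
      by_cases e : a = a0
      · subst e; symm; simpa [inv_mul_eq_one] using h2
      · symm; simpa [inv_mul_eq_one, e] using h1 a e) (by simpa [mul_inv_eq_one] using h3)
  have key : ∀ (u : FreeGroup ι) (l r : S3) (f : (ι → ℍ) → S3), (∀ x, f x = l * ev u x * r) →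
      DD (Function.update (fun a x => (c a)⁻¹ * ev (w a) x) a0 f) =
        DW (Function.update w a0 u) := fun u l r f hf => by
    rw [DW, ← DD_mul (fun a => ev_cont _) (Function.update c⁻¹ a0 l) (Function.update 1 a0 r)]
    congr 1
    ext1 a
    by_cases e : a = a0
    · subst e; simpa using funext hf
    · simp [e]
  rwa [key (u * v) (-(c a0)⁻¹) (-d⁻¹) _ (by simp [ev, mul_assoc]), key u (-(c a0)⁻¹) 1 _ (by simp),
    key v 1 (-d⁻¹) _ (by simp)] at this

theorem DW_eq (w : ι → FreeGroup ι) {a a' : ι} (h : w a = w a') (h' : a ≠ a') : DW w = 0 := by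
  rw [DW, ← DD_mul (fun a => ev_cont _) (Function.update 1 a (-1)) 1]
  refine deg_zero (FF_adm fun a => (continuousOn_const.mul (ev_cont _)).mul
    continuousOn_const).cont fun x _ e => ?_
  have h1 := (FF_zero.1 e).2 a
  have h2 := (FF_zero.1 e).2 a'
  simp only [Function.update_self, h, Function.update_of_ne h'.symm, Pi.one_apply, mul_one,
    one_mul] at h1 h2
  have := congrArg (fun q : S3 => (q : ℍ).re) h1
  norm_num [h2] at this

omit [DecidableEq ι] in
theorem DW_of : 0 < DW (FreeGroup.of : ι → _) := by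
  have : FF (fun a => ev (FreeGroup.of a)) = fun x : ι → ℍ => x - 1 := by
    ext1 x; ext1 a; simp [FF, ev, smul_nz]
  rw [DW, DD, this]
  exact deg_id Om_open fun _ => one_ne_zero

noncomputable def abm {B : Type*} : FreeGroup B →* Multiplicative (B →₀ ℤ) :=
  FreeGroup.lift fun a => Multiplicative.ofAdd (Finsupp.single a 1)

noncomputable def ab {B : Type*} (w : FreeGroup B) : B →₀ ℤ := (abm w).toAdd

@[simp] theorem ab_one {B : Type*} : ab (1 : FreeGroup B) = 0 := by simp [ab]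
@[simp] theorem ab_mul {B : Type*} (u v : FreeGroup B) : ab (u * v) = ab u + ab v := by simp [ab]
@[simp] theorem ab_inv {B : Type*} (u : FreeGroup B) : ab u⁻¹ = -ab u := by simp [ab]
@[simp] theorem ab_of {B : Type*} (a : B) : ab (.of a) = Finsupp.single a 1 := by simp [ab, abm]

theorem ab_surj {B : Type*} : Function.Surjective (ab : FreeGroup B → _) := fun m => by
  induction m using Finsupp.induction_linear with
  | zero => exact ⟨1, ab_one⟩
  | add f g hf hg =>
    obtain ⟨u, rfl⟩ := hf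
    obtain ⟨v, rfl⟩ := hg
    exact ⟨_, ab_mul u v⟩
  | single a n => exact ⟨.of a ^ n, by simp [ab, abm]⟩

theorem DW_ab1 (w : ι → FreeGroup ι) (a0 : ι) (u : FreeGroup ι) :
    DW (Function.update w a0 u) = Finsupp.linearCombination ℤ
      (fun j => DW (Function.update w a0 (.of j))) (ab u) := by
  have h1 : DW (Function.update w a0 1) = 0 := by simpa using DW_add w a0 1 1
  induction u using FreeGroup.induction_on with
  | C1 => simpa using h1
  | of a => simp
  | inv_of a ih =>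
    have := DW_add w a0 (.of a) (.of a)⁻¹
    rw [mul_inv_cancel, h1] at this
    simp; linarith
  | mul u v h1 h2 => rw [DW_add, h1, h2, ab_mul, map_add]

theorem DW_ab {w w' : ι → FreeGroup ι} (h : ∀ a, ab (w a) = ab (w' a)) : DW w = DW w' := by
  have : ∀ s : Finset ι, DW (s.piecewise w w') = DW w' := fun s => by
    induction s using Finset.induction_on with
    | empty => simp
    | insert a s ha ih =>
      rw [Finset.piecewise_insert, DW_ab1, h, ← DW_ab1, ← ih,
        ← Finset.piecewise_eq_of_notMem s w w' ha, Function.update_eq_self]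
  simpa using this Finset.univ

theorem DW_ne {w : ι → FreeGroup ι} (h : LinearIndependent ℝ fun a j => (ab (w a) j : ℝ)) :
    DW w ≠ 0 := by
  choose σ hσ using ab_surj (B := ι)
  have up : ∀ (m : ι → ι →₀ ℤ) a x, DW (σ ∘ Function.update m a x) = Finsupp.linearCombination ℤ
      (fun j => DW (Function.update (σ ∘ m) a (.of j))) x := fun m a x => by
    rw [Function.comp_update, DW_ab1, hσ]
  let A : (ι →₀ ℤ) [⋀^ι]→ₗ[ℤ] ℝ :=
    { MultilinearMap.mk' (fun m => DW (σ ∘ m)) (fun m a x y => by simp only [up, map_add])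
        (fun m a c x => by simp only [up, map_smul]) with
      map_eq_zero_of_eq' := fun m a a' e e' => DW_eq _ (congrArg σ e) e' }
  let e := Finsupp.basisSingleOne (R := ℤ) (ι := ι)
  have e1 : A = (LinearMap.toSpanSingleton ℤ ℝ (A e)).compAlternatingMap e.det := by
    refine Module.Basis.ext_alternating e fun i h => ?_
    let τ : Equiv.Perm ι := Equiv.ofBijective i (Finite.injective_iff_bijective.1 h)
    change A (e ∘ τ) = LinearMap.toSpanSingleton ℤ ℝ (A e) (e.det (e ∘ τ))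
    simp [AlternatingMap.map_perm, Module.Basis.det_self, Units.smul_def]
  have e2 : A e = DW .of := DW_ab fun a => by simp [hσ, e]
  have e3 : DW w = A fun a => ab (w a) := DW_ab fun a => by simp [hσ]
  rw [e3, e1, e2]
  simp only [LinearMap.compAlternatingMap_apply, LinearMap.toSpanSingleton_apply]
  refine smul_ne_zero (fun e4 => ?_) DW_of.ne'
  have := (Matrix.isUnit_iff_isUnit_det _).1
    ((Matrix.linearIndependent_cols_iff_isUnit (A := Matrix.of fun j a => (ab (w a) j : ℝ))).1 h)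
  refine this.ne_zero ?_
  rw [Module.Basis.det_apply] at e4
  have e5 := (Int.castRingHom ℝ).map_det (e.toMatrix fun a => ab (w a))
  rw [e4, map_zero] at e5
  rw [e5]
  congr 1

theorem im_zero {q : S3} (h : 0 < (q : ℍ).re) (h' : (q : ℍ).im = 0) : q = 1 := by
  have n := q.nrm
  rw [← Quaternion.re_add_im (q : ℍ), h', add_zero, norm_coe, Real.norm_of_nonneg h.le] at n
  ext1
  rw [← Quaternion.re_add_im (q : ℍ), h', n]; simp

theorem word_deg {w : ι → FreeGroup ι} (h : LinearIndependent ℝ fun a j => (ab (w a) j : ℝ))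
    {Ω : Set (ι → ℍ)} (o : IsOpen Ω) (s : Ω ⊆ Om ι) (hp : ∀ x ∈ Ω, ∀ a, 0 < (ev (w a) x : ℍ).re)
    (hz : ∀ x ∈ Sp ι, (∀ a, ev (w a) x = 1) → x ∈ Ω) :
    deg (fun x a => (‖x a‖ - 1) • (1 : ℍ) + (ev (w a) x : ℍ).im) Ω ≠ 0 := by
  have a1 := FF_adm (h := fun a => ev (w a)) fun a => ev_cont _
  have c1 : ∀ a, ContinuousOn (fun z : ℝ × (ι → ℍ) => (ev (w a) z.2 : ℍ)) (Icc 0 1 ×ˢ Ω) :=
    fun a => (S3.cont.comp_continuousOn (ev_cont _)).comp continuousOn_snd fun _ h => s h.2
  have := deg_homot (F := fun (z : ℝ × (ι → ℍ)) a => (1 - z.1) • (‖z.2 a‖ • (ev (w a) z.2 : ℍ) - 1) +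
    z.1 • ((‖z.2 a‖ - 1) • (1 : ℍ) + (ev (w a) z.2 : ℍ).im)) o (continuousOn_pi.2 fun a => by
      have c2 : Continuous fun z : ℝ × (ι → ℍ) => ‖z.2 a‖ := by fun_prop
      exact ((continuousOn_const.sub continuousOn_fst).smul ((c2.continuousOn.smul (c1 a)).sub
        continuousOn_const)).add (continuousOn_fst.smul (((c2.continuousOn.sub
        continuousOn_const).smul continuousOn_const).add
        (continuous_im.comp_continuousOn (c1 a))))) a1.cpt (fun x hx => hz x (FF_zero.1 hx.2).1 (FF_zero.1 hx.2).2)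
    fun t ht x hx e => ⟨s hx, funext fun a => by
      have e1 := congrFun e a
      have n : 0 < ‖x a‖ := norm_pos_iff.2 (s hx a)
      have e2 : ((1 - t) * ‖x a‖ + t) • (ev (w a) x : ℍ).im = 0 := by
        have := congrArg Quaternion.im e1
        rw [← Quaternion.im_zero, ← show _ = Quaternion.im 0 from this]
        ext <;> simp <;> ring
      have t0 := ht.1
      have t1 := sub_nonneg.2 ht.2
      have e3 := im_zero (hp x hx a) ((smul_eq_zero.1 e2).resolve_left (by
        rcases t0.eq_or_lt with rfl | t0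
        · simpa using n.ne'
        · positivity))
      have := congrArg QuaternionAlgebra.re e1
      simp [e3] at this
      have : ‖x a‖ = 1 := by linarith
      simp [FF, e3, this]⟩
  simp only [sub_zero, one_smul, zero_smul, add_zero, sub_self, zero_add] at this
  rw [← this]
  exact (deg_exc a1 o s fun x _ e => hz x (FF_zero.1 e).1 (FF_zero.1 e).2) ▸ DW_ne h

end Vale.Agent.P173
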